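import Vale.Agent.P371.G.Defs

open Real Finset Filter Topology MeasureTheory Matrix

namespace Vale.Agent.P371.G

theorem rr_den_pos {x : ℝ} (hx : |x| < 1) (φ : ℝ) : 0 < 1 - cos φ * x := by
  have h1 : |cos φ * x| ≤ |x| := by
    rw [abs_mul]; exact mul_le_of_le_one_left (abs_nonneg _) (abs_cos_le_one φ)
  have := (abs_le.mp h1).2
  linarith

theorem rr_cont {x : ℝ} (hx : |x| < 1) : Continuous (rr x) := by
  unfold rr
  exact Continuous.inv₀ (by fun_prop) (fun φ => (rr_den_pos hx φ).ne')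

theorem co_pos {x : ℝ} (hx : |x| < 1) : 0 < co x := by
  unfold co
  have : x ^ 2 < 1 := by rw [← sq_abs]; nlinarith [abs_nonneg x]
  exact Real.sqrt_pos.mpr (by linarith)

theorem co_sq {x : ℝ} (hx : |x| < 1) : co x ^ 2 = 1 - x ^ 2 := by
  unfold co
  have : x ^ 2 < 1 := by rw [← sq_abs]; nlinarith [abs_nonneg x]
  exact Real.sq_sqrt (by linarith)

theorem Av_rr {x : ℝ} (hx : |x| < 1) : Av (rr x) = (co x)⁻¹ := by
  have hc := co_pos hx
  have hc2 := co_sq hx
  set c := co x with hcd
  set t := x / (1 + c) with ht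
  have htx : t * (1 + c) = x := by rw [ht]; field_simp
  have hta : |t| < 1 := by
    rw [ht, abs_div, abs_of_pos (by linarith : 0 < 1 + c), div_lt_one (by linarith)]
    linarith
  have h1 : x * (1 + t ^ 2) = 2 * t := by
    have : (1 + c) ^ 2 * (x * (1 + t ^ 2) - 2 * t) = 0 := by
      have e1 : (1 + c) ^ 2 * (x * (1 + t ^ 2) - 2 * t) =
          x * ((1 + c) ^ 2 + (t * (1 + c)) ^ 2) - 2 * (t * (1 + c)) * (1 + c) := by ring
      rw [e1, htx]
      linear_combination x * hc2
    rcases mul_eq_zero.mp this with h | h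
    · exact absurd h (by positivity)
    · linarith
  have h2 : c * (1 + t ^ 2) = 1 - t ^ 2 := by
    have : (1 + c) ^ 2 * (c * (1 + t ^ 2) - (1 - t ^ 2)) = 0 := by
      have e1 : (1 + c) ^ 2 * (c * (1 + t ^ 2) - (1 - t ^ 2)) =
          (c - 1) * (1 + c) ^ 2 + (c + 1) * (t * (1 + c)) ^ 2 := by ring
      rw [e1, htx]
      linear_combination (1 + c) * hc2
    rcases mul_eq_zero.mp this with h | h
    · exact absurd h (by positivity)
    · linarith
  have hder : ∀ φ : ℝ, HasDerivAt
      (fun φ => c⁻¹ * (φ + 2 * arctan (t * sin φ / (1 - cos φ * t)))) (rr x φ) φ := by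
    intro φ
    have hd := rr_den_pos hta φ
    have hd' := rr_den_pos hx φ
    have d1 : HasDerivAt (fun φ => t * sin φ) (t * cos φ) φ := (hasDerivAt_sin φ).const_mul t
    have d2 : HasDerivAt (fun φ => 1 - cos φ * t) (-(-sin φ * t)) φ :=
      ((hasDerivAt_cos φ).mul_const t).const_sub 1
    have d3 := (d1.div d2 hd.ne').arctan
    have d4 := (((hasDerivAt_id φ).add (d3.const_mul 2))).const_mul c⁻¹
    refine d4.congr_deriv ?_
    have hs : sin φ ^ 2 = 1 - cos φ ^ 2 := by have := sin_sq_add_cos_sq φ; linarith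
    have hden : (1 - cos φ * t) ^ 2 + (t * sin φ) ^ 2 = (1 + t ^ 2) * (1 - cos φ * x) := by
      linear_combination t ^ 2 * hs + cos φ * h1
    have hnum : t * cos φ * (1 - cos φ * t) - t * sin φ * -(-sin φ * t) = t * cos φ - t ^ 2 := by
      linear_combination (-t ^ 2) * hs
    have e1 : 1 / (1 + (t * sin φ / (1 - cos φ * t)) ^ 2) =
        (1 - cos φ * t) ^ 2 / ((1 + t ^ 2) * (1 - cos φ * x)) := by
      rw [← hden, div_pow, one_add_div (pow_pos hd 2).ne', one_div_div]
    simp only [Pi.div_apply]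
    rw [e1, hnum]
    unfold rr
    have ht2 : 0 < 1 + t ^ 2 := by positivity
    field_simp
    linear_combination (-1 : ℝ) * h2 - cos φ * h1
  unfold Av
  rw [intervalIntegral.integral_eq_sub_of_hasDerivAt (fun φ _ => hder φ)
    ((rr_cont hx).intervalIntegrable _ _)]
  simp only [sin_pi, sin_zero, mul_zero, zero_div, arctan_zero, add_zero, sub_zero]
  field_simp

end Vale.Agent.P371.G
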