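import Vale.Agent.P371.G.AvA

open Real Finset Filter Topology MeasureTheory Matrix

namespace Vale.Agent.P371.G

theorem avb_lin {f g : ℝ → ℝ} (hf : Continuous f) (hg : Continuous g) (a b : ℝ) :
    Av (fun φ => a * f φ + b * g φ) = a * Av f + b * Av g := by
  unfold Av
  rw [intervalIntegral.integral_add ((hf.const_mul a).intervalIntegrable _ _)
    ((hg.const_mul b).intervalIntegrable _ _), intervalIntegral.integral_const_mul,
    intervalIntegral.integral_const_mul]
  ring

theorem avb_smul (f : ℝ → ℝ) (a : ℝ) : Av (fun φ => a * f φ) = a * Av f := by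
  unfold Av
  rw [intervalIntegral.integral_const_mul]
  ring

theorem mu_self {x : ℝ} (hx : |x| < 1) : mu x x = (co x ^ 3)⁻¹ := by
  have hc := co_pos hx
  have hc2 := co_sq hx
  have hr := rr_cont hx
  have hder : ∀ φ : ℝ, HasDerivAt (fun φ => x * (sin φ * (1 - cos φ * x)⁻¹))
      ((1 - x ^ 2) * (rr x φ * rr x φ) + (-1) * rr x φ) φ := by
    intro φ
    have hd := rr_den_pos hx φ
    have d2 : HasDerivAt (fun φ => 1 - cos φ * x) (-(-sin φ * x)) φ :=
      ((hasDerivAt_cos φ).mul_const x).const_sub 1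
    have d3 := ((hasDerivAt_sin φ).mul (d2.inv hd.ne')).const_mul x
    refine d3.congr_deriv ?_
    have hs : sin φ ^ 2 = 1 - cos φ ^ 2 := by have := sin_sq_add_cos_sq φ; linarith
    unfold rr
    simp only [Pi.inv_apply]
    have hu : (1 - cos φ * x)⁻¹ * (1 - cos φ * x) = 1 := inv_mul_cancel₀ hd.ne'
    rw [div_eq_mul_inv, ← inv_pow]
    set u := (1 - cos φ * x)⁻¹
    linear_combination (-x ^ 2 * u ^ 2) * hs - (x * cos φ * u + u) * hu
  have hz : Av (fun φ => (1 - x ^ 2) * (rr x φ * rr x φ) + (-1) * rr x φ) = 0 := by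
    unfold Av
    rw [intervalIntegral.integral_eq_sub_of_hasDerivAt (fun φ _ => hder φ)
      (Continuous.intervalIntegrable (by fun_prop) _ _)]
    simp
  rw [avb_lin (f := fun φ => rr x φ * rr x φ) (hr.mul hr) hr, Av_rr hx, ← hc2] at hz
  unfold mu
  field_simp at hz ⊢
  linarith

theorem mu_id {x y : ℝ} (hx : |x| < 1) (hy : |y| < 1) :
    mu x y * (1 - x * y + co x * co y) = (co x)⁻¹ + (co y)⁻¹ := by
  have hcx := co_pos hx
  have hcy := co_pos hy
  have hx2 := co_sq hx
  have hy2 := co_sq hy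
  by_cases hxy : x = y
  · subst hxy
    rw [mu_self hx]
    field_simp
    linear_combination (-1 : ℝ) * hx2
  · have h1 : (x - y) * mu x y = x * (co x)⁻¹ + (-y) * (co y)⁻¹ := by
      unfold mu
      rw [← avb_smul, ← Av_rr hx, ← Av_rr hy, ← avb_lin (rr_cont hx) (rr_cont hy)]
      congr 1
      funext φ
      have hd := rr_den_pos hx φ
      have hd' := rr_den_pos hy φ
      unfold rr
      have hu : (1 - cos φ * x)⁻¹ * (1 - cos φ * x) = 1 := inv_mul_cancel₀ hd.ne'
      have hv : (1 - cos φ * y)⁻¹ * (1 - cos φ * y) = 1 := inv_mul_cancel₀ hd'.ne'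
      set u := (1 - cos φ * x)⁻¹
      set v := (1 - cos φ * y)⁻¹
      linear_combination (x * u) * hv - (y * v) * hu
    have hne : x - y ≠ 0 := sub_ne_zero.mpr hxy
    apply mul_left_cancel₀ hne
    rw [← mul_assoc, h1]
    field_simp
    linear_combination (-y * co y) * hx2 + (x * co x) * hy2

end Vale.Agent.P371.G
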