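import Vale.Agent.P371.G.ResM
import Vale.Agent.P371.G.AvB

open Real Finset Filter Topology MeasureTheory Matrix

namespace Vale.Agent.P371.G

variable {ι : Type} [Fintype ι] [DecidableEq ι]
  {E Q S : Matrix ι ι ℝ} {x : ι → ℝ}

theorem b1_tr (S Y : Matrix ι ι ℝ) (d : ι → ℝ) :
    trace (S * diagonal d * Sᵀ * Y) = ∑ i, d i * (Sᵀ * Y * S) i i := by
  rw [show S * diagonal d * Sᵀ * Y = S * (diagonal d * (Sᵀ * Y)) by simp only [Matrix.mul_assoc],
    trace_mul_comm, Matrix.mul_assoc]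
  simp only [trace, diag_apply, diagonal_mul]

theorem SD.b1 (h : SD E Q S x) :
    Mt E Q (E * E - Q * Q) + Mt E Q (GM E S x * GM E S x) = 2 * Jt E Q 1 := by
  set H := Sᵀ * (E * E) * S with hH
  set P := Sᵀ * S * Sᵀ * S with hP
  have qq : Sᵀ * (Q * Q) * S = diagonal x * H * diagonal x := by
    have e : Sᵀ * (Q * Q) * S = Sᵀ * Q * (S * Sᵀ * E) * (E * S * Sᵀ) * Q * S := by
      rw [h.right, h.left]
      simp only [Matrix.mul_one, Matrix.mul_assoc]
    rw [e, ← h.hQ, hH]
    simp only [Matrix.mul_assoc]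
  have gg : Sᵀ * (GM E S x * GM E S x) * S =
      diagonal (fun i => co (x i)) * H * diagonal (fun i => co (x i)) := by
    have e : Sᵀ * (GM E S x * GM E S x) * S = (Sᵀ * E * S) * diagonal (fun i => co (x i)) * H *
        diagonal (fun i => co (x i)) * (Sᵀ * E * S) := by
      simp only [hH, GM, Matrix.mul_assoc]
    rw [e, h.hE, Matrix.one_mul, Matrix.mul_one]
  have PH : P * H = Sᵀ * S := by
    have e : P * H = Sᵀ * S * (Sᵀ * (S * Sᵀ * E) * E * S) := by
      simp only [hH, hP, Matrix.mul_assoc]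
    rw [e, h.right, Matrix.mul_one, h.hE, Matrix.mul_one]
  have HP : H * P = Sᵀ * S := by
    have e : H * P = (Sᵀ * E * (E * S * Sᵀ) * S) * (Sᵀ * S) := by
      simp only [hH, hP, Matrix.mul_assoc]
    rw [e, h.left, Matrix.mul_one, h.hE, Matrix.one_mul]
  rw [h.mt, h.mt, h.jt, b1_tr, Matrix.mul_one, Matrix.mul_sub, Matrix.sub_mul, qq, gg, ← hH, ← hP,
    ← sum_add_distrib]
  have e1 : ∀ i, ∑ j, mu (x i) (x j) * (P i j * (H - diagonal x * H * diagonal x) j i) +
      ∑ j, mu (x i) (x j) * (P i j * (diagonal (fun i => co (x i)) * H *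
        diagonal (fun i => co (x i))) j i) =
      ∑ j, (co (x i))⁻¹ * (P i j * H j i) + ∑ j, (co (x j))⁻¹ * (H j i * P i j) := by
    intro i
    rw [← sum_add_distrib, ← sum_add_distrib]
    refine sum_congr rfl fun j _ => ?_
    rw [Matrix.sub_apply, mul_diagonal, diagonal_mul, mul_diagonal, diagonal_mul]
    linear_combination (P i j * H j i) * mu_id (h.hx i) (h.hx j)
  simp only [e1]
  rw [sum_add_distrib, sum_comm (f := fun i j => (co (x j))⁻¹ * (H j i * P i j))]
  simp only [← mul_sum, ← Matrix.mul_apply, PH, HP]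
  ring

end Vale.Agent.P371.G
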