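import Vale.Agent.P371.G.ResM
import Vale.Agent.P371.G.AvB

open Real Finset Filter Topology MeasureTheory Matrix

namespace Vale.Agent.P371.G

variable {ι : Type} [Fintype ι] [DecidableEq ι]
  {E Q S : Matrix ι ι ℝ} {x : ι → ℝ}

theorem b2_tr_diag (u : ι → ℝ) (P : Matrix ι ι ℝ) :
    trace (diagonal u * P) = ∑ i, u i * P i i := by
  simp [trace, diagonal_mul]

theorem b2_pt {A B P : Matrix ι ι ℝ} (hA : Aᵀ = A) (hP : Pᵀ = P) (hAB : A * B = 1)
    (hBA : B * A = 1) (hB : B.PosSemidef) (r u : ι → ℝ) :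
    ∑ i, (2 * (u i * r i) * P i i - u i * u i * B i i) ≤
      trace (P * diagonal r * A * diagonal r * P) := by
  have h0 : 0 ≤ trace ((A * diagonal r * P - diagonal u)ᵀ * B *
      (A * diagonal r * P - diagonal u)) := by
    have := (hB.conjTranspose_mul_mul_same (A * diagonal r * P - diagonal u)).trace_nonneg
    rwa [conjTranspose_eq_transpose_of_trivial] at this
  have e : (A * diagonal r * P - diagonal u)ᵀ * B * (A * diagonal r * P - diagonal u) =
      P * diagonal r * (A * B) * A * diagonal r * P - P * diagonal r * (A * B) * diagonal u -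
        diagonal u * (B * A) * diagonal r * P + diagonal u * B * diagonal u := by
    simp only [transpose_sub, transpose_mul, diagonal_transpose, hA, hP]
    noncomm_ring
  rw [e, hAB, hBA] at h0
  simp only [Matrix.mul_one, trace_add, trace_sub] at h0
  have e1 : trace (P * diagonal r * diagonal u) = ∑ i, u i * r i * P i i := by
    rw [Matrix.mul_assoc, trace_mul_comm, diagonal_mul_diagonal, b2_tr_diag]
    exact Finset.sum_congr rfl fun i _ => by ring
  have e2 : trace (diagonal u * diagonal r * P) = ∑ i, u i * r i * P i i := by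
    rw [diagonal_mul_diagonal, b2_tr_diag]
  have e3 : trace (diagonal u * B * diagonal u) = ∑ i, u i * u i * B i i := by
    rw [trace_mul_comm, ← Matrix.mul_assoc, diagonal_mul_diagonal, b2_tr_diag]
  rw [e1, e2, e3] at h0
  have e4 : ∑ i, (2 * (u i * r i) * P i i - u i * u i * B i i) =
      2 * ∑ i, u i * r i * P i i - ∑ i, u i * u i * B i i := by
    rw [Finset.mul_sum, ← Finset.sum_sub_distrib]
    exact Finset.sum_congr rfl fun i _ => by ring
  rw [e4]
  linarith

theorem SD.b2 (h : SD E Q S x) {Γ : Matrix ι ι ℝ} (hΓ : Γ.PosDef) :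
    2 * Jt E Q 1 ≤ Mt E Q Γ + trace (GM E S x * Γ⁻¹) := by
  have hΓs : Γᵀ = Γ := psd_symm hΓ.posSemidef
  have hu : IsUnit Γ.det := (Matrix.isUnit_iff_isUnit_det _).1 hΓ.isUnit
  set A := Sᵀ * Γ * S with hAd
  set B := Sᵀ * E * Γ⁻¹ * E * S with hBd
  set P := Sᵀ * S with hPd
  have hA : Aᵀ = A := by
    rw [hAd, transpose_mul, transpose_mul, transpose_transpose, hΓs, Matrix.mul_assoc]
  have hP : Pᵀ = P := by rw [hPd, transpose_mul, transpose_transpose]
  have hAB : A * B = 1 := by
    have : A * B = Sᵀ * (Γ * (S * Sᵀ * E) * Γ⁻¹) * E * S := by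
      rw [hAd, hBd]; simp only [Matrix.mul_assoc]
    rw [this, h.right, Matrix.mul_one, mul_nonsing_inv _ hu, Matrix.mul_one, h.hE]
  have hBA : B * A = 1 := mul_eq_one_comm.1 hAB
  have hB : B.PosSemidef := by
    have := hΓ.inv.posSemidef.conjTranspose_mul_mul_same (E * S)
    rw [conjTranspose_eq_transpose_of_trivial, transpose_mul, h.symE] at this
    rw [hBd]
    simpa only [Matrix.mul_assoc] using this
  have hf : ∀ φ, trace (Res E Q φ * E⁻¹ * Res E Q φ * Γ) =
      trace (P * diagonal (fun i => rr (x i) φ) * A * diagonal (fun i => rr (x i) φ) * P) := by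
    intro φ
    rw [h.res, h.inv, hPd, hAd]
    set R := diagonal (fun i => rr (x i) φ)
    have e1 : S * R * Sᵀ * (S * Sᵀ) * (S * R * Sᵀ) * Γ =
        (S * R * (Sᵀ * S)) * (Sᵀ * S * R * Sᵀ * Γ) := by simp only [Matrix.mul_assoc]
    rw [e1, trace_mul_comm]
    simp only [Matrix.mul_assoc]
  have hrc : ∀ i, Continuous (rr (x i)) := fun i => rr_cont (h.hx i)
  have hfc : Continuous fun φ =>
      trace (P * diagonal (fun i => rr (x i) φ) * A * diagonal (fun i => rr (x i) φ) * P) := by
    have hd : Continuous fun φ => diagonal (fun i => rr (x i) φ) :=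
      (continuous_pi hrc).matrix_diagonal
    exact ((((continuous_const.matrix_mul hd).matrix_mul continuous_const).matrix_mul
      hd).matrix_mul continuous_const).matrix_trace
  have hgc : ∀ i, Continuous fun φ => rr (x i) φ * rr (x i) φ := fun i => (hrc i).mul (hrc i)
  have key : ∫ φ in (0 : ℝ)..π, ∑ i, (2 * co (x i) ^ 2 * P i i - co (x i) ^ 4 * B i i) *
      (rr (x i) φ * rr (x i) φ) ≤ ∫ φ in (0 : ℝ)..π,
        trace (P * diagonal (fun i => rr (x i) φ) * A * diagonal (fun i => rr (x i) φ) * P) := by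
    refine intervalIntegral.integral_mono_on pi_pos.le
      ((continuous_finsetSum _ fun i _ => continuous_const.mul (hgc i)).intervalIntegrable _ _)
      (hfc.intervalIntegrable _ _) fun φ _ => ?_
    refine le_trans (le_of_eq ?_) (b2_pt hA hP hAB hBA hB (fun i => rr (x i) φ)
      fun i => co (x i) ^ 2 * rr (x i) φ)
    exact Finset.sum_congr rfl fun i _ => by ring
  have hgc' : ∀ i, Continuous fun φ => (2 * co (x i) ^ 2 * P i i - co (x i) ^ 4 * B i i) *
      (rr (x i) φ * rr (x i) φ) := fun i => continuous_const.mul (hgc i)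
  rw [intervalIntegral.integral_finsetSum fun i _ => (hgc' i).intervalIntegrable _ _] at key
  have hM : Mt E Q Γ = π⁻¹ * ∫ φ in (0 : ℝ)..π,
      trace (P * diagonal (fun i => rr (x i) φ) * A * diagonal (fun i => rr (x i) φ) * P) := by
    unfold Mt Av
    simp only [hf]
  have hJ : Jt E Q 1 = ∑ i, (co (x i))⁻¹ * P i i := by
    rw [h.jt, Matrix.mul_one, Matrix.mul_assoc, trace_mul_comm, Matrix.mul_assoc, b2_tr_diag]
  have hG : trace (GM E S x * Γ⁻¹) = ∑ i, co (x i) * B i i := by
    have e1 : GM E S x * Γ⁻¹ = (E * S) * (diagonal (fun i => co (x i)) * (Sᵀ * E * Γ⁻¹)) := by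
      unfold GM; simp only [Matrix.mul_assoc]
    rw [e1, trace_mul_comm, Matrix.mul_assoc, b2_tr_diag, hBd]
    simp only [Matrix.mul_assoc]
  have hS : π⁻¹ * ∑ i, ∫ φ in (0 : ℝ)..π, (2 * co (x i) ^ 2 * P i i - co (x i) ^ 4 * B i i) *
      (rr (x i) φ * rr (x i) φ) = 2 * Jt E Q 1 - trace (GM E S x * Γ⁻¹) := by
    rw [hJ, hG, Finset.mul_sum, Finset.mul_sum, ← Finset.sum_sub_distrib]
    refine Finset.sum_congr rfl fun i _ => ?_
    have hm := mu_self (h.hx i)
    unfold mu Av at hm
    have hc := (co_pos (h.hx i)).ne'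
    rw [intervalIntegral.integral_const_mul, mul_left_comm, hm]
    field_simp
  have := mul_le_mul_of_nonneg_left key (inv_nonneg.2 pi_pos.le)
  rw [hS, ← hM] at this
  linarith

end Vale.Agent.P371.G
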