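import Vale.Agent.P371.G.Spec

open Real Finset Filter Topology MeasureTheory Matrix

namespace Vale.Agent.P371.G

variable {ι : Type} [Fintype ι] [DecidableEq ι]

theorem b3_core {G Gi W Wi r ri : Matrix ι ι ℝ} (sG : Gᵀ = G) (sGi : Giᵀ = Gi) (sW : Wᵀ = W)
    (sr : rᵀ = r) (sri : riᵀ = ri) (hWi : Wi.PosSemidef) (g1 : G * Gi = 1) (g2 : Gi * G = 1)
    (w1 : W * Wi = 1) (r1 : r * ri = 1) (r2 : ri * r = 1) (hr : r * r = Gi * W * W * Gi) :
    (G * G + W * W - (2 : ℝ) • (G * r * G)).PosSemidef ∧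
      trace (G * (G * r * G)⁻¹) ≤ trace Wi := by
  constructor
  · have e1 : G * (r * r) * G = W * W := by
      rw [hr]
      calc G * (Gi * W * W * Gi) * G = (G * Gi) * (W * W) * (Gi * G) := by
            simp only [Matrix.mul_assoc]
        _ = W * W := by rw [g1, g2, Matrix.one_mul, Matrix.mul_one]
    have e2 : G * G + W * W - (2 : ℝ) • (G * r * G) = (G * (1 - r)) * (G * (1 - r))ᵀ := by
      rw [transpose_mul, transpose_sub, transpose_one, sr, sG, ← e1, two_smul]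
      noncomm_ring
    rw [e2]
    exact gram_psd _
  · have e1 : (G * r * G)⁻¹ = Gi * ri * Gi := by
      apply Matrix.inv_eq_right_inv
      calc G * r * G * (Gi * ri * Gi) = G * (r * ((G * Gi) * ri)) * Gi := by
            simp only [Matrix.mul_assoc]
        _ = 1 := by rw [g1, Matrix.one_mul, r1, Matrix.mul_one, g1]
    obtain ⟨U, hU⟩ : ∃ U, U = ri * Gi * W := ⟨_, rfl⟩
    have e2 : G * (G * r * G)⁻¹ = U * Wi := by
      rw [e1, hU]
      calc G * (Gi * ri * Gi) = (G * Gi) * (ri * Gi) := by simp only [Matrix.mul_assoc]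
        _ = ri * Gi * (W * Wi) := by rw [g1, w1, Matrix.one_mul, Matrix.mul_one]
        _ = _ := by simp only [Matrix.mul_assoc]
    have e3 : U * Uᵀ = 1 := by
      rw [hU, transpose_mul, transpose_mul, sW, sGi, sri]
      calc ri * Gi * W * (W * (Gi * ri)) = ri * (Gi * W * W * Gi) * ri := by
            simp only [Matrix.mul_assoc]
        _ = (ri * r) * (r * ri) := by rw [← hr]; simp only [Matrix.mul_assoc]
        _ = 1 := by rw [r1, r2, Matrix.mul_one]
    have e4 : Uᵀ * U = 1 := mul_eq_one_comm.mp e3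
    have h1 := trace_mul_nonneg (gram_psd (1 - U)ᵀ) hWi
    have e5 : (1 - U)ᵀ * (1 - U)ᵀᵀ * Wi = Wi - U * Wi - Uᵀ * Wi + Uᵀ * U * Wi := by
      rw [transpose_transpose, transpose_sub, transpose_one]
      noncomm_ring
    have e6 : trace (Uᵀ * Wi) = trace (U * Wi) := by
      rw [← trace_transpose (Uᵀ * Wi), transpose_mul, transpose_transpose, psd_symm hWi,
        trace_mul_comm]
    rw [e5, e4, Matrix.one_mul, trace_add, trace_sub, trace_sub, e6] at h1
    rw [e2]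
    linarith

theorem b3 {G W : Matrix ι ι ℝ} (hG : G.PosDef) (hW : W.PosDef) :
    ∃ Γ : Matrix ι ι ℝ, Γ.PosDef ∧ (G * G + W * W - (2 : ℝ) • Γ).PosSemidef ∧
      trace (G * Γ⁻¹) ≤ trace W⁻¹ := by
  have sG := psd_symm hG.posSemidef
  have sW := psd_symm hW.posSemidef
  have sGi := psd_symm hG.inv.posSemidef
  have dG := (Matrix.isUnit_iff_isUnit_det G).mp hG.isUnit
  have dW := (Matrix.isUnit_iff_isUnit_det W).mp hW.isUnit
  have hM : (G⁻¹ * W * W * G⁻¹).PosDef := by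
    have e : G⁻¹ * W * W * G⁻¹ = (G⁻¹ * W) * (G⁻¹ * W)ᵀ := by
      rw [transpose_mul, sW, sGi]; simp only [Matrix.mul_assoc]
    have h1 : (G⁻¹ * W * W * G⁻¹).PosSemidef := by rw [e]; exact gram_psd _
    exact h1.posDef_iff_isUnit.mpr
      (((hG.inv.isUnit.mul hW.isUnit).mul hW.isUnit).mul hG.inv.isUnit)
  obtain ⟨O, t, o1, o2, ht⟩ := spec_exists (psd_symm hM.posSemidef)
  have ht0 : ∀ i, 0 < t i := (pd_decomp o1 t).mp (ht ▸ hM)
  have hr : (O * diagonal (fun i => √(t i)) * Oᵀ).PosDef :=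
    (pd_decomp o1 _).mpr fun i => Real.sqrt_pos.mpr (ht0 i)
  have hrr : O * diagonal (fun i => √(t i)) * Oᵀ * (O * diagonal (fun i => √(t i)) * Oᵀ) =
      G⁻¹ * W * W * G⁻¹ := by
    rw [mul_decomp o1, ht]
    congr 3
    funext i
    exact Real.mul_self_sqrt (ht0 i).le
  obtain ⟨r, hr'⟩ : ∃ r, r = O * diagonal (fun i => √(t i)) * Oᵀ := ⟨_, rfl⟩
  rw [← hr'] at hr hrr
  have dr := (Matrix.isUnit_iff_isUnit_det r).mp hr.isUnit
  refine ⟨G * r * G, ?_, b3_core sG sGi sW (psd_symm hr.posSemidef)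
    (psd_symm hr.inv.posSemidef) hW.inv.posSemidef (mul_nonsing_inv G dG) (nonsing_inv_mul G dG)
    (mul_nonsing_inv W dW) (mul_nonsing_inv r dr) (nonsing_inv_mul r dr) hrr⟩
  have h1 := hr.posSemidef.mul_mul_conjTranspose_same G
  rw [conjTranspose_eq_transpose_of_trivial, sG] at h1
  exact h1.posDef_iff_isUnit.mpr ((hG.isUnit.mul hr.isUnit).mul hG.isUnit)

end Vale.Agent.P371.G
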