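import Vale.Agent.P371.G.Defs
import Vale.Agent.Lib.Degree.Count

open Real Finset Filter Topology MeasureTheory Matrix

namespace Vale.Agent.P371.G

variable {ι : Type} [Fintype ι] [DecidableEq ι]

theorem Brw_vec {κ : Type} [Fintype κ] [DecidableEq κ] {g : (κ → ℝ) → (κ → ℝ)}
    (hg : Continuous g) {C : ℝ} (hC0 : 0 ≤ C) (hC : ∀ x k, |g x k| ≤ C) : ∃ x, g x = x := by
  have hr : (0 : ℝ) < C + 1 := by linarith
  have h1 := Vale.Agent.Lib.Degree.deg_affine (ι := κ) (L := ContinuousLinearMap.id ℝ (κ → ℝ))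
    (by simp [ContinuousLinearMap.det]) 0 hr
  have hd : (ContinuousLinearMap.id ℝ (κ → ℝ)).det = 1 := by simp [ContinuousLinearMap.det]
  rw [hd, if_pos one_pos] at h1
  have h2 : (fun x : κ → ℝ => ContinuousLinearMap.id ℝ (κ → ℝ) (x - 0)) = fun x => x := by
    funext x; simp
  rw [h2] at h1
  have h3 := Vale.Agent.Lib.Degree.deg_rouche (f := fun x : κ → ℝ => x) (f' := fun x => x - g x)
    continuous_id (continuous_id.sub hg) (Ω := Metric.ball 0 (C + 1)) Metric.isOpen_ball
    Metric.isBounded_ball (fun x hx => by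
      rw [frontier_ball _ hr.ne', mem_sphere_zero_iff_norm] at hx
      have : ‖g x‖ ≤ C := (pi_norm_le_iff_of_nonneg hC0).2 fun k => hC x k
      rw [hx, sub_sub_cancel_left, norm_neg]
      linarith)
  obtain ⟨x, -, hx⟩ := Vale.Agent.Lib.Degree.exists_zero_of_deg_ne_zero (f := fun x => x - g x)
    (continuous_id.sub hg) (Ω := Metric.ball 0 (C + 1)) Metric.isOpen_ball Metric.isBounded_ball
    (by rw [← h3, h1]; exact one_ne_zero)
  exact ⟨x, (sub_eq_zero.1 hx).symm⟩

theorem brouwer_bdd {f : Matrix ι ι ℝ → Matrix ι ι ℝ} (hf : Continuous f) {C : ℝ}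
    (hC : ∀ X i j, |f X i j| ≤ C) : ∃ X, f X = X := by
  have hc : Continuous fun (v : ι × ι → ℝ) (p : ι × ι) =>
      f (Matrix.of fun i j => v (i, j)) p.1 p.2 := by
    refine continuous_pi fun p => ?_
    have h1 : Continuous fun v : ι × ι → ℝ => (Matrix.of fun i j => v (i, j) : Matrix ι ι ℝ) :=
      continuous_matrix fun i j => continuous_apply (i, j)
    exact (hf.comp h1).matrix_elem p.1 p.2
  obtain ⟨v, hv⟩ := Brw_vec hc (le_max_right C 0) fun v p => (hC _ _ _).trans (le_max_left _ _)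
  refine ⟨Matrix.of fun i j => v (i, j), ?_⟩
  ext i j
  exact congrFun hv (i, j)

end Vale.Agent.P371.G
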