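import Vale.Agent.P371.G.Spec

open Real Finset Filter Topology MeasureTheory Matrix

namespace Vale.Agent.P371.G

variable {ι : Type} [Fintype ι] [DecidableEq ι]

open scoped Matrix.Norms.L2Operator in
theorem continuous_cfc_matrix {X : Type*} [TopologicalSpace X] {f : ℝ → ℝ} (hf : Continuous f)
    {Y : X → Matrix ι ι ℝ} (hY : Continuous Y) (hs : ∀ z, (Y z)ᵀ = Y z) :
    Continuous fun z => cfc f (Y z) := by
  have hsa : ∀ z, IsSelfAdjoint (Y z) := fun z => by
    rw [IsSelfAdjoint, star_eq_conjTranspose, conjTranspose_eq_transpose_of_trivial]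
    exact hs z
  exact Continuous.cfc_of_mem_nhdsSet (𝕜 := ℝ) (A := Matrix ι ι ℝ) (p := IsSelfAdjoint)
    (s := Set.univ) f Filter.univ_mem hY hsa hf.continuousOn

end Vale.Agent.P371.G
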