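import Vale.Agent.P371.G.Lev

open Real Finset Filter Topology MeasureTheory Matrix

namespace Vale.Agent.P371.G

theorem cl_beta {l : ℝ} (l0 : 0 < l) :
    Real.Gamma (2 * (l + 1)) * cl l = 2 ^ (2 * l + 1) * (Real.Gamma (l + 1) * Real.Gamma (l + 1)) := by
  have h1 : cl l = ∫ x in (0 : ℝ)..2, x ^ l * (2 - x) ^ l := by
    have := intervalIntegral.integral_comp_sub_right (fun q : ℝ => (1 - q ^ 2) ^ l) (1 : ℝ)
      (a := 0) (b := 2)
    rw [cl, show (-1 : ℝ) = 0 - 1 by norm_num, show (1 : ℝ) = 2 - 1 by norm_num]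
    rw [show (2 : ℝ) - 1 = 1 by norm_num] at this ⊢
    rw [← this]
    refine intervalIntegral.integral_congr fun x hx => ?_
    rw [Set.uIcc_of_le (by norm_num)] at hx
    rw [← Real.mul_rpow hx.1 (by linarith [hx.2])]
    congr 1
    ring
  have h2 : ((cl l : ℝ) : ℂ) = ((2 : ℝ) : ℂ) ^ (((l + 1 : ℝ) : ℂ) + ((l + 1 : ℝ) : ℂ) - 1) *
      Complex.betaIntegral ((l + 1 : ℝ) : ℂ) ((l + 1 : ℝ) : ℂ) := by
    rw [← Complex.betaIntegral_scaled _ _ (by norm_num : (0 : ℝ) < 2), h1,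
      ← intervalIntegral.integral_ofReal]
    refine intervalIntegral.integral_congr fun x hx => ?_
    rw [Set.uIcc_of_le (by norm_num)] at hx
    rw [Complex.ofReal_mul, Complex.ofReal_cpow hx.1, Complex.ofReal_cpow (by linarith [hx.2])]
    push_cast
    simp
  have h3 := Complex.Gamma_mul_Gamma_eq_betaIntegral (s := ((l + 1 : ℝ) : ℂ))
    (t := ((l + 1 : ℝ) : ℂ)) (by simp; linarith) (by simp; linarith)
  rw [← Complex.ofReal_inj, Complex.ofReal_mul, Complex.ofReal_mul, Complex.ofReal_mul,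
    ← Complex.Gamma_ofReal, ← Complex.Gamma_ofReal, h3, h2, Complex.ofReal_cpow (by norm_num)]
  rw [show ((2 * (l + 1) : ℝ) : ℂ) = ((l + 1 : ℝ) : ℂ) + ((l + 1 : ℝ) : ℂ) by push_cast; ring,
    show ((2 * l + 1 : ℝ) : ℂ) = ((l + 1 : ℝ) : ℂ) + ((l + 1 : ℝ) : ℂ) - 1 by push_cast; ring]
  ring

theorem cl_gamma {l : ℝ} (l0 : 0 < l) :
    cl l = √π * Real.Gamma (l + 1) / Real.Gamma (l + 3 / 2) := by
  have h1 := cl_beta l0
  have h2 := Real.Gamma_mul_Gamma_add_half (l + 1)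
  rw [show l + 1 + 1 / 2 = l + 3 / 2 by ring, show 1 - 2 * (l + 1) = -(2 * l + 1) by ring,
    Real.rpow_neg (by norm_num)] at h2
  have g1 : 0 < Real.Gamma (l + 1) := Real.Gamma_pos_of_pos (by linarith)
  have g2 : 0 < Real.Gamma (l + 3 / 2) := Real.Gamma_pos_of_pos (by linarith)
  have g3 : 0 < Real.Gamma (2 * (l + 1)) := Real.Gamma_pos_of_pos (by linarith)
  have g4 : (0 : ℝ) < 2 ^ (2 * l + 1) := by positivity
  rw [eq_div_iff g2.ne']
  apply mul_left_cancel₀ g3.ne'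
  rw [← mul_assoc, h1, mul_assoc, mul_assoc, h2]
  field_simp

theorem lone_eq {l : ℝ} (l0 : 0 < l) : Lone (l + 1 / 2) = Ay l / cl l := by
  have g1 : 0 < Real.Gamma (l + 1) := Real.Gamma_pos_of_pos (by linarith)
  have g2 : 0 < Real.Gamma (l + 3 / 2) := Real.Gamma_pos_of_pos (by linarith)
  have g5 : 0 < √π := Real.sqrt_pos.2 Real.pi_pos
  have g6 : 0 < (1 + l) ^ l := by positivity
  rw [cl_gamma l0, Lone, Lcl, Ay, show l + 1 / 2 - 1 / 2 = l by ring,
    show l + 1 / 2 + 1 / 2 = 1 + l by ring, show l + 1 / 2 + 1 = l + 3 / 2 by ring,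
    show l + 1 / 2 + 3 / 2 = l + 1 + 1 by ring, Real.Gamma_add_one (by linarith : l + 1 ≠ 0),
    Real.div_rpow l0.le (by linarith), Real.rpow_add (by linarith), Real.rpow_one]
  field_simp
  ring

end Vale.Agent.P371.G
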