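import Vale.Agent.P371.Lower

open Real Finset Filter Topology MeasureTheory Matrix

namespace Vale.Agent.P371.G

variable {ι : Type} [Fintype ι] [DecidableEq ι]

/-- average over the angle -/
noncomputable def Av (f : ℝ → ℝ) : ℝ := π⁻¹ * ∫ φ in (0 : ℝ)..π, f φ

noncomputable def Res (E Q : Matrix ι ι ℝ) (φ : ℝ) : Matrix ι ι ℝ := (E - cos φ • Q)⁻¹

noncomputable def Jt (E Q Y : Matrix ι ι ℝ) : ℝ := Av fun φ => trace (Res E Q φ * Y)

noncomputable def Mt (E Q Y : Matrix ι ι ℝ) : ℝ :=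
  Av fun φ => trace (Res E Q φ * E⁻¹ * Res E Q φ * Y)

noncomputable def rr (x φ : ℝ) : ℝ := (1 - cos φ * x)⁻¹

noncomputable def co (x : ℝ) : ℝ := √(1 - x ^ 2)

noncomputable def mu (x y : ℝ) : ℝ := Av fun φ => rr x φ * rr y φ

/-- simultaneous diagonalisation of `E` and `Q` -/
structure SD (E Q S : Matrix ι ι ℝ) (x : ι → ℝ) : Prop where
  symE : Eᵀ = E
  hE : Sᵀ * E * S = 1
  hQ : Sᵀ * Q * S = diagonal x
  hx : ∀ i, |x i| < 1

/-- the geometric mean of `E - Q` and `E + Q` -/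
noncomputable def GM (E S : Matrix ι ι ℝ) (x : ι → ℝ) : Matrix ι ι ℝ :=
  E * S * diagonal (fun i => co (x i)) * Sᵀ * E

noncomputable def Es (κ : ι → ℝ) (s : ℝ) : Matrix ι ι ℝ := diagonal fun i => √(κ i ^ 2 + s)

/-- `-D ≤ Q ≤ D` -/
def Bt (D Q : Matrix ι ι ℝ) : Prop := (D - Q).PosSemidef ∧ (D + Q).PosSemidef

/-- entrywise `C¹` matrix path -/
def MD (F F' : ℝ → Matrix ι ι ℝ) : Prop :=
  Continuous F' ∧ ∀ x i j, HasDerivAt (fun y => F y i j) (F' x i j) x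

noncomputable def mp (a : ℝ) (Y : Matrix ι ι ℝ) : Matrix ι ι ℝ := cfc (fun t : ℝ => t ^ a) Y

noncomputable def hh (κ : ι → ℝ) (s : ℝ) (Q Y : Matrix ι ι ℝ) : ℝ :=
  trace Y - √s * Jt (Es κ s) Q Y

noncomputable def n1 (Y : Matrix ι ι ℝ) : ℝ := ∑ i, ∑ j, |Y i j|

noncomputable def n2 (Y : Matrix ι ι ℝ) : ℝ := ∑ i, ∑ j, Y i j ^ 2

noncomputable def sy (B : Matrix ι ι ℝ) : Matrix ι ι ℝ := (1 / 2 : ℝ) • (B + Bᵀ)

noncomputable def cc (l : ℝ) : ℝ := ∫ s in Set.Ioi (0 : ℝ), s ^ (l - 1) * (1 - √(s / (1 + s)))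

noncomputable def cl (l : ℝ) : ℝ := ∫ q in (-1 : ℝ)..1, (1 - q ^ 2) ^ l

noncomputable def Ay (l : ℝ) : ℝ := l ^ l / (1 + l) ^ (1 + l)

/-- the cut-off of the Riccati field -/
noncomputable def chi (ρ : ℝ) (D B : Matrix ι ι ℝ) : ℝ :=
  smoothTransition (1 + trace (((2 : ℝ) • D - B) * B)) * smoothTransition (ρ + 1 - n2 D - n2 B)

/-- the cut-off Riccati field -/
noncomputable def Fld (ρ : ℝ) (D B : Matrix ι ι ℝ) : Matrix ι ι ℝ :=
  -(chi ρ (sy D) (sy B) • (sy D * sy B + sy B * sy D - sy B * sy B))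

end Vale.Agent.P371.G
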