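import Vale.Agent.P371.G.JCont

open Real Finset Filter Topology MeasureTheory Matrix

namespace Vale.Agent.P371.G

variable {ι : Type} [Fintype ι] [DecidableEq ι]

/-- difference quotient of `Es` -/
noncomputable def dersD (κ : ι → ℝ) (s u : ℝ) : Matrix ι ι ℝ :=
  diagonal fun i => (√(κ i ^ 2 + u) + √(κ i ^ 2 + s))⁻¹

theorem ders_diff (κ : ι → ℝ) {s u : ℝ} (hs : 0 < s) (hu : 0 < u) :
    Es κ u - Es κ s = (u - s) • dersD κ s u := by
  unfold Es dersD
  rw [diagonal_sub, ← diagonal_smul]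
  congr 1
  funext i
  have h1 : 0 < √(κ i ^ 2 + u) := sqrt_pos.mpr (by positivity)
  have h2 : 0 < √(κ i ^ 2 + s) := sqrt_pos.mpr (by positivity)
  have h3 : √(κ i ^ 2 + u) ^ 2 = κ i ^ 2 + u := sq_sqrt (by positivity)
  have h4 : √(κ i ^ 2 + s) ^ 2 = κ i ^ 2 + s := sq_sqrt (by positivity)
  simp only [Pi.smul_apply, smul_eq_mul]
  field_simp
  nlinarith

theorem ders_self (κ : ι → ℝ) {s : ℝ} (hs : 0 < s) :
    dersD κ s s = (1 / 2 : ℝ) • (Es κ s)⁻¹ := by
  have h2 : ∀ i, 0 < √(κ i ^ 2 + s) := fun i => sqrt_pos.mpr (by positivity)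
  have e : (Es κ s)⁻¹ = diagonal fun i => (√(κ i ^ 2 + s))⁻¹ := by
    apply Matrix.inv_eq_right_inv
    unfold Es
    rw [diagonal_mul_diagonal, ← diagonal_one]
    congr 1
    funext i
    exact mul_inv_cancel₀ (h2 i).ne'
  rw [e, ← diagonal_smul]
  unfold dersD
  congr 1
  funext i
  have := h2 i
  simp only [Pi.smul_apply, smul_eq_mul]
  field_simp
  ring

theorem ders_res {κ : ι → ℝ} (h0 : ∀ i, 0 ≤ κ i) {Q : Matrix ι ι ℝ} (h : Bt (diagonal κ) Q)
    {s u : ℝ} (hs : 0 < s) (hu : 0 < u) (φ : ℝ) :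
    Res (Es κ u) Q φ - Res (Es κ s) Q φ =
      -((u - s) • (Res (Es κ u) Q φ * dersD κ s u * Res (Es κ s) Q φ)) := by
  have d1 : IsUnit (Es κ u - cos φ • Q).det :=
    (es_posDef h0 hu (abs_cos_le_one φ) h).det_pos.ne'.isUnit
  have d2 : IsUnit (Es κ s - cos φ • Q).det :=
    (es_posDef h0 hs (abs_cos_le_one φ) h).det_pos.ne'.isUnit
  have e : (u - s) • dersD κ s u = (Es κ u - cos φ • Q) - (Es κ s - cos φ • Q) := by
    rw [← ders_diff κ hs hu]; abel
  rw [← Matrix.smul_mul, ← Matrix.mul_smul, e]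
  unfold Res
  rw [Matrix.mul_sub, Matrix.nonsing_inv_mul _ d1, Matrix.sub_mul, Matrix.one_mul,
    Matrix.mul_assoc, Matrix.mul_nonsing_inv _ d2, Matrix.mul_one]
  abel

theorem jt_deriv {κ : ι → ℝ} (h0 : ∀ i, 0 ≤ κ i) {Q : Matrix ι ι ℝ} (h : Bt (diagonal κ) Q)
    (Y : Matrix ι ι ℝ) {s : ℝ} (hs : 0 < s) :
    HasDerivAt (fun s => Jt (Es κ s) Q Y) (-(1 / 2) * Mt (Es κ s) Q Y) s := by
  have cR : ContinuousOn (fun p : ℝ × ℝ => Res (Es κ p.1) Q p.2) (Set.Ioi 0 ×ˢ Set.univ) :=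
    jcont_res (s := fun u : ℝ => u) (Q := fun _ => Q) h0 continuousOn_id continuousOn_const
      fun z hz => ⟨hz, h⟩
  have cφ : ∀ u, 0 < u → Continuous fun φ => Res (Es κ u) Q φ := fun u hu =>
    cR.comp_continuous (f := fun φ : ℝ => ((u, φ) : ℝ × ℝ)) (by fun_prop)
      fun φ => ⟨hu, Set.mem_univ _⟩
  have cD : ContinuousOn (fun p : ℝ × ℝ => dersD κ s p.1) (Set.Ioi 0 ×ˢ Set.univ) := by
    unfold dersD
    refine (continuous_id.matrix_diagonal).comp_continuousOn (continuousOn_pi.mpr fun i => ?_)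
    refine ContinuousOn.inv₀ (by fun_prop) fun p _ => ?_
    have h2 : 0 < √(κ i ^ 2 + s) := sqrt_pos.mpr (by positivity)
    positivity
  obtain ⟨G, hG⟩ : ∃ G : ℝ → ℝ, G = fun u =>
      Av fun φ => trace (Res (Es κ u) Q φ * dersD κ s u * Res (Es κ s) Q φ * Y) := ⟨_, rfl⟩
  have cG : ContinuousOn G (Set.Ioi 0) := by
    rw [hG]
    refine jcont_av (f := fun u φ =>
      trace (Res (Es κ u) Q φ * dersD κ s u * Res (Es κ s) Q φ * Y)) (jcont_trace ?_)
    exact ((cR.mul cD).mul ((cφ s hs).comp continuous_snd).continuousOn).mul continuousOn_const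
  have e0 : -G s = -(1 / 2) * Mt (Es κ s) Q Y := by
    rw [hG]
    simp only [ders_self κ hs, Matrix.mul_smul, Matrix.smul_mul, trace_smul, smul_eq_mul, Mt, Av,
      intervalIntegral.integral_const_mul]
    ring
  have e1 : ∀ u, 0 < u → Jt (Es κ u) Q Y - Jt (Es κ s) Q Y = (u - s) * -G u := by
    intro u hu
    have i1 : ∀ u, 0 < u →
        IntervalIntegrable (fun φ => trace (Res (Es κ u) Q φ * Y)) volume 0 π := fun u hu =>
      (((cφ u hu).matrix_mul continuous_const).matrix_trace).intervalIntegrable _ _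
    rw [hG]
    simp only [Jt, Av]
    rw [← mul_sub, ← intervalIntegral.integral_sub (i1 u hu) (i1 s hs)]
    have : ∀ φ, trace (Res (Es κ u) Q φ * Y) - trace (Res (Es κ s) Q φ * Y) =
        -(u - s) * trace (Res (Es κ u) Q φ * dersD κ s u * Res (Es κ s) Q φ * Y) := by
      intro φ
      rw [← trace_sub, ← Matrix.sub_mul, ders_res h0 h hs hu, Matrix.neg_mul, Matrix.smul_mul,
        trace_neg, trace_smul, smul_eq_mul]
      ring
    simp only [this, intervalIntegral.integral_const_mul]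
    ring
  rw [hasDerivAt_iff_tendsto_slope, ← e0]
  have t1 : Tendsto (fun u => -G u) (𝓝[≠] s) (𝓝 (-G s)) :=
    ((cG.continuousAt (Ioi_mem_nhds hs)).neg.tendsto).mono_left nhdsWithin_le_nhds
  refine t1.congr' ?_
  filter_upwards [self_mem_nhdsWithin, nhdsWithin_le_nhds (Ioi_mem_nhds hs)] with u hu hu0
  have hne : u - s ≠ 0 := sub_ne_zero.mpr hu
  rw [slope_def_field, e1 u hu0]
  field_simp

end Vale.Agent.P371.G
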