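import Vale.Agent.P371.G.Ode

open Real Finset Filter Topology MeasureTheory Matrix

namespace Vale.Agent.P371.G

variable {ι : Type} [Fintype ι] [DecidableEq ι]

theorem chi_mem (ρ : ℝ) (D B : Matrix ι ι ℝ) : 0 ≤ chi ρ D B ∧ chi ρ D B ≤ 1 := by
  exact ⟨mul_nonneg (smoothTransition.nonneg _) (smoothTransition.nonneg _),
    mul_le_one₀ (smoothTransition.le_one _) (smoothTransition.nonneg _) (smoothTransition.le_one _)⟩

theorem chi_cont (ρ : ℝ) : Continuous fun z : Matrix ι ι ℝ × Matrix ι ι ℝ => chi ρ z.1 z.2 := by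
  unfold chi n2
  refine (smoothTransition.continuous.comp ?_).mul (smoothTransition.continuous.comp ?_)
  · exact continuous_const.add
      (((continuous_fst.const_smul (2 : ℝ)).sub continuous_snd).matrix_mul continuous_snd).matrix_trace
  · refine (continuous_const.sub ?_).sub ?_
    · exact continuous_finsetSum _ fun i _ => continuous_finsetSum _ fun j _ =>
        (continuous_fst.matrix_elem i j).pow 2
    · exact continuous_finsetSum _ fun i _ => continuous_finsetSum _ fun j _ =>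
        (continuous_snd.matrix_elem i j).pow 2

theorem chi_tr (ρ : ℝ) (D B : Matrix ι ι ℝ) :
    -(chi ρ D B * trace (((2 : ℝ) • D - B) * B)) ≤ 1 := by
  obtain ⟨h0, h1⟩ := chi_mem ρ D B
  by_cases h : trace (((2 : ℝ) • D - B) * B) ≤ -1
  · rw [chi, smoothTransition.zero_of_nonpos (by linarith)]; simp
  · nlinarith [not_le.1 h]

theorem chi_one {ρ : ℝ} {D B : Matrix ι ι ℝ} (h1 : 0 ≤ trace (((2 : ℝ) • D - B) * B))
    (h2 : n2 D + n2 B ≤ ρ) : chi ρ D B = 1 := by
  rw [chi, smoothTransition.one_of_one_le (by linarith),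
    smoothTransition.one_of_one_le (by linarith), one_mul]

theorem sy_symm (B : Matrix ι ι ℝ) : (sy B)ᵀ = sy B := by
  rw [sy, transpose_smul, transpose_add, transpose_transpose, add_comm]

theorem sy_eq {B : Matrix ι ι ℝ} (h : Bᵀ = B) : sy B = B := by
  rw [sy, h, ← two_smul ℝ B, smul_smul]; norm_num

theorem sy_cont : Continuous (sy : Matrix ι ι ℝ → Matrix ι ι ℝ) := by
  exact (continuous_id.add continuous_id.matrix_transpose).const_smul (1 / 2 : ℝ)

/-- the field before symmetrisation, on the normed space of arrays -/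
noncomputable def FldG (ρ : ℝ) (z : (ι → ι → ℝ) × (ι → ι → ℝ)) : ι → ι → ℝ := fun i j =>
  (-(chi ρ (of z.1) (of z.2) • (of z.1 * of z.2 + of z.2 * of z.1 - of z.2 * of z.2))) i j

theorem FldG_diff (ρ : ℝ) : ContDiff ℝ 1 (FldG (ι := ι) ρ) := by
  refine contDiff_pi.2 fun i => contDiff_pi.2 fun j => ?_
  simp only [FldG, chi, n2, trace, Matrix.diag, Matrix.neg_apply, Matrix.smul_apply,
    Matrix.sub_apply, Matrix.add_apply, Matrix.mul_apply, of_apply, smul_eq_mul]
  refine (((smoothTransition.contDiff.comp ?_).mul (smoothTransition.contDiff.comp ?_)).mul ?_).neg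
  all_goals fun_prop

theorem FldG_supp (ρ : ℝ) : HasCompactSupport (FldG (ι := ι) ρ) := by
  refine HasCompactSupport.intro (isCompact_closedBall 0 (|ρ| + 2)) fun z hz => ?_
  have key : ∀ Y : ι → ι → ℝ, |ρ| + 2 < ‖Y‖ → |ρ| + 2 ≤ n2 (of Y) := fun Y hY => by
    by_contra hn
    refine absurd hY (not_lt.2 ((pi_norm_le_iff_of_nonneg (by positivity)).2 fun i =>
      (pi_norm_le_iff_of_nonneg (by positivity)).2 fun j => ?_))
    have h1 : Y i j ^ 2 ≤ n2 (of Y) :=
      (single_le_sum (f := fun j => Y i j ^ 2) (fun _ _ => sq_nonneg _) (mem_univ j)).trans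
        (single_le_sum (f := fun i => ∑ j, Y i j ^ 2)
          (fun _ _ => sum_nonneg fun _ _ => sq_nonneg _) (mem_univ i))
    rw [Real.norm_eq_abs]
    nlinarith [abs_nonneg ρ, abs_nonneg (Y i j), sq_abs (Y i j), not_le.1 hn]
  have hn : ∀ Y : Matrix ι ι ℝ, 0 ≤ n2 Y := fun Y =>
    sum_nonneg fun _ _ => sum_nonneg fun _ _ => sq_nonneg _
  have h0 : ρ + 1 - n2 (of z.1) - n2 (of z.2) ≤ 0 := by
    rw [Metric.mem_closedBall, dist_zero_right, not_le, Prod.norm_def, lt_max_iff] at hz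
    have := le_abs_self ρ
    rcases hz with h | h
    · linarith [key _ h, hn (of z.2)]
    · linarith [key _ h, hn (of z.1)]
  funext i j
  simp [FldG, chi, smoothTransition.zero_of_nonpos h0]

noncomputable def Flds (D : Matrix ι ι ℝ) : ι → ι → ℝ := fun i j => (D i j + D j i) / 2

theorem Flds_eq (D : Matrix ι ι ℝ) : of (Flds D) = sy D := by
  ext i j
  simp only [Flds, sy, Matrix.smul_apply, Matrix.add_apply, transpose_apply, of_apply, smul_eq_mul]
  ring

noncomputable def Fldf (ρ : ℝ) (W : Matrix ι ι ℝ → ℝ → Matrix ι ι ℝ) (D : Matrix ι ι ℝ) (x : ℝ)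
    (y : ι → ι → ℝ) : ι → ι → ℝ := FldG ρ (Flds D, Flds (of y)) + fun i j => W D x i j

theorem Flds_lip : LipschitzWith 1 fun y : ι → ι → ℝ => Flds (of y) := by
  refine LipschitzWith.of_dist_le_mul fun x y => ?_
  rw [NNReal.coe_one, one_mul]
  refine (dist_pi_le_iff dist_nonneg).2 fun i => (dist_pi_le_iff dist_nonneg).2 fun j => ?_
  have h1 := (dist_le_pi_dist (x i) (y i) j).trans (dist_le_pi_dist x y i)
  have h2 := (dist_le_pi_dist (x j) (y j) i).trans (dist_le_pi_dist x y j)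
  rw [Real.dist_eq, abs_le] at *
  simp only [Flds, of_apply]
  constructor <;> linarith [h1.1, h1.2, h2.1, h2.2]

theorem Fldf_cont (ρ : ℝ) {W : Matrix ι ι ℝ → ℝ → Matrix ι ι ℝ}
    (cW : Continuous fun z : Matrix ι ι ℝ × ℝ => W z.1 z.2) :
    Continuous fun z : Matrix ι ι ℝ × ℝ × (ι → ι → ℝ) => Fldf ρ W z.1 z.2.1 z.2.2 := by
  have c1 : Continuous fun z : Matrix ι ι ℝ × ℝ × (ι → ι → ℝ) => Flds z.1 :=
    continuous_pi fun i => continuous_pi fun j =>
      ((continuous_fst.matrix_elem i j).add (continuous_fst.matrix_elem j i)).div_const 2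
  have c2 : Continuous fun z : Matrix ι ι ℝ × ℝ × (ι → ι → ℝ) => Flds (of z.2.2) :=
    Flds_lip.continuous.comp (continuous_snd.comp continuous_snd)
  have c3 : Continuous fun z : Matrix ι ι ℝ × ℝ × (ι → ι → ℝ) => W z.1 z.2.1 :=
    cW.comp (continuous_fst.prodMk (continuous_fst.comp continuous_snd))
  have c4 : Continuous fun z : Matrix ι ι ℝ × ℝ × (ι → ι → ℝ) =>
      (fun i j => W z.1 z.2.1 i j : ι → ι → ℝ) :=
    continuous_pi fun i => continuous_pi fun j => c3.matrix_elem i j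
  have c5 := (FldG_diff (ι := ι) ρ).continuous.comp (c1.prodMk c2)
  exact c5.add c4

theorem Fld_aux {E : Type} [NormedAddCommGroup E] [NormedSpace ℝ E] {G : E × E → E}
    (h1 : ContDiff ℝ 1 G) (h2 : HasCompactSupport G) {s : E → E} (hs : LipschitzWith 1 s) :
    ∃ K : NNReal, ∀ u w : E, LipschitzWith K fun y => G (u, s y) + w := by
  obtain ⟨K, hK⟩ := h1.lipschitzWith_of_hasCompactSupport h2 one_ne_zero
  refine ⟨K, fun u w => LipschitzWith.of_dist_le_mul fun y z => ?_⟩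
  have h1 := hK.dist_le_mul (u, s y) (u, s z)
  have h2 : dist (s y) (s z) ≤ dist y z := by
    have := hs.dist_le_mul y z
    rwa [NNReal.coe_one, one_mul] at this
  rw [dist_prod_same_left] at h1
  rw [dist_add_right]
  exact h1.trans (mul_le_mul_of_nonneg_left h2 K.2)

theorem Fldf_lip (ρ : ℝ) (W : Matrix ι ι ℝ → ℝ → Matrix ι ι ℝ) :
    ∃ K : NNReal, ∀ D x, LipschitzWith K (Fldf ρ W D x) := by
  obtain ⟨K, hK⟩ := Fld_aux (FldG_diff (ι := ι) ρ) (FldG_supp ρ) Flds_lip
  exact ⟨K, fun D x => hK (Flds D) fun i j => W D x i j⟩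

theorem Fldf_bdd (ρ : ℝ) {W : Matrix ι ι ℝ → ℝ → Matrix ι ι ℝ} {L : ℝ}
    (hL : ∀ D x i j, |W D x i j| ≤ L) : ∃ M : ℝ, ∀ D x y, ‖Fldf ρ W D x y‖ ≤ M := by
  obtain ⟨M, hM⟩ :=
    (FldG_diff (ι := ι) ρ).continuous.bounded_above_of_compact_support (FldG_supp ρ)
  refine ⟨M + |L|, fun D x y => (norm_add_le _ _).trans (add_le_add (hM _) ?_)⟩
  exact (pi_norm_le_iff_of_nonneg (abs_nonneg L)).2 fun i =>
    (pi_norm_le_iff_of_nonneg (abs_nonneg L)).2 fun j => (hL D x i j).trans (le_abs_self L)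

/-- solutions of the cut-off Riccati equation, continuous in the parameter -/
theorem ric_exists (ρ : ℝ) {W : Matrix ι ι ℝ → ℝ → Matrix ι ι ℝ}
    (cW : Continuous fun z : Matrix ι ι ℝ × ℝ => W z.1 z.2) {L : ℝ}
    (hL : ∀ D x i j, |W D x i j| ≤ L) {a b : ℝ} (hab : a ≤ b) :
    ∃ B B' : Matrix ι ι ℝ → ℝ → Matrix ι ι ℝ, (Continuous fun D => B D b) ∧
      ∀ D, MD (B D) (B' D) ∧ B D a = 0 ∧
        ∀ x ∈ Set.Icc a b, B' D x = Fld ρ D (B D x) + W D x := by
  obtain ⟨K, hl⟩ := Fldf_lip ρ W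
  obtain ⟨M, hb⟩ := Fldf_bdd ρ hL
  obtain ⟨y, y', h1, h2⟩ := ode_param (f := Fldf ρ W) (Fldf_cont ρ cW) hl hb hab 0
  refine ⟨fun D x => of (y D x), fun D x => of (y' D x), ?_, fun D => ⟨⟨?_, fun x i j => ?_⟩,
    ?_, fun x hx => ?_⟩⟩
  · exact continuous_matrix fun i j => (continuous_apply j).comp ((continuous_apply i).comp h1)
  · exact continuous_matrix fun i j =>
      (continuous_apply j).comp ((continuous_apply i).comp (h2 D).1)
  · exact hasDerivAt_pi.1 (hasDerivAt_pi.1 ((h2 D).2.1 x) i) j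
  · ext i j
    simp only [of_apply, (h2 D).2.2.1]
    rfl
  · ext i j
    simp only [of_apply, (h2 D).2.2.2 x hx, Fldf, Pi.add_apply, FldG, Flds_eq, Matrix.add_apply,
      Fld]

end Vale.Agent.P371.G
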