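import Vale.Agent.P371.G.Spec
import Vale.Agent.P371.G.AvA

open Real Finset Filter Topology MeasureTheory Matrix

namespace Vale.Agent.P371.G

variable {ι : Type} [Fintype ι] [DecidableEq ι]
  {E Q S : Matrix ι ι ℝ} {x : ι → ℝ}

theorem SD.right (h : SD E Q S x) : S * Sᵀ * E = 1 := by
  have h1 : Sᵀ * E * S = 1 := h.hE
  have h2 : S * (Sᵀ * E) = 1 := mul_eq_one_comm.mp h1
  rw [Matrix.mul_assoc]; exact h2

theorem SD.left (h : SD E Q S x) : E * S * Sᵀ = 1 := by
  have h1 : Sᵀ * (E * S) = 1 := by rw [← Matrix.mul_assoc]; exact h.hE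
  exact mul_eq_one_comm.mp h1

theorem SD.inv (h : SD E Q S x) : E⁻¹ = S * Sᵀ := by
  apply Matrix.inv_eq_right_inv
  rw [← Matrix.mul_assoc]; exact h.left

theorem SD.Q_eq (h : SD E Q S x) : Q = E * S * diagonal x * Sᵀ * E := by
  rw [← h.hQ]
  have e : E * S * (Sᵀ * Q * S) * Sᵀ * E = (E * S * Sᵀ) * Q * (S * Sᵀ * E) := by
    simp only [Matrix.mul_assoc]
  rw [e, h.left, h.right, Matrix.one_mul, Matrix.mul_one]

theorem SD.res (h : SD E Q S x) (φ : ℝ) :
    Res E Q φ = S * diagonal (fun i => rr (x i) φ) * Sᵀ := by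
  unfold Res
  apply Matrix.inv_eq_right_inv
  have hQS : Q * S = E * S * diagonal x := by
    have e : E * S * (Sᵀ * Q * S) = (E * S * Sᵀ) * (Q * S) := by simp only [Matrix.mul_assoc]
    rw [← h.hQ, e, h.left, Matrix.one_mul]
  have h1 : (E - cos φ • Q) * S = E * S * diagonal (fun i => 1 - cos φ * x i) := by
    rw [Matrix.sub_mul, Matrix.smul_mul, hQS]
    have : (diagonal (fun i => 1 - cos φ * x i) : Matrix ι ι ℝ) = 1 - cos φ • diagonal x := by
      ext i j
      by_cases hij : i = j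
      · subst hij; simp
      · simp [hij]
    rw [this, Matrix.mul_sub, Matrix.mul_one, Matrix.mul_smul]
  have h2 : (diagonal (fun i => 1 - cos φ * x i) : Matrix ι ι ℝ) *
      diagonal (fun i => rr (x i) φ) = 1 := by
    rw [diagonal_mul_diagonal, ← diagonal_one]
    congr 1
    funext i
    exact mul_inv_cancel₀ (rr_den_pos (h.hx i) φ).ne'
  calc (E - cos φ • Q) * (S * diagonal (fun i => rr (x i) φ) * Sᵀ)
      = ((E - cos φ • Q) * S) * diagonal (fun i => rr (x i) φ) * Sᵀ := by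
        simp only [Matrix.mul_assoc]
    _ = E * S * (diagonal (fun i => 1 - cos φ * x i) * diagonal (fun i => rr (x i) φ)) * Sᵀ := by
        rw [h1]; simp only [Matrix.mul_assoc]
    _ = 1 := by rw [h2, Matrix.mul_one, h.left]

theorem SD.gm_posDef (h : SD E Q S x) : (GM E S x).PosDef := by
  have hD : (diagonal (fun i => co (x i)) : Matrix ι ι ℝ).PosDef :=
    Matrix.PosDef.diagonal fun i => co_pos (h.hx i)
  have hU : IsUnit (E * S) := (Matrix.isUnit_iff_isUnit_det _).mpr
    (Matrix.isUnit_det_of_right_inverse h.left)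
  have h1 := (Matrix.IsUnit.posDef_star_right_conjugate_iff hU).mpr hD
  have e : star (E * S) = Sᵀ * E := by
    rw [star_eq_conjTranspose, conjTranspose_eq_transpose_of_trivial, transpose_mul, h.symE]
  rw [e] at h1
  unfold GM
  simpa only [Matrix.mul_assoc] using h1

theorem resf_trace (S Y : Matrix ι ι ℝ) (r : ι → ℝ) :
    trace (S * diagonal r * Sᵀ * Y) = ∑ i, r i * (Sᵀ * Y * S) i i := by
  have e : S * diagonal r * Sᵀ * Y = S * (diagonal r * (Sᵀ * Y)) := by
    simp only [Matrix.mul_assoc]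
  rw [e, trace_mul_comm, Matrix.mul_assoc]
  unfold trace
  refine Finset.sum_congr rfl fun i _ => ?_
  rw [diag_apply, diagonal_mul]

theorem resf_av_sum {κ : Type} [Fintype κ] (f : κ → ℝ → ℝ) (hf : ∀ i, Continuous (f i))
    (c : κ → ℝ) : Av (fun φ => ∑ i, f i φ * c i) = ∑ i, Av (f i) * c i := by
  unfold Av
  beta_reduce
  rw [intervalIntegral.integral_finset_sum (f := fun i φ => f i φ * c i)
    (fun i _ => ((hf i).mul continuous_const).intervalIntegrable _ _), Finset.mul_sum]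
  refine Finset.sum_congr rfl fun i _ => ?_
  rw [intervalIntegral.integral_mul_const, mul_assoc]

theorem SD.jt (h : SD E Q S x) (Y : Matrix ι ι ℝ) :
    Jt E Q Y = trace (S * diagonal (fun i => (co (x i))⁻¹) * Sᵀ * Y) := by
  unfold Jt
  simp only [h.res, resf_trace]
  rw [resf_av_sum (fun i => rr (x i)) (fun i => rr_cont (h.hx i))]
  refine Finset.sum_congr rfl fun i _ => ?_
  rw [Av_rr (h.hx i)]

theorem SD.jt_lin (h : SD E Q S x) (a b : ℝ) (Y Z : Matrix ι ι ℝ) :
    Jt E Q (a • Y + b • Z) = a * Jt E Q Y + b * Jt E Q Z := by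
  rw [h.jt, h.jt, h.jt, Matrix.mul_add, Matrix.mul_smul, Matrix.mul_smul, trace_add, trace_smul,
    trace_smul, smul_eq_mul, smul_eq_mul]

end Vale.Agent.P371.G
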