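import Vale.Agent.P371.G.SDex
import Vale.Agent.P371.G.ResF

open Real Finset Filter Topology MeasureTheory Matrix

namespace Vale.Agent.P371.G

variable {ι : Type} [Fintype ι] [DecidableEq ι]

theorem HB_trace {M : Matrix ι ι ℝ} {b : ℝ} (hM : ∀ i j, |M i j| ≤ b) (Y : Matrix ι ι ℝ) :
    |trace (M * Y)| ≤ b * n1 Y := by
  unfold n1 trace
  rw [sum_comm, mul_sum]
  refine (abs_sum_le_sum_abs _ _).trans (sum_le_sum fun i _ => ?_)
  rw [diag_apply, mul_apply, mul_sum]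
  refine (abs_sum_le_sum_abs _ _).trans (sum_le_sum fun j _ => ?_)
  rw [abs_mul]
  exact mul_le_mul_of_nonneg_right (hM i j) (abs_nonneg _)

theorem HB_core {e : ι → ℝ} {Q S : Matrix ι ι ℝ} {x : ι → ℝ} (h : SD (diagonal e) Q S x)
    {r R b : ℝ} (hr : 0 < r) (hre : ∀ i, r ≤ e i) (heR : ∀ i, e i ≤ R)
    (hc : ∀ i, (co (x i))⁻¹ ≤ R / r) (hb : ∀ i, (R - r) * (e i)⁻¹ ≤ b) (Y : Matrix ι ι ℝ) :
    |trace Y - r * Jt (diagonal e) Q Y| ≤ 2 * b * n1 Y := by
  have he : ∀ i, 0 < e i := fun i => hr.trans_le (hre i)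
  have hS : ∀ i j, ∑ k, S i k * S j k = if i = j then (e i)⁻¹ else 0 := by
    intro i j
    have h1 := congrFun (congrFun h.left i) j
    rw [Matrix.mul_assoc, diagonal_mul, mul_apply, one_apply] at h1
    simp only [transpose_apply] at h1
    have h2 := (he i).ne'
    split_ifs with hij
    · rw [if_pos hij] at h1; field_simp; linarith
    · rw [if_neg hij] at h1; exact (mul_eq_zero.1 h1).resolve_left h2
  have hd : ∀ k, 0 ≤ r * (co (x k))⁻¹ - r ∧ r * (co (x k))⁻¹ - r ≤ R - r := by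
    intro k
    have h1 := co_pos (h.hx k)
    have h2 : co (x k) ≤ 1 := by
      have := co_sq (h.hx k)
      nlinarith [sq_nonneg (x k)]
    have h3 : 1 ≤ (co (x k))⁻¹ := (one_le_inv₀ h1).2 h2
    have h4 : r * (co (x k))⁻¹ ≤ R := by
      have := mul_le_mul_of_nonneg_left (hc k) hr.le
      rwa [mul_div_cancel₀ _ hr.ne'] at this
    constructor
    · nlinarith
    · linarith
  have e1 : trace Y - r * Jt (diagonal e) Q Y =
      trace ((1 - r • (S * diagonal (fun i => (co (x i))⁻¹) * Sᵀ)) * Y) := by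
    rw [h.jt, Matrix.sub_mul, trace_sub, Matrix.one_mul, Matrix.smul_mul, trace_smul, smul_eq_mul]
  rw [e1]
  refine HB_trace (fun i j => ?_) Y
  have e2 : (1 - r • (S * diagonal (fun i => (co (x i))⁻¹) * Sᵀ) : Matrix ι ι ℝ) i j =
      (if i = j then (e i - r) * (e i)⁻¹ else 0) -
        ∑ k, S i k * S j k * (r * (co (x k))⁻¹ - r) := by
    have h1 : ∑ k, S i k * S j k * (r * (co (x k))⁻¹ - r) =
        r * (∑ k, S i k * (co (x k))⁻¹ * S j k) - r * ∑ k, S i k * S j k := by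
      rw [mul_sum, mul_sum, ← sum_sub_distrib]
      exact sum_congr rfl fun k _ => by ring
    rw [h1, hS, Matrix.sub_apply, Matrix.smul_apply, smul_eq_mul, mul_apply, one_apply]
    simp only [mul_diagonal, transpose_apply]
    have h2 := (he i).ne'
    split_ifs
    · field_simp; ring
    · ring
  rw [e2]
  have hRr : 0 ≤ R - r := by linarith [hre i, heR i]
  have hb0 : 0 ≤ b := le_trans (mul_nonneg hRr (inv_nonneg.2 (he i).le)) (hb i)
  have h3 : |if i = j then (e i - r) * (e i)⁻¹ else 0| ≤ b := by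
    split_ifs
    · rw [abs_of_nonneg (mul_nonneg (by linarith [hre i]) (inv_nonneg.2 (he i).le))]
      exact le_trans (mul_le_mul_of_nonneg_right (by linarith [heR i]) (inv_nonneg.2 (he i).le))
        (hb i)
    · simpa using hb0
  have h4 : |∑ k, S i k * S j k * (r * (co (x k))⁻¹ - r)| ≤ b := by
    have h5 : |∑ k, S i k * S j k * (r * (co (x k))⁻¹ - r)| ≤
        ∑ k, (S i k * S i k + S j k * S j k) / 2 * (R - r) := by
      refine (abs_sum_le_sum_abs _ _).trans (sum_le_sum fun k _ => ?_)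
      rw [abs_mul, abs_of_nonneg (hd k).1]
      refine mul_le_mul ?_ (hd k).2 (hd k).1 ?_
      · rw [abs_le]
        constructor <;> nlinarith [sq_nonneg (S i k + S j k), sq_nonneg (S i k - S j k)]
      · nlinarith [sq_nonneg (S i k), sq_nonneg (S j k)]
    rw [← sum_mul, ← sum_div, sum_add_distrib, hS, hS, if_pos rfl, if_pos rfl] at h5
    nlinarith [hb i, hb j]
  exact (abs_sub _ _).trans (by linarith)

theorem hh_bound {κ : ι → ℝ} (h0 : ∀ i, 0 < κ i) : ∃ C : ℝ, 0 ≤ C ∧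
    ∀ (s : ℝ) (Q Y : Matrix ι ι ℝ), 0 < s → Bt (diagonal κ) Q →
      |hh κ s Q Y| ≤ C * n1 Y ∧ s * |hh κ s Q Y| ≤ C * n1 Y := by
  set K : ℝ := ∑ i, κ i with hKdef
  set A : ℝ := ∑ i, (κ i)⁻¹ with hAdef
  have hK0 : 0 ≤ K := sum_nonneg fun i _ => (h0 i).le
  have hA0 : 0 ≤ A := sum_nonneg fun i _ => inv_nonneg.2 (h0 i).le
  have hK : ∀ i, κ i ≤ K := fun i => single_le_sum (fun j _ => (h0 j).le) (mem_univ i)
  have hA : ∀ i, (κ i)⁻¹ ≤ A := fun i =>
    single_le_sum (f := fun j => (κ j)⁻¹) (fun j _ => inv_nonneg.2 (h0 j).le) (mem_univ i)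
  refine ⟨2 * (K * A + K ^ 2), by positivity, fun s Q Y hs hB => ?_⟩
  obtain ⟨S, x, hSD, hc⟩ := sd_es (fun i => (h0 i).le) hK0 hK hs hB
  have hn : 0 ≤ n1 Y := sum_nonneg fun i _ => sum_nonneg fun j _ => abs_nonneg _
  have hr : 0 < √s := sqrt_pos.2 hs
  have hrs : √s * √s = s := mul_self_sqrt hs.le
  have hre : ∀ i, √s ≤ √(κ i ^ 2 + s) := fun i => sqrt_le_sqrt (by nlinarith [sq_nonneg (κ i)])
  have hke : ∀ i, κ i ≤ √(κ i ^ 2 + s) := fun i => le_sqrt_of_sq_le (by linarith)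
  have heR : ∀ i, √(κ i ^ 2 + s) ≤ √(K ^ 2 + s) := fun i =>
    sqrt_le_sqrt (by nlinarith [h0 i, hK i])
  have hR0 : √s ≤ √(K ^ 2 + s) := sqrt_le_sqrt (by nlinarith [sq_nonneg K])
  have hRR : √(K ^ 2 + s) * √(K ^ 2 + s) = K ^ 2 + s := mul_self_sqrt (by positivity)
  have hw1 : √(K ^ 2 + s) - √s ≤ K := by
    have : √(K ^ 2 + s) ≤ K + √s := sqrt_le_iff.2 ⟨by positivity, by nlinarith⟩
    linarith
  have hw2 : (√(K ^ 2 + s) - √s) * √s ≤ K ^ 2 := by nlinarith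
  have hb1 : ∀ i, (√(K ^ 2 + s) - √s) * (√(κ i ^ 2 + s))⁻¹ ≤ K * A := fun i =>
    mul_le_mul hw1 ((inv_anti₀ (h0 i) (hke i)).trans (hA i)) (by positivity) hK0
  have hb2 : ∀ i, (√(K ^ 2 + s) - √s) * (√(κ i ^ 2 + s))⁻¹ ≤ K ^ 2 / s := fun i => by
    refine (mul_le_mul_of_nonneg_left (inv_anti₀ hr (hre i)) (by linarith)).trans ?_
    rw [le_div_iff₀ hs]
    have : (√(K ^ 2 + s) - √s) * (√s)⁻¹ * s = (√(K ^ 2 + s) - √s) * √s := by
      have h1 : (√s)⁻¹ * s = √s := by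
        rw [inv_mul_eq_iff_eq_mul₀ hr.ne', hrs]
      rw [mul_assoc, h1]
    rw [this]; exact hw2
  have c1 := HB_core hSD hr hre heR hc hb1 Y
  have c2 := HB_core hSD hr hre heR hc hb2 Y
  have e0 : hh κ s Q Y = trace Y - √s * Jt (diagonal fun i => √(κ i ^ 2 + s)) Q Y := rfl
  rw [← e0] at c1 c2
  constructor
  · refine c1.trans (mul_le_mul_of_nonneg_right ?_ hn)
    nlinarith [sq_nonneg K]
  · have h1 := mul_le_mul_of_nonneg_left c2 hs.le
    have h2 : s * (2 * (K ^ 2 / s) * n1 Y) = 2 * K ^ 2 * n1 Y := by field_simp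
    rw [h2] at h1
    refine h1.trans (mul_le_mul_of_nonneg_right ?_ hn)
    nlinarith [mul_nonneg hK0 hA0]

end Vale.Agent.P371.G
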