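import Vale.Agent.P371.G.SDex

open Real Finset Filter Topology MeasureTheory Matrix

namespace Vale.Agent.P371.G

variable {ι : Type} [Fintype ι] [DecidableEq ι]

theorem jcont_inv {X : Type*} [TopologicalSpace X] {A : X → Matrix ι ι ℝ} {U : Set X}
    (cA : ContinuousOn A U) (h : ∀ z ∈ U, (A z).det ≠ 0) :
    ContinuousOn (fun z => (A z)⁻¹) U := by
  have h1 : ContinuousOn (fun z => (A z).det) U :=
    (continuous_id.matrix_det).comp_continuousOn cA
  have h2 : ContinuousOn (fun z => (A z).adjugate) U :=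
    (continuous_id.matrix_adjugate).comp_continuousOn cA
  have h3 := (h1.inv₀ h).smul h2
  refine h3.congr fun z _ => ?_
  simp only [Matrix.inv_def, Ring.inverse_eq_inv']
  rfl

theorem jcont_es {X : Type*} [TopologicalSpace X] (κ : ι → ℝ) {s : X → ℝ} {U : Set X}
    (cs : ContinuousOn s U) : ContinuousOn (fun z => Es κ (s z)) U := by
  have h : Continuous fun s : ℝ => Es κ s := by
    unfold Es
    exact Continuous.matrix_diagonal (continuous_pi fun i => by fun_prop)
  exact h.comp_continuousOn cs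

theorem res_cont {X : Type*} [TopologicalSpace X] {κ : ι → ℝ} (h0 : ∀ i, 0 ≤ κ i) {s t : X → ℝ}
    {Q : X → Matrix ι ι ℝ} {U : Set X} (cs : ContinuousOn s U) (ct : ContinuousOn t U)
    (cQ : ContinuousOn Q U) (h : ∀ z ∈ U, 0 < s z ∧ |t z| ≤ 1 ∧ Bt (diagonal κ) (Q z)) :
    ContinuousOn (fun z => (Es κ (s z) - t z • Q z)⁻¹) U := by
  refine jcont_inv ((jcont_es κ cs).sub (ct.smul cQ)) fun z hz => ?_
  obtain ⟨h1, h2, h3⟩ := h z hz
  exact (es_posDef h0 h1 h2 h3).det_pos.ne'

/-- continuity of a parametric interval integral on a set -/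
theorem jcont_int {X : Type*} [MetricSpace X] {f : X → ℝ → ℝ} {U : Set X}
    (hf : ContinuousOn (fun p : X × ℝ => f p.1 p.2) (U ×ˢ Set.univ)) (a b : ℝ) :
    ContinuousOn (fun z => ∫ φ in a..b, f z φ) U := by
  rw [continuousOn_iff_continuous_restrict]
  have h : Continuous (Function.uncurry fun (z : U) (φ : ℝ) => f z.1 φ) := by
    have hm : Continuous fun p : U × ℝ => ((p.1.1, p.2) : X × ℝ) := by fun_prop
    exact hf.comp_continuous hm fun p => ⟨p.1.2, Set.mem_univ _⟩
  exact intervalIntegral.continuous_parametric_intervalIntegral_of_continuous' h a b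

theorem jcont_av {X : Type*} [MetricSpace X] {f : X → ℝ → ℝ} {U : Set X}
    (hf : ContinuousOn (fun p : X × ℝ => f p.1 p.2) (U ×ˢ Set.univ)) :
    ContinuousOn (fun z => Av (f z)) U :=
  continuousOn_const.mul (jcont_int hf 0 π)

theorem jcont_res {X : Type*} [TopologicalSpace X] {κ : ι → ℝ} (h0 : ∀ i, 0 ≤ κ i) {s : X → ℝ}
    {Q : X → Matrix ι ι ℝ} {U : Set X} (cs : ContinuousOn s U)
    (cQ : ContinuousOn Q U) (h : ∀ z ∈ U, 0 < s z ∧ Bt (diagonal κ) (Q z)) :
    ContinuousOn (fun p : X × ℝ => Res (Es κ (s p.1)) (Q p.1) p.2) (U ×ˢ Set.univ) := by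
  have hf : ContinuousOn (fun p : X × ℝ => p.1) (U ×ˢ Set.univ) := continuousOn_fst
  have hm : Set.MapsTo (fun p : X × ℝ => p.1) (U ×ˢ Set.univ) U := fun p hp => hp.1
  exact res_cont (t := fun p : X × ℝ => cos p.2) h0 (cs.comp hf hm) (by fun_prop)
    (cQ.comp hf hm) fun p hp => ⟨(h _ hp.1).1, abs_cos_le_one _, (h _ hp.1).2⟩

theorem jcont_trace {X : Type*} [TopologicalSpace X] {A : X → Matrix ι ι ℝ} {U : Set X}
    (cA : ContinuousOn A U) : ContinuousOn (fun z => trace (A z)) U :=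
  (continuous_id.matrix_trace).comp_continuousOn cA

theorem jt_cont {X : Type*} [MetricSpace X] {κ : ι → ℝ} (h0 : ∀ i, 0 ≤ κ i) {s : X → ℝ}
    {Q Y : X → Matrix ι ι ℝ} {U : Set X} (cs : ContinuousOn s U) (cQ : ContinuousOn Q U)
    (cY : ContinuousOn Y U) (h : ∀ z ∈ U, 0 < s z ∧ Bt (diagonal κ) (Q z)) :
    ContinuousOn (fun z => Jt (Es κ (s z)) (Q z) (Y z)) U := by
  have hf : ContinuousOn (fun p : X × ℝ => p.1) (U ×ˢ Set.univ) := continuousOn_fst
  have hm : Set.MapsTo (fun p : X × ℝ => p.1) (U ×ˢ Set.univ) U := fun p hp => hp.1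
  exact jcont_av (f := fun z φ => trace (Res (Es κ (s z)) (Q z) φ * Y z))
    (jcont_trace ((jcont_res h0 cs cQ h).mul (cY.comp hf hm)))

theorem MD.cont {F F' : ℝ → Matrix ι ι ℝ} (h : MD F F') : Continuous F :=
  continuous_matrix fun i j => continuous_iff_continuousAt.mpr fun x => (h.2 x i j).continuousAt

/-- Fubini on a rectangle for a function continuous on the rectangle. -/
theorem swap_rect {f : ℝ → ℝ → ℝ} {a b c d : ℝ} (hab : a ≤ b) (hcd : c ≤ d)
    (hf : ContinuousOn (fun z : ℝ × ℝ => f z.1 z.2) (Set.Icc a b ×ˢ Set.Icc c d)) :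
    ∫ x in a..b, ∫ y in c..d, f x y = ∫ y in c..d, ∫ x in a..b, f x y := by
  simp only [intervalIntegral.integral_of_le hab, intervalIntegral.integral_of_le hcd]
  apply integral_integral_swap
  rw [Measure.prod_restrict]
  have h1 : IntegrableOn (fun z : ℝ × ℝ => f z.1 z.2) (Set.Icc a b ×ˢ Set.Icc c d)
      (volume.prod volume) := hf.integrableOn_compact (isCompact_Icc.prod isCompact_Icc)
  exact h1.mono_set (Set.prod_mono Set.Ioc_subset_Icc_self Set.Ioc_subset_Icc_self)

theorem cont_rect {f : ℝ → ℝ → ℝ} {a b c d : ℝ} (hcd : c ≤ d)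
    (hf : ContinuousOn (fun z : ℝ × ℝ => f z.1 z.2) (Set.Icc a b ×ˢ Set.Icc c d)) :
    ContinuousOn (fun x => ∫ y in c..d, f x y) (Set.Icc a b) := by
  have h1 : ContinuousOn (fun p : ℝ × ℝ => f p.1 (Set.projIcc c d hcd p.2 : ℝ))
      (Set.Icc a b ×ˢ Set.univ) := by
    have hm : Continuous fun p : ℝ × ℝ => ((p.1, (Set.projIcc c d hcd p.2 : ℝ)) : ℝ × ℝ) :=
      continuous_fst.prodMk
        (continuous_subtype_val.comp (continuous_projIcc.comp continuous_snd))
    exact hf.comp hm.continuousOn fun p hp => ⟨hp.1, (Set.projIcc c d hcd p.2).2⟩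
  refine (jcont_int (f := fun x y => f x (Set.projIcc c d hcd y : ℝ)) h1 c d).congr
    fun x _ => ?_
  refine intervalIntegral.integral_congr fun y hy => ?_
  rw [Set.uIcc_of_le hcd] at hy
  simp only [Set.projIcc_of_mem hcd hy]

end Vale.Agent.P371.G
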