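import Vale.Agent.P371.G.Defs

open Real Finset Filter Topology MeasureTheory Matrix

namespace Vale.Agent.P371.G

variable {ι : Type} [Fintype ι] [DecidableEq ι]

theorem MD.det {F F' : ℝ → Matrix ι ι ℝ} (h : MD F F') (x : ℝ) :
    HasDerivAt (fun y => (F y).det) (trace ((F x).adjugate * F' x)) x := by
  have h1 : HasDerivAt (fun y => ∑ σ : Equiv.Perm ι, ((Equiv.Perm.sign σ : ℤ) : ℝ) * ∏ i, F y (σ i) i)
      (∑ σ : Equiv.Perm ι, ((Equiv.Perm.sign σ : ℤ) : ℝ) *
        ∑ i, (∏ j ∈ univ.erase i, F x (σ j) j) • F' x (σ i) i) x :=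
    HasDerivAt.fun_sum fun σ _ =>
      (HasDerivAt.fun_finsetProd fun i _ => h.2 x (σ i) i).const_mul _
  simp only [← det_apply'] at h1
  convert h1 using 1
  simp only [mul_sum]
  rw [sum_comm, trace]
  refine sum_congr rfl fun i _ => ?_
  have e1 : ((F x).adjugate * F' x).diag i = ((F x).updateCol i fun k => F' x k i).det := by
    rw [← cramer_apply, cramer_eq_adjugate_mulVec]
    rfl
  rw [e1, det_apply']
  refine sum_congr rfl fun σ _ => ?_
  congr 1
  rw [← mul_prod_erase univ _ (mem_univ i), updateCol_self, smul_eq_mul, mul_comm]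
  congr 1
  exact prod_congr rfl fun j hj => updateCol_ne (ne_of_mem_erase hj)

theorem MD.logdet {F F' : ℝ → Matrix ι ι ℝ} (h : MD F F') {x : ℝ} (hx : (F x).det ≠ 0) :
    HasDerivAt (fun y => Real.log (F y).det) (trace ((F x)⁻¹ * F' x)) x := by
  convert (h.det x).log hx using 1
  rw [Matrix.inv_def, Ring.inverse_eq_inv', smul_mul_assoc, trace_smul, smul_eq_mul,
    div_eq_inv_mul]

end Vale.Agent.P371.G
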