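import Vale.Agent.P371.G.Mp
import Vale.Agent.P371.G.CfcC

open Real Finset Filter Topology MeasureTheory Matrix

namespace Vale.Agent.P371.G

variable {ι : Type} [Fintype ι] [DecidableEq ι]
  {κ : Type} [Fintype κ]

omit [DecidableEq ι] in
theorem KinA_tr (M : Matrix ι κ ℝ) : trace (M * Mᵀ) = ∑ a, ∑ i, M a i * M a i := by
  simp only [trace, diag_apply, Matrix.mul_apply, transpose_apply]

theorem h1_mul {Ψ Ψ' : ℝ → Matrix ι κ ℝ} (hΨ : ∀ a i, H1 (fun x => Ψ x a i) (fun x => Ψ' x a i))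
    (T : Matrix ι ι ℝ) (a : ι) (i : κ) :
    H1 (fun x => (T * Ψ x) a i) (fun x => (T * Ψ' x) a i) := by
  simp only [Matrix.mul_apply]
  refine ⟨memLp_finsetSum _ fun b _ => (hΨ b i).1.const_mul _,
    memLp_finsetSum _ fun b _ => (hΨ b i).2.1.const_mul _, fun u v => ?_⟩
  rw [intervalIntegral.integral_finsetSum fun b _ => ((hΨ b i).ft.1 u v).const_mul _,
    ← Finset.sum_sub_distrib]
  refine Finset.sum_congr rfl fun b _ => ?_
  rw [intervalIntegral.integral_const_mul, ← (hΨ b i).2.2, mul_sub]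

theorem h1_cont {w w' : ℝ → Matrix ι κ ℝ} (hw : ∀ a i, H1 (fun x => w x a i) (fun x => w' x a i)) :
    Continuous w :=
  continuous_matrix fun a i => (hw a i).ft.cont

theorem g_ib {w w' : ℝ → Matrix ι κ ℝ} (hw : ∀ a i, H1 (fun x => w x a i) (fun x => w' x a i)) :
    IB (fun x => trace (w x * (w x)ᵀ)) ∧ Tendsto (fun x => trace (w x * (w x)ᵀ)) atTop (𝓝 0) ∧
      Tendsto (fun x => trace (w x * (w x)ᵀ)) atBot (𝓝 0) := by
  simp only [KinA_tr]
  refine ⟨IB.sum _ fun a => IB.sum _ fun i => (hw a i).ib (hw a i), ?_, ?_⟩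
  · simpa using tendsto_finsetSum univ fun a _ => tendsto_finsetSum univ fun i _ =>
      ((hw a i).lim (hw a i)).1
  · simpa using tendsto_finsetSum univ fun a _ => tendsto_finsetSum univ fun i _ =>
      ((hw a i).lim (hw a i)).2

theorem int_kin {w w' : ℝ → Matrix ι κ ℝ} (hw : ∀ a i, H1 (fun x => w x a i) (fun x => w' x a i)) :
    Integrable fun x => trace (w' x * (w' x)ᵀ) := by
  simp only [KinA_tr]
  exact integrable_finsetSum _ fun a _ => integrable_finsetSum _ fun i _ =>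
    (hw a i).2.1.integrable_mul (hw a i).2.1

theorem int_mp {w w' : ℝ → Matrix ι κ ℝ} (hw : ∀ a i, H1 (fun x => w x a i) (fun x => w' x a i))
    {a : ℝ} (ha : 1 ≤ a) : Continuous (fun x => mp a (w x * (w x)ᵀ)) ∧
      Integrable fun x => trace (mp a (w x * (w x)ᵀ)) := by
  have hc := h1_cont hw
  have h1 : Continuous fun x => mp a (w x * (w x)ᵀ) :=
    continuous_cfc_matrix (Real.continuous_rpow_const (by linarith))
      (hc.matrix_mul hc.matrix_transpose) fun x => by rw [transpose_mul, transpose_transpose]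
  obtain ⟨hi, -, C, hC⟩ := (g_ib hw).1
  refine ⟨h1, (hi.const_mul (C ^ (a - 1))).mono' h1.matrix_trace.aestronglyMeasurable
    (Eventually.of_forall fun x => ?_)⟩
  have hp : (w x * (w x)ᵀ).PosSemidef := by
    simpa using posSemidef_self_mul_conjTranspose (w x)
  rw [Real.norm_eq_abs, abs_of_nonneg (trace_mp_nonneg a hp)]
  exact trace_mp_le ha hp ((le_abs_self _).trans (hC x))

theorem int_mass {Ψ Ψ' : ℝ → Matrix ι κ ℝ} (hΨ : ∀ a i, H1 (fun x => Ψ x a i) (fun x => Ψ' x a i))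
    (hon : ∀ a b, ∫ x, (Ψ x * (Ψ x)ᵀ) a b = (1 : Matrix ι ι ℝ) a b) (Y T : Matrix ι ι ℝ) :
    (Integrable fun x => trace (Y * (T * Ψ x * (T * Ψ x)ᵀ))) ∧
      ∫ x, trace (Y * (T * Ψ x * (T * Ψ x)ᵀ)) = trace (Y * (T * Tᵀ)) := by
  have e : ∀ M : Matrix ι ι ℝ, trace (Y * (T * M * Tᵀ)) = ∑ a, ∑ b, (Tᵀ * Y * T) a b * M b a :=
    fun M => by
      rw [← Matrix.mul_assoc, ← Matrix.mul_assoc, trace_mul_comm, ← Matrix.mul_assoc,
        ← Matrix.mul_assoc]
      simp only [trace, diag_apply]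
      exact Finset.sum_congr rfl fun a _ => Matrix.mul_apply
  have e2 : ∀ x, trace (Y * (T * Ψ x * (T * Ψ x)ᵀ)) =
      ∑ a, ∑ b, (Tᵀ * Y * T) a b * (Ψ x * (Ψ x)ᵀ) b a := fun x => by
    rw [← e, transpose_mul]
    simp only [Matrix.mul_assoc]
  have hi : ∀ a b, Integrable fun x => (Tᵀ * Y * T) a b * (Ψ x * (Ψ x)ᵀ) b a := fun a b => by
    refine Integrable.const_mul ?_ _
    simp only [Matrix.mul_apply, transpose_apply]
    exact integrable_finsetSum _ fun i _ => (hΨ b i).1.integrable_mul (hΨ a i).1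
  simp only [e2]
  refine ⟨integrable_finsetSum _ fun a _ => integrable_finsetSum _ fun b _ => hi a b, ?_⟩
  rw [integral_finsetSum _ fun a _ => integrable_finsetSum _ fun b _ => hi a b]
  have e3 := e 1
  rw [Matrix.mul_one] at e3
  rw [e3]
  refine Finset.sum_congr rfl fun a _ => ?_
  rw [integral_finsetSum _ fun b _ => hi a b]
  exact Finset.sum_congr rfl fun b _ => by rw [integral_const_mul, hon]

end Vale.Agent.P371.G
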