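import Vale.Agent.P371.G.Spec
import Vale.Agent.P371.G.JCont

open Real Finset Filter Topology MeasureTheory Matrix

namespace Vale.Agent.P371.G

variable {ι : Type} [Fintype ι] [DecidableEq ι]
  {κ : Type} [Fintype κ]

theorem kinF_pt (w w' : Matrix ι κ ℝ) (D Q W : Matrix ι ι ℝ) (hQ : Qᵀ = Q) :
    0 ≤ trace ((Q * Q - D * D + W) * (w * wᵀ) + Q * (w' * wᵀ + w * w'ᵀ)) +
      (trace (w' * w'ᵀ) + trace (D * D * (w * wᵀ)) - trace (W * (w * wᵀ))) := by
  have h0 := (gram_psd (w' + Q * w)).trace_nonneg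
  have e1 : trace (Q * w * (wᵀ * Q)) = trace (Q * Q * (w * wᵀ)) := by
    rw [← Matrix.mul_assoc, trace_mul_comm]
    simp only [Matrix.mul_assoc]
  have e2 : trace (w' * (wᵀ * Q)) = trace (Q * (w' * wᵀ)) := by
    rw [← Matrix.mul_assoc, trace_mul_comm]
  have e3 : trace (Q * w * w'ᵀ) = trace (Q * (w * w'ᵀ)) := by rw [Matrix.mul_assoc]
  simp only [transpose_add, transpose_mul, hQ, Matrix.add_mul, Matrix.mul_add, trace_add, e1, e2,
    e3, Matrix.sub_mul, trace_sub] at h0 ⊢
  linarith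

theorem kin_fin {w w' : ℝ → Matrix ι κ ℝ} (hw : ∀ a i, H1 (fun x => w x a i) (fun x => w' x a i))
    {D : Matrix ι ι ℝ} {Q Q' W : ℝ → Matrix ι ι ℝ} (hQ : MD Q Q') (cW : Continuous W) {a b : ℝ}
    (hab : a ≤ b)
    (h : ∀ x ∈ Set.Icc a b, (Q x)ᵀ = Q x ∧ Q' x = Q x * Q x - D * D + W x) :
    trace (Q a * (w a * (w a)ᵀ)) - trace (Q b * (w b * (w b)ᵀ)) ≤
      (∫ x in a..b, trace (w' x * (w' x)ᵀ)) + (∫ x in a..b, trace (D * D * (w x * (w x)ᵀ))) -
        ∫ x in a..b, trace (W x * (w x * (w x)ᵀ)) := by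
  have hQF : MFT Q Q' := fun i j =>
    have hc : Continuous fun x => Q' x i j := hQ.1.matrix_elem i j
    ⟨fun a b => hc.intervalIntegrable a b, fun a b =>
      (intervalIntegral.integral_eq_sub_of_hasDerivAt (fun x _ => hQ.2 x i j)
        (hc.intervalIntegrable a b)).symm⟩
  have hB : MFT (fun x => w x * (w x)ᵀ) fun x => w' x * (w x)ᵀ + w x * (w' x)ᵀ :=
    MFT.mul (fun a i => (hw a i).ft) (fun i a => (hw a i).ft)
  have hF := (hQF.mul hB).trace
  have cB : Continuous fun x => w x * (w x)ᵀ := continuous_matrix fun i j => (hB i j).cont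
  have i1 : IntervalIntegrable (fun x => trace (w' x * (w' x)ᵀ)) volume a b := by
    refine Integrable.intervalIntegrable ?_
    simp only [trace, diag_apply, mul_apply, transpose_apply]
    exact integrable_finsetSum _ fun i _ => integrable_finsetSum _ fun j _ =>
      (hw i j).2.1.integrable_mul (hw i j).2.1
  have i2 : IntervalIntegrable (fun x => trace (D * D * (w x * (w x)ᵀ))) volume a b :=
    (continuous_const.matrix_mul cB).matrix_trace.intervalIntegrable a b
  have i3 : IntervalIntegrable (fun x => trace (W x * (w x * (w x)ᵀ))) volume a b :=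
    (cW.matrix_mul cB).matrix_trace.intervalIntegrable a b
  have h1 := hF.2 a b
  have h2 : 0 ≤ ∫ x in a..b, (trace (Q' x * (w x * (w x)ᵀ) +
      Q x * (w' x * (w x)ᵀ + w x * (w' x)ᵀ)) + (trace (w' x * (w' x)ᵀ) +
      trace (D * D * (w x * (w x)ᵀ)) - trace (W x * (w x * (w x)ᵀ)))) := by
    refine intervalIntegral.integral_nonneg hab fun x hx => ?_
    rw [(h x hx).2]
    exact kinF_pt _ _ _ _ _ (h x hx).1
  rw [intervalIntegral.integral_add (hF.1 a b) ((i1.add i2).sub i3),
    intervalIntegral.integral_sub (i1.add i2) i3, intervalIntegral.integral_add i1 i2] at h2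
  linarith

end Vale.Agent.P371.G
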