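import Vale.Agent.P371.G.MKa

open Real Finset Filter Topology MeasureTheory Matrix

namespace Vale.Agent.P371.G

variable {ι : Type} [Fintype ι] [DecidableEq ι]

theorem mk_diag {l : ℝ} (l0 : 0 < l) (l1 : l < 1) {κ β : ι → ℝ} (h0 : ∀ i, 0 < κ i) {a b : ℝ}
    (hab : a ≤ b) {Q Q' τ : ℝ → Matrix ι ι ℝ} (hQ : MD Q Q') (cτ : Continuous τ)
    (hτ : ∀ x, (τ x).PosSemidef)
    (h : ∀ x ∈ Set.Icc a b, Bt (diagonal κ) (Q x) ∧
      Q' x = Q x * Q x - diagonal κ * diagonal κ + (1 / l + 1) • τ x)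
    (ha : Q a = -diagonal κ) (hb : Q b = diagonal β) :
    ∑ i, ∫ q in (-κ i)..β i, (κ i ^ 2 - q ^ 2) ^ l ≤
      1 / l * ∫ x in a..b, trace (mp (1 + l) (τ x)) := by
  obtain ⟨C, hC⟩ := mk_trunc l0 l1 h0 hab hQ cτ hτ h ha hb
  have hab' : b ∈ Set.Icc a b := ⟨hab, le_rfl⟩
  have hβ : ∀ i, |β i| ≤ κ i := bt_diag (hb ▸ (h b hab').1)
  have hc := cc_pos l0 l1
  set I := ∑ i, ∫ q in (-κ i)..β i, (κ i ^ 2 - q ^ 2) ^ l with hI
  set P := ∫ x in a..b, trace (mp (1 + l) (τ x)) with hP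
  have key : ∀ Λ : ℝ, 1 ≤ Λ → l * (cc l * I) ≤ cc l * P + C * (Λ ^ (l - 1) + Λ⁻¹ ^ l) +
      l * ∑ i, 2 * κ i * (Λ⁻¹ ^ l / l + κ i ^ 2 * Λ ^ (l - 1) / (1 - l)) := fun Λ hΛ => by
    have hσ : 0 < Λ⁻¹ := by positivity
    have hle : Λ⁻¹ ≤ Λ := (inv_le_one_of_one_le₀ hΛ).trans hΛ
    have h1 := hC _ _ hσ hle
    have h2 := mul_le_mul_of_nonneg_left
      (Finset.sum_le_sum fun i (_ : i ∈ univ) => sl_lower l0 l1 (hβ i) hσ hle) l0.le
    rw [Finset.sum_sub_distrib, ← Finset.mul_sum, ← hI] at h2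
    linarith
  have t1 : Tendsto (fun Λ : ℝ => Λ ^ (l - 1)) atTop (𝓝 0) := by
    simpa using tendsto_rpow_neg_atTop (y := 1 - l) (by linarith)
  have t2 : Tendsto (fun Λ : ℝ => Λ⁻¹ ^ l) atTop (𝓝 0) := by
    have := (Real.continuousAt_rpow_const 0 l (Or.inr l0.le)).tendsto.comp tendsto_inv_atTop_zero
    rwa [Real.zero_rpow l0.ne'] at this
  have t3 := ((((t1.add t2).const_mul C).const_add (cc l * P)).add
    ((tendsto_finsetSum univ fun i _ => (((t2.div_const l).add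
      ((t1.const_mul (κ i ^ 2)).div_const (1 - l))).const_mul (2 * κ i))).const_mul l))
  have h3 := ge_of_tendsto t3 ((eventually_ge_atTop 1).mono key)
  simp only [add_zero, mul_zero, zero_div, Finset.sum_const_zero] at h3
  rw [one_div, ← div_eq_inv_mul, le_div_iff₀ l0]
  exact le_of_mul_le_mul_left (by linarith) hc

theorem mk_gen {l : ℝ} (l0 : 0 < l) (l1 : l < 1) {κ : ι → ℝ} (h0 : ∀ i, 0 < κ i) {a b ε : ℝ}
    (hab : a ≤ b) {O D : Matrix ι ι ℝ} (hO : Oᵀ * O = 1) (hD : D = O * diagonal κ * Oᵀ)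
    {Q Q' τ : ℝ → Matrix ι ι ℝ} (hQ : MD Q Q') (cτ : Continuous τ)
    (hτ : ∀ x, (τ x).PosSemidef)
    (h : ∀ x ∈ Set.Icc a b, Bt D (Q x) ∧ Q' x = Q x * Q x - D * D + (1 / l + 1) • τ x)
    (ha : Q a = -D) (hb : Q b = D - ε • (1 : Matrix ι ι ℝ)) :
    ∑ i, ∫ q in (-κ i)..(κ i - ε), (κ i ^ 2 - q ^ 2) ^ l ≤
      1 / l * ∫ x in a..b, trace (mp (1 + l) (τ x)) := by
  have hO' : O * Oᵀ = 1 := mul_eq_one_comm.1 hO
  have cj : ∀ X Y : Matrix ι ι ℝ, Oᵀ * X * O * (Oᵀ * Y * O) = Oᵀ * (X * Y) * O := fun X Y => by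
    calc _ = Oᵀ * X * (O * Oᵀ) * Y * O := by simp only [Matrix.mul_assoc]
      _ = _ := by rw [hO', Matrix.mul_one]; simp only [Matrix.mul_assoc]
  have hD' : Oᵀ * D * O = diagonal κ := by
    calc _ = Oᵀ * O * diagonal κ * (Oᵀ * O) := by rw [hD]; simp only [Matrix.mul_assoc]
      _ = _ := by rw [hO, Matrix.one_mul, Matrix.mul_one]
  have ps : ∀ {X : Matrix ι ι ℝ}, X.PosSemidef → (Oᵀ * X * O).PosSemidef := fun hX => by
    simpa using hX.conjTranspose_mul_mul_same O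
  have := mk_diag l0 l1 h0 (β := fun i => κ i - ε) hab (Q := fun x => Oᵀ * Q x * O)
    (Q' := fun x => Oᵀ * Q' x * O) (τ := fun x => Oᵀ * τ x * O)
    ⟨(continuous_const.matrix_mul hQ.1).matrix_mul continuous_const, fun x i j => by
      simp only [Matrix.mul_apply]
      exact HasDerivAt.fun_sum fun k _ => (HasDerivAt.fun_sum fun m _ =>
        (hQ.2 x m k).const_mul _).mul_const _⟩
    ((continuous_const.matrix_mul cτ).matrix_mul continuous_const) (fun x => ps (hτ x))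
    (fun x hx => by
      refine ⟨⟨?_, ?_⟩, ?_⟩
      · rw [← hD', ← Matrix.sub_mul, ← Matrix.mul_sub]; exact ps (h x hx).1.1
      · rw [← hD', ← Matrix.add_mul, ← Matrix.mul_add]; exact ps (h x hx).1.2
      · simp only [← hD', cj]
        rw [(h x hx).2, Matrix.mul_add, Matrix.add_mul, Matrix.mul_sub, Matrix.sub_mul,
          Matrix.mul_smul, Matrix.smul_mul])
    (by simp only [ha, Matrix.mul_neg, Matrix.neg_mul, hD'])
    (by
      simp only [hb, Matrix.mul_sub, Matrix.sub_mul, hD', Matrix.mul_smul, Matrix.smul_mul,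
        Matrix.mul_one, hO]
      ext i j
      by_cases hij : i = j
      · subst hij; simp
      · simp [hij])
  simpa only [fun x => mp_conj (1 + l) hO (psd_symm (hτ x))] using this

end Vale.Agent.P371.G
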