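import Vale.Agent.P371.G.KinA
import Vale.Agent.P371.G.KinF
import Vale.Agent.P371.G.MK

open Real Finset Filter Topology MeasureTheory Matrix

namespace Vale.Agent.P371.G

variable {ι : Type} [Fintype ι] [DecidableEq ι]
  {κ : Type} [Fintype κ]

/-- the kinetic inequality along a landed Riccati solution -/
theorem kin_ric {l : ℝ} (l0 : 0 < l) (l1 : l < 1) {w w' : ℝ → Matrix ι κ ℝ}
    (hw : ∀ a i, H1 (fun x => w x a i) (fun x => w' x a i)) {d : ι → ℝ} (h0 : ∀ i, 0 < d i)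
    {a b ε : ℝ} (hab : a ≤ b) {O D : Matrix ι ι ℝ} (hO : Oᵀ * O = 1) (hD : D = O * diagonal d * Oᵀ)
    {Q Q' : ℝ → Matrix ι ι ℝ} (hQ : MD Q Q')
    (h : ∀ x ∈ Set.Icc a b, Bt D (Q x) ∧
      Q' x = Q x * Q x - D * D + (1 / l + 1) • mp (1 / l) (w x * (w x)ᵀ))
    (ha : Q a = -D) (hb : Q b = D - ε • (1 : Matrix ι ι ℝ)) :
    (∑ i, ∫ q in (-d i)..(d i - ε), (d i ^ 2 - q ^ 2) ^ l) -
        trace D * (trace (w a * (w a)ᵀ) + trace (w b * (w b)ᵀ)) ≤
      (∫ x, trace (w' x * (w' x)ᵀ)) + (∫ x, trace (D * D * (w x * (w x)ᵀ))) -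
        ∫ x in a..b, trace (mp (1 / l + 1) (w x * (w x)ᵀ)) := by
  have hq : ∀ x, (w x * (w x)ᵀ).PosSemidef := fun x => gram_psd (w x)
  have hl : 1 ≤ 1 / l := by rw [le_div_iff₀ l0]; linarith
  have cτ := (int_mp hw hl).1
  have hDs : Dᵀ = D := by
    rw [hD, transpose_mul, transpose_mul, transpose_transpose, diagonal_transpose,
      Matrix.mul_assoc]
  have h1 := mk_gen l0 l1 h0 hab hO hD hQ cτ (fun x => mp_psd _ (hq x)) h ha hb
  have e1 : ∀ x, trace (mp (1 + l) (mp (1 / l) (w x * (w x)ᵀ))) =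
      trace (mp (1 / l + 1) (w x * (w x)ᵀ)) := by
    intro x
    rw [mp_mp _ _ (hq x)]
    congr 2
    field_simp
  simp only [e1] at h1
  have h2 := kin_fin (D := D) (W := fun x => (1 / l + 1) • mp (1 / l) (w x * (w x)ᵀ)) hw hQ
    (cτ.const_smul (1 / l + 1)) hab fun x hx => ⟨by
      have := psd_symm (h x hx).1.2
      rw [transpose_add, hDs] at this
      exact add_left_cancel this, (h x hx).2⟩
  have e2 : ∀ x, trace ((1 / l + 1) • mp (1 / l) (w x * (w x)ᵀ) * (w x * (w x)ᵀ)) =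
      (1 / l + 1) * trace (mp (1 / l + 1) (w x * (w x)ᵀ)) := by
    intro x
    rw [Matrix.smul_mul, trace_smul, trace_mp_mul (by positivity) (hq x), smul_eq_mul]
  simp only [e2] at h2
  rw [intervalIntegral.integral_const_mul] at h2
  have h3 := abs_le.1 (bt_trace_le (h a ⟨le_rfl, hab⟩).1 (hq a))
  have h4 := abs_le.1 (bt_trace_le (h b ⟨hab, le_rfl⟩).1 (hq b))
  have key : ∀ f : ℝ → ℝ, Integrable f → (∀ x, 0 ≤ f x) → ∫ x in a..b, f x ≤ ∫ x, f x := by
    intro f hf h0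
    rw [intervalIntegral.integral_of_le hab]
    exact setIntegral_le_integral hf (Eventually.of_forall h0)
  have h5 := key _ (int_kin hw) fun x => (gram_psd (w' x)).trace_nonneg
  have e3 : ∀ x, trace (D * D * (w x * (w x)ᵀ)) = trace (D * w x * (D * w x)ᵀ) := by
    intro x
    rw [transpose_mul, hDs, ← Matrix.mul_assoc (D * w x), trace_mul_comm _ D]
    simp only [Matrix.mul_assoc]
  have h6 := key (fun x => trace (D * D * (w x * (w x)ᵀ)))
    (by simp only [e3]; exact (g_ib (w := fun x => D * w x) (h1_mul hw D)).1.1)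
    fun x => by rw [e3]; exact (gram_psd _).trace_nonneg
  have e4 : ∀ I : ℝ, (1 / l + 1) * I = 1 / l * I + I := fun I => by ring
  rw [e4] at h2
  rw [mul_add]
  linarith [h3.1, h4.2]

end Vale.Agent.P371.G
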