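import Vale.Agent.P371.G.RicB
import Vale.Agent.P371.G.Brw

open Real Finset Filter Topology MeasureTheory Matrix

namespace Vale.Agent.P371.G

variable {ι : Type} [Fintype ι] [DecidableEq ι]

theorem landing {W : Matrix ι ι ℝ → ℝ → Matrix ι ι ℝ}
    (cW : Continuous fun z : Matrix ι ι ℝ × ℝ => W z.1 z.2) (hW : ∀ D x, (W D x).PosSemidef)
    {L : ℝ} (hL : ∀ D x i j, |W D x i j| ≤ L) {a b K ε : ℝ} (hab : a ≤ b) (hε : 0 < ε)
    (hK : ∀ D, ∫ x in a..b, trace (W D x) ≤ K) :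
    ∃ (O D : Matrix ι ι ℝ) (κ : ι → ℝ) (Q Q' : ℝ → Matrix ι ι ℝ), Oᵀ * O = 1 ∧
      D = O * diagonal κ * Oᵀ ∧ (∀ i, ε / 2 ≤ κ i) ∧ ∑ i, κ i ≤ (K + Fintype.card ι * ε) / 2 ∧
      MD Q Q' ∧ Q a = -D ∧ Q b = D - ε • (1 : Matrix ι ι ℝ) ∧
      ∀ x ∈ Set.Icc a b, Bt D (Q x) ∧ Q' x = Q x * Q x - D * D + W D x := by
  obtain ⟨B, B', cB, hB⟩ := ric_exists
    (((b - a + K + Fintype.card ι * ε) / 2) ^ 2 + (b - a + K) ^ 2) cW hL hab
  have cW' : ∀ D, Continuous (W D) := fun D => cW.comp (Continuous.prodMk_right D)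
  have hap := fun D => ric_apriori hab (hB D).1 (cW' D) (hW D) (hK D) (hB D).2.1 (hB D).2.2
  have hb : b ∈ Set.Icc a b := ⟨hab, le_rfl⟩
  obtain ⟨D, hD⟩ := brouwer_bdd (f := fun X => (1 / 2 : ℝ) • (B X b + ε • (1 : Matrix ι ι ℝ)))
    (by fun_prop) (C := (b - a + K + ε) / 2) (fun X i j => by
      have h1 := (psd_entry_le (hap X b hb).1 i j).trans (hap X b hb).2
      have h2 : |(ε • (1 : Matrix ι ι ℝ)) i j| ≤ ε := by
        by_cases hij : i = j <;> simp [hij, abs_of_pos hε, hε.le]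
      have h3 := abs_add_le (B X b i j) ((ε • (1 : Matrix ι ι ℝ)) i j)
      rw [Matrix.smul_apply, Matrix.add_apply, smul_eq_mul, abs_mul,
        abs_of_pos (by norm_num : (0 : ℝ) < 1 / 2)]
      linarith)
  have hD' : D = (1 / 2 : ℝ) • (B D b + ε • (1 : Matrix ι ι ℝ)) := hD.symm
  obtain ⟨h1, h2⟩ := ric_land hab hε (hB D).1 (cW' D) (hW D) (hK D) (hB D).2.1 (hB D).2.2 le_rfl hD'
  have hBb : B D b = (2 : ℝ) • D - ε • (1 : Matrix ι ι ℝ) := by
    conv_rhs => rw [hD']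
    rw [smul_smul]; norm_num
  have hs : Dᵀ = D := by
    conv_lhs => rw [hD']
    rw [transpose_smul, transpose_add, psd_symm (hap D b hb).1, transpose_smul, transpose_one]
    exact hD
  obtain ⟨O, κ, hO, hO', hDO⟩ := spec_exists hs
  refine ⟨O, D, κ, fun x => B D x - D, B' D, hO, hDO, ?_, ?_, ⟨(hB D).1.1, fun x i j => ?_⟩,
    by simp [(hB D).2.1], ?_, h1⟩
  · have h3 : (O * diagonal (fun i => 2 * κ i - ε) * Oᵀ).PosSemidef := by
      have : (diagonal fun i => 2 * κ i - ε) = (2 : ℝ) • diagonal κ - ε • (1 : Matrix ι ι ℝ) := by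
        ext i j
        by_cases hij : i = j
        · subst hij; simp
        · simp [hij]
      rw [this, Matrix.mul_sub, Matrix.sub_mul, Matrix.mul_smul, Matrix.mul_smul, Matrix.smul_mul,
        Matrix.smul_mul, Matrix.mul_one, hO', ← hDO, ← hBb]
      exact (hap D b hb).1
    intro i
    have := (psd_decomp hO _).1 h3 i
    linarith
  · rw [← trace_decomp hO, ← hDO]; exact h2
  · exact ((hB D).1.2 x i j).sub_const _
  · simp only [hBb, two_smul]; abel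

end Vale.Agent.P371.G
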