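import Vale.Agent.P371.G.Defs

open Real Finset Filter Topology MeasureTheory Matrix

namespace Vale.Agent.P371.G

private theorem Lev_cont {l : ℝ} (l0 : 0 < l) (c : ℝ) : Continuous fun q : ℝ => (c - q ^ 2) ^ l :=
  Continuous.rpow_const (by fun_prop) fun _ => Or.inr l0.le

theorem cl_pos {l : ℝ} (l0 : 0 < l) : 0 < cl l := by
  unfold cl
  refine intervalIntegral.intervalIntegral_pos_of_pos_on ((Lev_cont l0 1).intervalIntegrable _ _)
    (fun x hx => Real.rpow_pos_of_pos ?_ _) (by norm_num)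
  nlinarith [hx.1, hx.2]

private theorem Lev_scale (l : ℝ) {κ : ℝ} (k0 : 0 < κ) :
    ∫ q in (-κ)..κ, (κ ^ 2 - q ^ 2) ^ l = cl l * κ ^ (2 * l + 1) := by
  have h := intervalIntegral.integral_comp_mul_left (a := -1) (b := 1)
    (fun q : ℝ => (κ ^ 2 - q ^ 2) ^ l) k0.ne'
  rw [mul_one, mul_neg, mul_one, smul_eq_mul] at h
  have h2 : ∫ x in (-1 : ℝ)..1, (κ ^ 2 - (κ * x) ^ 2) ^ l = (κ ^ 2) ^ l * cl l := by
    unfold cl
    rw [← intervalIntegral.integral_const_mul]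
    refine intervalIntegral.integral_congr fun x hx => ?_
    rw [Set.uIcc_of_le (by norm_num)] at hx
    have hx0 : 0 ≤ 1 - x ^ 2 := by nlinarith [hx.1, hx.2]
    rw [← Real.mul_rpow (by positivity) hx0]
    congr 1
    ring
  have h3 : κ ^ (2 * l + 1) = (κ ^ 2) ^ l * κ := by
    rw [Real.rpow_add k0, Real.rpow_one, Real.rpow_mul k0.le, Real.rpow_two]
  rw [h2] at h
  rw [h3]
  have h4 := congrArg (κ * ·) h
  simp only [← mul_assoc, mul_inv_cancel₀ k0.ne', one_mul] at h4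
  rw [← h4]
  ring

theorem lev_ge {l : ℝ} (l0 : 0 < l) {κ ε K : ℝ} (hε : 0 < ε) (hε1 : ε ≤ 1) (h1 : ε / 2 ≤ κ)
    (h2 : κ ≤ K) : cl l * κ ^ (2 * l + 1) - ε * (2 * K) ^ l ≤
      ∫ q in (-κ)..(κ - ε), (κ ^ 2 - q ^ 2) ^ l := by
  have k0 : 0 < κ := by linarith
  have c := Lev_cont l0 (κ ^ 2)
  have h3 := intervalIntegral.integral_add_adjacent_intervals (μ := volume)
    (c.intervalIntegrable (-κ) (κ - ε)) (c.intervalIntegrable (κ - ε) κ)
  rw [Lev_scale l k0] at h3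
  have h4 : ∫ q in (κ - ε)..κ, (κ ^ 2 - q ^ 2) ^ l ≤ ∫ _q in (κ - ε)..κ, (2 * K) ^ l := by
    refine intervalIntegral.integral_mono_on (by linarith) (c.intervalIntegrable _ _)
      (by simp) fun q hq => Real.rpow_le_rpow ?_ ?_ l0.le
    · nlinarith [hq.1, hq.2]
    · have a1 : κ ^ 2 - q ^ 2 = (κ - q) * (κ + q) := by ring
      have a2 : (κ - q) * (κ + q) ≤ 1 * (2 * K) :=
        mul_le_mul (by linarith [hq.1]) (by linarith [hq.2]) (by linarith [hq.1]) zero_le_one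
      linarith
  rw [intervalIntegral.integral_const, smul_eq_mul, sub_sub_cancel] at h4
  linarith

end Vale.Agent.P371.G
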