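import Vale.Agent.P371.G.KinB
import Vale.Agent.P371.G.Land
import Vale.Agent.P371.G.Lev

open Real Finset Filter Topology MeasureTheory Matrix

namespace Vale.Agent.P371.G

variable {ι : Type} [Fintype ι] [DecidableEq ι]
  {κ : Type} [Fintype κ]

theorem kin_step {l : ℝ} (l0 : 0 < l) (l1 : l < 1) {Ψ Ψ' : ℝ → Matrix ι κ ℝ}
    (hΨ : ∀ a i, H1 (fun x => Ψ x a i) (fun x => Ψ' x a i))
    (hon : ∀ a b, ∫ x, (Ψ x * (Ψ x)ᵀ) a b = (1 : Matrix ι ι ℝ) a b)
    {T : Matrix ι ι ℝ → Matrix ι ι ℝ} {β : ℝ} (cT : Continuous T) (hβ : 0 ≤ β)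
    (hT : ∀ D Y : Matrix ι ι ℝ, Y.PosSemidef → trace (T D * Y * (T D)ᵀ) ≤ β * trace Y) :
    ∃ C : ℝ, ∀ R ε : ℝ, 0 ≤ R → 0 < ε → ε ≤ 1 →
      ∃ (O D : Matrix ι ι ℝ) (d : ι → ℝ), Oᵀ * O = 1 ∧ D = O * diagonal d * Oᵀ ∧ (∀ i, 0 ≤ d i) ∧
        cl l * ∑ i, d i ^ (2 * l + 1) - C * (ε + trace (Ψ R * (Ψ R)ᵀ) + trace (Ψ (-R) * (Ψ (-R))ᵀ) +
          ((∫ x, trace (Ψ x * (Ψ x)ᵀ)) - ∫ x in (-R)..R, trace (Ψ x * (Ψ x)ᵀ))) ≤
        (∫ x, trace (T D * Ψ' x * (T D * Ψ' x)ᵀ)) + trace (D * D * (T D * (T D)ᵀ)) -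
          ∫ x, trace (mp (1 / l + 1) (T D * Ψ x * (T D * Ψ x)ᵀ)) := by
  obtain ⟨⟨gi, gc, G, hG⟩, -, -⟩ := g_ib hΨ
  set g : ℝ → ℝ := fun x => trace (Ψ x * (Ψ x)ᵀ) with hg
  have g0 : ∀ x, 0 ≤ g x := fun x => (gram_psd (Ψ x)).trace_nonneg
  have gG : ∀ x, g x ≤ G := fun x => (le_abs_self _).trans (hG x)
  have G0 : 0 ≤ G := (g0 0).trans (gG 0)
  have k1 : 1 ≤ 1 / l := by rw [le_div_iff₀ l0]; linarith
  have hq : ∀ D x, trace (T D * Ψ x * (T D * Ψ x)ᵀ) ≤ β * g x := fun D x => by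
    have := hT D _ (gram_psd (Ψ x))
    rwa [transpose_mul, Matrix.mul_assoc, ← Matrix.mul_assoc (Ψ x), ← Matrix.mul_assoc]
  have hmp : ∀ {a : ℝ}, 1 ≤ a → ∀ D x, trace (mp a (T D * Ψ x * (T D * Ψ x)ᵀ)) ≤
      (β * G) ^ (a - 1) * β * g x := fun {a} ha D x => by
    refine (trace_mp_le ha (gram_psd _) ((hq D x).trans
      (mul_le_mul_of_nonneg_left (gG x) hβ))).trans ?_
    rw [mul_assoc]
    exact mul_le_mul_of_nonneg_left (hq D x) (Real.rpow_nonneg (mul_nonneg hβ G0) _)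
  set c1 := (1 / l + 1) * ((β * G) ^ (1 / l - 1) * β) with hc1
  have c10 : 0 ≤ c1 := mul_nonneg (by linarith)
    (mul_nonneg (Real.rpow_nonneg (mul_nonneg hβ G0) _) hβ)
  set c2 := (β * G) ^ (1 / l + 1 - 1) * β with hc2
  have c20 : 0 ≤ c2 := mul_nonneg (Real.rpow_nonneg (mul_nonneg hβ G0) _) hβ
  set I := ∫ x, g x with hI
  have I0 : 0 ≤ I := integral_nonneg g0
  set K' := (c1 * I + Fintype.card ι) / 2 with hK'
  have K0 : 0 ≤ K' := by positivity
  set c3 := Fintype.card ι * (2 * K') ^ l with hc3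
  have c30 : 0 ≤ c3 := by positivity
  have c40 : 0 ≤ K' * β := by positivity
  refine ⟨c3 + K' * β + c2, fun R ε hR hε hε1 => ?_⟩
  have hRR : -R ≤ R := by linarith
  have hsub : ∀ {f : ℝ → ℝ}, Integrable f → (∀ x, 0 ≤ f x) → ∫ x in (-R)..R, f x ≤ ∫ x, f x :=
    fun {f} hf h0 => by
      rw [intervalIntegral.integral_of_le hRR]
      exact setIntegral_le_integral hf (Eventually.of_forall h0)
  set W : Matrix ι ι ℝ → ℝ → Matrix ι ι ℝ :=
    fun D x => (1 / l + 1) • mp (1 / l) (T D * Ψ x * (T D * Ψ x)ᵀ) with hW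
  have hWp : ∀ D x, (W D x).PosSemidef := fun D x =>
    (mp_psd _ (gram_psd _)).smul (by linarith : (0 : ℝ) ≤ 1 / l + 1)
  have hWt : ∀ D x, trace (W D x) ≤ c1 * g x := fun D x => by
    rw [hW, trace_smul, smul_eq_mul, hc1, mul_assoc]
    exact mul_le_mul_of_nonneg_left (hmp k1 D x) (by linarith)
  have cΨ := h1_cont hΨ
  have cW : Continuous fun z : Matrix ι ι ℝ × ℝ => W z.1 z.2 := by
    have c1 : Continuous fun z : Matrix ι ι ℝ × ℝ => T z.1 * Ψ z.2 :=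
      (cT.comp continuous_fst).matrix_mul (cΨ.comp continuous_snd)
    exact (continuous_cfc_matrix (Real.continuous_rpow_const (q := 1 / l) (by linarith))
      (c1.matrix_mul c1.matrix_transpose) fun z => psd_symm (gram_psd _)).const_smul
        (1 / l + 1 : ℝ)
  obtain ⟨O, D, d, Q, Q', hO, hD, hd, hd', hQ, ha, hb, h⟩ := landing cW hWp (L := c1 * G)
    (fun D x i j => (psd_entry_le (hWp D x) i j).trans ((hWt D x).trans
      (mul_le_mul_of_nonneg_left (gG x) c10))) hRR hε (K := c1 * I) (fun D => by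
        refine le_trans (intervalIntegral.integral_mono_on hRR
          ((cW.comp (Continuous.prodMk_right D)).matrix_trace.intervalIntegrable _ _)
          (gi.const_mul c1).intervalIntegrable fun x _ => hWt D x) ?_
        rw [intervalIntegral.integral_const_mul]
        exact mul_le_mul_of_nonneg_left (hsub gi g0) c10)
  have d0 : ∀ i, 0 < d i := fun i => by linarith [hd i]
  have hw := h1_mul hΨ (T D)
  have key := kin_ric l0 l1 hw d0 hRR hO hD hQ h ha hb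
  rw [(int_mass hΨ hon (D * D) (T D)).2] at key
  have hdK : ∑ i, d i ≤ K' := by
    refine hd'.trans ?_
    have : (Fintype.card ι : ℝ) * ε ≤ Fintype.card ι := mul_le_of_le_one_right (by positivity) hε1
    rw [hK']; linarith
  have e1 : cl l * ∑ i, d i ^ (2 * l + 1) - c3 * ε ≤
      ∑ i, ∫ q in (-d i)..(d i - ε), (d i ^ 2 - q ^ 2) ^ l := by
    have := Finset.sum_le_sum fun i (_ : i ∈ univ) => lev_ge l0 hε hε1 (hd i)
      ((Finset.single_le_sum (fun j _ => (d0 j).le) (mem_univ i)).trans hdK)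
    rw [Finset.sum_sub_distrib, ← Finset.mul_sum, Finset.sum_const, card_univ, nsmul_eq_mul] at this
    rw [hc3]; linarith
  have e2 : trace D * (trace (T D * Ψ (-R) * (T D * Ψ (-R))ᵀ) + trace (T D * Ψ R * (T D * Ψ R)ᵀ)) ≤
      K' * β * (g R + g (-R)) := by
    have h1 : trace D ≤ K' := by rw [hD, trace_decomp hO]; exact hdK
    have h2 := add_le_add (hq D (-R)) (hq D R)
    have h3 := add_nonneg (gram_psd (T D * Ψ (-R))).trace_nonneg (gram_psd (T D * Ψ R)).trace_nonneg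
    calc _ ≤ K' * (β * g (-R) + β * g R) := mul_le_mul h1 h2 h3 K0
      _ = _ := by ring
  have k2 : 1 ≤ 1 / l + 1 := by linarith
  have iP := (int_mp hw k2).2
  have e3 := hsub ((gi.const_mul c2).sub iP) fun x => sub_nonneg.2 (hmp k2 D x)
  simp only [Pi.sub_apply] at e3
  rw [intervalIntegral.integral_sub (gi.const_mul c2).intervalIntegrable iP.intervalIntegrable,
    integral_sub (gi.const_mul c2) iP, integral_const_mul, intervalIntegral.integral_const_mul,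
    ← hI] at e3
  have t0 : 0 ≤ I - ∫ x in (-R)..R, g x := sub_nonneg.2 (hsub gi g0)
  refine ⟨O, D, d, hO, hD, fun i => (d0 i).le, ?_⟩
  have gR := g0 R
  have gR' := g0 (-R)
  change _ - _ * (ε + g R + g (-R) + (I - ∫ x in (-R)..R, g x)) ≤ _
  generalize ∫ x in (-R)..R, g x = J at *
  nlinarith [mul_nonneg c30 gR, mul_nonneg c30 gR', mul_nonneg c30 t0, mul_nonneg c40 hε.le,
    mul_nonneg c40 t0, mul_nonneg c20 hε.le, mul_nonneg c20 gR, mul_nonneg c20 gR']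

end Vale.Agent.P371.G
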