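import Vale.Agent.P371.G.Spec

open Real Finset Filter Topology MeasureTheory Matrix

namespace Vale.Agent.P371.G

variable {ι : Type} [Fintype ι] [DecidableEq ι]

theorem Mp_psd_exists {Y : Matrix ι ι ℝ} (hY : Y.PosSemidef) :
    ∃ (O : Matrix ι ι ℝ) (t : ι → ℝ), Oᵀ * O = 1 ∧ (∀ i, 0 ≤ t i) ∧
      Y = O * diagonal t * Oᵀ := by
  obtain ⟨O, t, h1, -, h3⟩ := spec_exists (psd_symm hY)
  exact ⟨O, t, h1, (psd_decomp h1 t).1 (h3 ▸ hY), h3⟩

theorem Mp_decomp {O : Matrix ι ι ℝ} (hO : Oᵀ * O = 1) (t : ι → ℝ) (a : ℝ) :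
    mp a (O * diagonal t * Oᵀ) = O * diagonal (fun i => t i ^ a) * Oᵀ :=
  cfc_decomp hO t _

theorem mp_psd (a : ℝ) {Y : Matrix ι ι ℝ} (hY : Y.PosSemidef) : (mp a Y).PosSemidef := by
  obtain ⟨O, t, hO, ht, rfl⟩ := Mp_psd_exists hY
  rw [Mp_decomp hO, psd_decomp hO]
  exact fun i => rpow_nonneg (ht i) a

theorem trace_mp_mul {a : ℝ} (ha : 0 < a) {Y : Matrix ι ι ℝ} (hY : Y.PosSemidef) :
    trace (mp a Y * Y) = trace (mp (a + 1) Y) := by
  obtain ⟨O, t, hO, ht, rfl⟩ := Mp_psd_exists hY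
  rw [Mp_decomp hO, Mp_decomp hO, mul_decomp hO, trace_decomp hO, trace_decomp hO]
  refine sum_congr rfl fun i _ => ?_
  rw [rpow_add_one' (ht i) (by linarith)]

theorem mp_mp (a b : ℝ) {Y : Matrix ι ι ℝ} (hY : Y.PosSemidef) :
    mp b (mp a Y) = mp (a * b) Y := by
  obtain ⟨O, t, hO, ht, rfl⟩ := Mp_psd_exists hY
  rw [Mp_decomp hO, Mp_decomp hO, Mp_decomp hO]
  congr 3
  funext i
  rw [rpow_mul (ht i)]

theorem trace_mp_nonneg (a : ℝ) {Y : Matrix ι ι ℝ} (hY : Y.PosSemidef) : 0 ≤ trace (mp a Y) :=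
  (mp_psd a hY).trace_nonneg

theorem trace_mp_le {a : ℝ} (ha : 1 ≤ a) {Y : Matrix ι ι ℝ} (hY : Y.PosSemidef) {G : ℝ}
    (hG : trace Y ≤ G) : trace (mp a Y) ≤ G ^ (a - 1) * trace Y := by
  obtain ⟨O, t, hO, ht, rfl⟩ := Mp_psd_exists hY
  rw [trace_decomp hO] at hG
  rw [Mp_decomp hO, trace_decomp hO, trace_decomp hO, mul_sum]
  refine sum_le_sum fun i _ => ?_
  have h1 : t i ≤ G := (single_le_sum (fun j _ => ht j) (mem_univ i)).trans hG
  have h2 : t i ^ a = t i ^ (a - 1) * t i := by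
    rw [← rpow_add_one' (ht i) (by linarith)]; congr 1; ring
  rw [h2]
  exact mul_le_mul_of_nonneg_right (rpow_le_rpow (ht i) h1 (by linarith)) (ht i)

theorem mp_conj (a : ℝ) {O Y : Matrix ι ι ℝ} (hO : Oᵀ * O = 1) (hY : Yᵀ = Y) :
    trace (mp a (Oᵀ * Y * O)) = trace (mp a Y) := by
  obtain ⟨P, t, hP, -, rfl⟩ := spec_exists hY
  have hO' : O * Oᵀ = 1 := mul_eq_one_comm.1 hO
  have h1 : (Oᵀ * P)ᵀ * (Oᵀ * P) = 1 := by
    rw [transpose_mul, transpose_transpose, Matrix.mul_assoc, ← Matrix.mul_assoc O, hO',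
      Matrix.one_mul, hP]
  have h2 : Oᵀ * (P * diagonal t * Pᵀ) * O = (Oᵀ * P) * diagonal t * (Oᵀ * P)ᵀ := by
    rw [transpose_mul, transpose_transpose]; simp only [Matrix.mul_assoc]
  rw [h2, Mp_decomp h1, Mp_decomp hP, trace_decomp h1, trace_decomp hP]

theorem n2_le {Y : Matrix ι ι ℝ} (hY : Y.PosSemidef) : n2 Y ≤ trace Y ^ 2 := by
  have h1 : n2 Y = trace (Y * Y) := by
    have hs := psd_symm hY
    unfold n2 trace
    refine sum_congr rfl fun i _ => ?_
    rw [diag_apply, mul_apply]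
    refine sum_congr rfl fun j _ => ?_
    have : Y j i = Y i j := by
      have := congrFun (congrFun hs i) j
      rwa [transpose_apply] at this
    rw [this, sq]
  rw [h1]
  obtain ⟨O, t, hO, ht, rfl⟩ := Mp_psd_exists hY
  rw [mul_decomp hO, trace_decomp hO, trace_decomp hO, sq, sum_mul]
  refine sum_le_sum fun i _ => ?_
  exact mul_le_mul_of_nonneg_left (single_le_sum (fun j _ => ht j) (mem_univ i)) (ht i)

theorem psd_entry_le {Y : Matrix ι ι ℝ} (hY : Y.PosSemidef) (i j : ι) : |Y i j| ≤ trace Y := by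
  have h1 : Y i j ^ 2 ≤ n2 Y := by
    unfold n2
    calc Y i j ^ 2 ≤ ∑ k, Y i k ^ 2 :=
          single_le_sum (f := fun k => Y i k ^ 2) (fun k _ => sq_nonneg _) (mem_univ j)
      _ ≤ _ := single_le_sum (f := fun l => ∑ k, Y l k ^ 2)
          (fun l _ => sum_nonneg fun k _ => sq_nonneg _) (mem_univ i)
  exact abs_le_of_sq_le_sq' (h1.trans (n2_le hY)) hY.trace_nonneg |> abs_le.2

theorem bt_trace_le {D Q Y : Matrix ι ι ℝ} (h : Bt D Q) (hY : Y.PosSemidef) :
    |trace (Q * Y)| ≤ trace D * trace Y := by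
  have h1 := trace_mul_nonneg h.1 hY
  have h2 := trace_mul_nonneg h.2 hY
  rw [Matrix.sub_mul, trace_sub] at h1
  rw [Matrix.add_mul, trace_add] at h2
  have hD : D.PosSemidef := by
    have h3 := (h.1.add h.2).smul (a := (1 / 2 : ℝ)) (by norm_num)
    have h4 : (1 / 2 : ℝ) • (D - Q + (D + Q)) = D := by
      ext i j; simp only [Matrix.smul_apply, Matrix.add_apply, Matrix.sub_apply, smul_eq_mul]; ring
    rwa [h4] at h3
  have h5 : trace (D * Y) ≤ trace D * trace Y := by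
    obtain ⟨O, t, hO, ht, rfl⟩ := Mp_psd_exists hD
    have hO' : O * Oᵀ = 1 := mul_eq_one_comm.1 hO
    have h6 : (O * diagonal (fun i => (∑ j, t j) - t i) * Oᵀ).PosSemidef :=
      (psd_decomp hO _).2 fun i => sub_nonneg.2 (single_le_sum (fun j _ => ht j) (mem_univ i))
    have h7 : O * diagonal (fun i => (∑ j, t j) - t i) * Oᵀ =
        (∑ j, t j) • (1 : Matrix ι ι ℝ) - O * diagonal t * Oᵀ := by
      have : diagonal (fun i => (∑ j, t j) - t i) =
          (∑ j, t j) • (1 : Matrix ι ι ℝ) - diagonal t := by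
        ext i k
        by_cases hik : i = k
        · subst hik; simp
        · simp [hik]
      rw [this, Matrix.mul_sub, Matrix.sub_mul, Matrix.mul_smul, Matrix.mul_one, Matrix.smul_mul,
        hO']
    have h8 := trace_mul_nonneg h6 hY
    rw [h7, Matrix.sub_mul, trace_sub, Matrix.smul_mul, Matrix.one_mul, trace_smul,
      smul_eq_mul] at h8
    rw [trace_decomp hO]
    linarith
  exact abs_le.2 ⟨by linarith, by linarith⟩

end Vale.Agent.P371.G
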