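import Vale.Agent.P371.G.Klein
import Vale.Agent.P371.G.CfcC
import Vale.Agent.P371.G.Fld
import Vale.Agent.P371.G.Mp

open Real Finset Filter Topology MeasureTheory Matrix

namespace Vale.Agent.P371.G

variable {ι : Type} [Fintype ι] [DecidableEq ι]

theorem tex_lt {γ c η : ℝ} (hγ : 0 < γ) (hγ1 : γ ≤ 1) (hc : 0 < c) (hη : 0 < η) {μ : ι → ℝ}
    (hμ : ∀ i, 0 < μ i) {O : Matrix ι ι ℝ} {κ : ι → ℝ} (hO : Oᵀ * O = 1) (hκ : ∀ i, 0 ≤ κ i)
    {f : ι → ℝ} (hf : ∀ i, f i * f i = c * (γ * (κ i * κ i + η) ^ (γ - 1))) :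
    c * ∑ i, μ i ^ γ - c * Fintype.card ι * η ^ γ ≤
      c * ∑ i, κ i ^ (2 * γ) +
        trace (O * diagonal f * Oᵀ * diagonal μ * (O * diagonal f * Oᵀ)ᵀ) -
        trace (O * diagonal κ * Oᵀ * (O * diagonal κ * Oᵀ) *
          (O * diagonal f * Oᵀ * (O * diagonal f * Oᵀ)ᵀ)) := by
  have hm : ∀ i, 0 < κ i * κ i + η := fun i => by nlinarith [mul_self_nonneg (κ i)]
  have hO' : (Oᵀ)ᵀ * Oᵀ = 1 := by rw [transpose_transpose]; exact mul_eq_one_comm.mp hO
  have h := klein hO' (y := μ) (m := fun i => κ i * κ i + η) (fy := fun i => -(c * μ i ^ γ))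
    (fm := fun j => -(c * (κ j * κ j + η) ^ γ)) (g := fun j => -(f j * f j)) fun i j => by
      have h1 := klein_tan' hγ.le hγ1 (hm j) (hμ i).le
      have h2 := mul_le_mul_of_nonneg_left h1 hc.le
      rw [hf]
      linarith
  rw [klein_trace, transpose_transpose] at h
  have e1 : trace (O * diagonal f * Oᵀ * diagonal μ * (O * diagonal f * Oᵀ)ᵀ) =
      ∑ j, f j * f j * (Oᵀ * diagonal μ * O) j j := by
    rw [klein_symm, trace_mul_cycle, mul_decomp hO, ← klein_trace]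
    calc trace (O * diagonal (fun i => f i * f i) * Oᵀ * diagonal μ)
        = trace (O * (diagonal (fun i => f i * f i) * (Oᵀ * diagonal μ))) := by
          simp only [Matrix.mul_assoc]
      _ = _ := by rw [trace_mul_comm]; simp only [Matrix.mul_assoc]
  have e2 : trace (O * diagonal κ * Oᵀ * (O * diagonal κ * Oᵀ) *
      (O * diagonal f * Oᵀ * (O * diagonal f * Oᵀ)ᵀ)) = ∑ j, κ j * κ j * (f j * f j) := by
    rw [klein_symm, mul_decomp hO, mul_decomp hO, mul_decomp hO, trace_decomp hO]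
  rw [e1, e2]
  have h3 : ∑ i, -(c * μ i ^ γ) = -(c * ∑ i, μ i ^ γ) := by
    rw [Finset.sum_neg_distrib, Finset.mul_sum]
  rw [h3] at h
  have h4 : ∀ j, -(c * κ j ^ (2 * γ)) - c * η ^ γ - f j * f j * (Oᵀ * diagonal μ * O) j j +
      κ j * κ j * (f j * f j) ≤ -(c * (κ j * κ j + η) ^ γ) +
      -(f j * f j) * (Oᵀ * diagonal μ * O - diagonal fun i => κ i * κ i + η) j j := by
    intro j
    have h5 := Real.rpow_add_le_add_rpow (mul_self_nonneg (κ j)) hη.le hγ.le hγ1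
    have h6 := mul_le_mul_of_nonneg_left h5 hc.le
    have h7 := mul_nonneg (mul_self_nonneg (f j)) hη.le
    rw [klein_sq (hκ j), Matrix.sub_apply, diagonal_apply_eq]
    linarith
  have h8 := Finset.sum_le_sum fun j (_ : j ∈ (Finset.univ : Finset ι)) => h4 j
  rw [Finset.sum_add_distrib, Finset.sum_sub_distrib, Finset.sum_sub_distrib,
    Finset.sum_neg_distrib, ← Finset.mul_sum, Finset.sum_const, Finset.card_univ, nsmul_eq_mul,
    Finset.sum_add_distrib] at h8
  linarith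

theorem tex {γ c η : ℝ} (hγ : 0 < γ) (hc : 0 < c) (hη : 0 < η) {μ : ι → ℝ} (hμ : ∀ i, 0 < μ i) :
    ∃ (T : Matrix ι ι ℝ → Matrix ι ι ℝ) (β : ℝ), Continuous T ∧ 0 ≤ β ∧
      (∀ D Y : Matrix ι ι ℝ, Y.PosSemidef → trace (T D * Y * (T D)ᵀ) ≤ β * trace Y) ∧
      ∀ (O D : Matrix ι ι ℝ) (κ : ι → ℝ), Oᵀ * O = 1 → D = O * diagonal κ * Oᵀ →
        (∀ i, 0 ≤ κ i) → c * ∑ i, μ i ^ γ - c * Fintype.card ι * η ^ γ ≤
          c * ∑ i, κ i ^ (2 * γ) + trace (T D * diagonal μ * (T D)ᵀ) -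
            trace (D * D * (T D * (T D)ᵀ)) := by
  rcases le_total 1 γ with h1 | h1
  · obtain ⟨T, hT⟩ := tex_ge h1 hc hμ
    have hP : (Tᵀ * T).PosSemidef := by
      have := gram_psd Tᵀ
      rwa [transpose_transpose] at this
    refine ⟨fun _ => T, trace (Tᵀ * T), continuous_const, hP.trace_nonneg, fun D Y hY => ?_,
      fun O D κ hO hD hκ => ?_⟩
    · have hB : Bt (Tᵀ * T) (Tᵀ * T) := ⟨by rw [sub_self]; exact PosSemidef.zero, hP.add hP⟩
      rw [trace_mul_cycle]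
      exact (le_abs_self _).trans (bt_trace_le hB hY)
    · have h2 := hT O κ hO hκ
      have h3 : 0 ≤ c * Fintype.card ι * η ^ γ := by positivity
      rw [hD]
      linarith
  · obtain ⟨φ, hφ⟩ : ∃ φ : ℝ → ℝ, φ = fun t => √(c * (γ * (t * t + η) ^ (γ - 1))) := ⟨_, rfl⟩
    have hm : ∀ t : ℝ, 0 < t * t + η := fun t => by nlinarith [mul_self_nonneg t]
    have hφc : Continuous φ := by
      rw [hφ]
      exact (continuous_const.mul (continuous_const.mul
        (((continuous_id.mul continuous_id).add continuous_const).rpow_const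
          fun t => Or.inl (hm t).ne'))).sqrt
    have hφ2 : ∀ t, φ t * φ t = c * (γ * (t * t + η) ^ (γ - 1)) := fun t => by
      rw [hφ]
      exact Real.mul_self_sqrt (mul_nonneg hc.le (mul_nonneg hγ.le (Real.rpow_nonneg (hm t).le _)))
    refine ⟨fun D => cfc φ (sy D), c * (γ * η ^ (γ - 1)),
      continuous_cfc_matrix hφc sy_cont sy_symm, by positivity, fun D Y hY => ?_,
      fun O D κ hO hD hκ => ?_⟩
    · obtain ⟨O, t, o1, -, ht⟩ := spec_exists (sy_symm D)
      beta_reduce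
      rw [ht, cfc_decomp o1]
      refine trace_conj_le o1 (fun i => ?_) hY
      rw [sq, hφ2]
      refine mul_le_mul_of_nonneg_left (mul_le_mul_of_nonneg_left ?_ hγ.le) hc.le
      exact Real.rpow_le_rpow_of_nonpos hη (by nlinarith [mul_self_nonneg (t i)]) (by linarith)
    · beta_reduce
      rw [hD, sy_eq (klein_symm O κ), cfc_decomp hO]
      exact tex_lt hγ h1 hc hη hμ hO hκ fun i => hφ2 (κ i)

end Vale.Agent.P371.G
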