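import Vale.Agent.P371.G.KinC
import Vale.Agent.P371.G.Tex

open Real Finset Filter Topology MeasureTheory Matrix

namespace Vale.Agent.P371.G

variable {ι : Type} [Fintype ι] [DecidableEq ι]
  {κ : Type} [Fintype κ]

theorem kin_main {l : ℝ} (l0 : 0 < l) (l1 : l < 1) {Ψ Ψ' : ℝ → Matrix ι κ ℝ}
    (hΨ : ∀ a i, H1 (fun x => Ψ x a i) (fun x => Ψ' x a i))
    (hon : ∀ a b, ∫ x, (Ψ x * (Ψ x)ᵀ) a b = (1 : Matrix ι ι ℝ) a b) {μ : ι → ℝ}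
    (hμ : ∀ i, 0 < μ i) {δ : ℝ} (hδ : 0 < δ) :
    ∃ T : Matrix ι ι ℝ, cl l * ∑ i, μ i ^ (l + 1 / 2) - δ ≤
      (∫ x, trace (T * Ψ' x * (T * Ψ' x)ᵀ)) + trace (T * diagonal μ * Tᵀ) -
        ∫ x, trace (mp (1 / l + 1) (T * Ψ x * (T * Ψ x)ᵀ)) := by
  have hc := cl_pos l0
  have hγ : 0 < l + 1 / 2 := by linarith
  obtain ⟨η, hη, hη'⟩ : ∃ η : ℝ, 0 < η ∧ cl l * Fintype.card ι * η ^ (l + 1 / 2) ≤ δ / 2 := by
    have hc : ContinuousAt (fun η : ℝ => cl l * Fintype.card ι * η ^ (l + 1 / 2)) 0 :=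
      continuousAt_const.mul (Real.continuousAt_rpow_const _ _ (Or.inr hγ.le))
    have h1 := (hc.tendsto.mono_left (nhdsWithin_le_nhds (s := Set.Ioi 0))).eventually
      (eventually_le_nhds (b := δ / 2) (by rw [Real.zero_rpow hγ.ne']; linarith))
    obtain ⟨η, h2, h3⟩ := (h1.and self_mem_nhdsWithin).exists
    exact ⟨η, h3, h2⟩
  obtain ⟨T, β, cT, hβ, hT, hK⟩ := tex hγ hc hη hμ
  obtain ⟨C, hC⟩ := kin_step l0 l1 hΨ hon cT hβ hT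
  obtain ⟨g1, g2, g3⟩ := g_ib hΨ
  have t1 : Tendsto (fun R : ℝ => C * (R⁻¹ + trace (Ψ R * (Ψ R)ᵀ) + trace (Ψ (-R) * (Ψ (-R))ᵀ) +
      ((∫ x, trace (Ψ x * (Ψ x)ᵀ)) - ∫ x in (-R)..R, trace (Ψ x * (Ψ x)ᵀ)))) atTop
      (𝓝 (C * (0 + 0 + 0 + ((∫ x, trace (Ψ x * (Ψ x)ᵀ)) - ∫ x, trace (Ψ x * (Ψ x)ᵀ))))) :=
    (((tendsto_inv_atTop_zero.add g2).add (g3.comp tendsto_neg_atTop_atBot)).add
      ((intervalIntegral_tendsto_integral g1.1 tendsto_neg_atTop_atBot tendsto_id).const_sub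
        _)).const_mul C
  obtain ⟨R, h1, h2⟩ := ((t1.eventually (eventually_le_nhds (b := δ / 2) (by simp [hδ]))).and
    (eventually_ge_atTop (1 : ℝ))).exists
  obtain ⟨O, D, d, hO, hD, hd, h3⟩ := hC R R⁻¹ (by linarith) (by positivity)
    (inv_le_one_of_one_le₀ h2)
  have h4 := hK O D d hO hD hd
  rw [show 2 * (l + 1 / 2) = 2 * l + 1 by ring] at h4
  exact ⟨T D, by linarith⟩

end Vale.Agent.P371.G
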