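import Vale.Agent.P371.G.Spec

open Real Finset Filter Topology MeasureTheory Matrix

namespace Vale.Agent.P371.G

variable {ι : Type} [Fintype ι] [DecidableEq ι]

theorem klein_entry (O : Matrix ι ι ℝ) (y : ι → ℝ) (j : ι) :
    (O * diagonal y * Oᵀ) j j = ∑ i, O j i ^ 2 * y i := by
  rw [Matrix.mul_apply]
  refine Finset.sum_congr rfl fun i _ => ?_
  rw [mul_diagonal, transpose_apply]
  ring

theorem klein_col {O : Matrix ι ι ℝ} (hO : Oᵀ * O = 1) (i : ι) : ∑ j, O j i ^ 2 = 1 := by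
  have := congrFun (congrFun hO i) i
  rw [Matrix.mul_apply, one_apply_eq] at this
  rw [← this]
  exact Finset.sum_congr rfl fun j _ => by rw [transpose_apply]; ring

theorem klein_row {O : Matrix ι ι ℝ} (hO : Oᵀ * O = 1) (j : ι) : ∑ i, O j i ^ 2 = 1 := by
  have h : (Oᵀ)ᵀ * Oᵀ = 1 := by rw [transpose_transpose]; exact mul_eq_one_comm.mp hO
  exact klein_col h j

theorem klein_trace (g : ι → ℝ) (Y : Matrix ι ι ℝ) :
    trace (diagonal g * Y) = ∑ j, g j * Y j j := by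
  simp only [trace, diag_apply, diagonal_mul]

/-- Klein's inequality in tangent-line form. -/
theorem klein {O : Matrix ι ι ℝ} (hO : Oᵀ * O = 1) {y m fy fm g : ι → ℝ}
    (h : ∀ i j, fm j + g j * (y i - m j) ≤ fy i) :
    ∑ j, fm j + trace (diagonal g * (O * diagonal y * Oᵀ - diagonal m)) ≤ ∑ i, fy i := by
  have e1 : ∑ j, fm j + trace (diagonal g * (O * diagonal y * Oᵀ - diagonal m)) =
      ∑ j, ∑ i, O j i ^ 2 * (fm j + g j * (y i - m j)) := by
    rw [klein_trace, ← Finset.sum_add_distrib]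
    refine Finset.sum_congr rfl fun j _ => ?_
    rw [Matrix.sub_apply, klein_entry, diagonal_apply_eq]
    have e : ∀ i, O j i ^ 2 * (fm j + g j * (y i - m j)) =
        O j i ^ 2 * (fm j - g j * m j) + g j * (O j i ^ 2 * y i) := fun i => by ring
    simp only [e]
    rw [Finset.sum_add_distrib, ← Finset.sum_mul, ← Finset.mul_sum, klein_row hO]
    ring
  have e2 : ∑ i, fy i = ∑ j, ∑ i, O j i ^ 2 * fy i := by
    rw [Finset.sum_comm]
    refine Finset.sum_congr rfl fun i _ => ?_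
    rw [← Finset.sum_mul, klein_col hO, one_mul]
  rw [e1, e2]
  exact Finset.sum_le_sum fun j _ => Finset.sum_le_sum fun i _ =>
    mul_le_mul_of_nonneg_left (h i j) (sq_nonneg _)

theorem klein_symm (O : Matrix ι ι ℝ) (t : ι → ℝ) :
    (O * diagonal t * Oᵀ)ᵀ = O * diagonal t * Oᵀ := by
  rw [transpose_mul, transpose_mul, transpose_transpose, diagonal_transpose, Matrix.mul_assoc]

theorem trace_conj_le {O : Matrix ι ι ℝ} (hO : Oᵀ * O = 1) {t : ι → ℝ} {β : ℝ}
    (ht : ∀ i, t i ^ 2 ≤ β) {Y : Matrix ι ι ℝ} (hY : Y.PosSemidef) :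
    trace (O * diagonal t * Oᵀ * Y * (O * diagonal t * Oᵀ)ᵀ) ≤ β * trace Y := by
  have h1 := trace_mul_nonneg ((psd_decomp hO fun i => β - t i * t i).mpr
    fun i => by have := ht i; nlinarith) hY
  have e1 : O * diagonal (fun i => β - t i * t i) * Oᵀ =
      β • (1 : Matrix ι ι ℝ) - O * diagonal (fun i => t i * t i) * Oᵀ := by
    have e : diagonal (fun i => β - t i * t i) =
        β • (1 : Matrix ι ι ℝ) - diagonal (fun i => t i * t i) := by
      ext i j
      by_cases hij : i = j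
      · subst hij; simp
      · simp [hij]
    rw [e, Matrix.mul_sub, Matrix.sub_mul, Matrix.mul_smul, Matrix.mul_one, Matrix.smul_mul,
      mul_eq_one_comm.mp hO]
  rw [e1, Matrix.sub_mul, trace_sub, Matrix.smul_mul, Matrix.one_mul, trace_smul, smul_eq_mul]
    at h1
  rw [klein_symm, trace_mul_cycle, mul_decomp hO]
  linarith

theorem klein_tan {γ m y : ℝ} (hγ : 1 ≤ γ) (hm : 0 < m) (hy : 0 ≤ y) :
    m ^ γ + γ * m ^ (γ - 1) * (y - m) ≤ y ^ γ := by
  have h1 := one_add_mul_self_le_rpow_one_add (s := y / m - 1)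
    (by have := div_nonneg hy hm.le; linarith) hγ
  rw [add_sub_cancel, Real.div_rpow hy hm.le, le_div_iff₀ (Real.rpow_pos_of_pos hm _)] at h1
  rw [Real.rpow_sub_one hm.ne']
  refine le_trans (le_of_eq ?_) h1
  field_simp

theorem klein_tan' {γ m y : ℝ} (h0 : 0 ≤ γ) (hγ : γ ≤ 1) (hm : 0 < m) (hy : 0 ≤ y) :
    y ^ γ ≤ m ^ γ + γ * m ^ (γ - 1) * (y - m) := by
  have h1 := rpow_one_add_le_one_add_mul_self (s := y / m - 1)
    (by have := div_nonneg hy hm.le; linarith) h0 hγ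
  rw [add_sub_cancel, Real.div_rpow hy hm.le, div_le_iff₀ (Real.rpow_pos_of_pos hm _)] at h1
  rw [Real.rpow_sub_one hm.ne']
  refine le_trans h1 (le_of_eq ?_)
  field_simp

theorem klein_sq {k : ℝ} (hk : 0 ≤ k) (γ : ℝ) : k ^ (2 * γ) = (k * k) ^ γ := by
  rw [Real.rpow_mul hk, Real.rpow_two, sq]

theorem tex_ge {γ c : ℝ} (hγ : 1 ≤ γ) (hc : 0 < c) {μ : ι → ℝ} (hμ : ∀ i, 0 < μ i) :
    ∃ T : Matrix ι ι ℝ, ∀ (O : Matrix ι ι ℝ) (κ : ι → ℝ), Oᵀ * O = 1 → (∀ i, 0 ≤ κ i) →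
      c * ∑ i, μ i ^ γ ≤ c * ∑ i, κ i ^ (2 * γ) + trace (T * diagonal μ * Tᵀ) -
        trace (O * diagonal κ * Oᵀ * (O * diagonal κ * Oᵀ) * (T * Tᵀ)) := by
  obtain ⟨g, hg⟩ : ∃ g : ι → ℝ, g = fun i => c * (γ * μ i ^ (γ - 1)) := ⟨_, rfl⟩
  have hg0 : ∀ i, 0 ≤ g i := fun i => by
    rw [hg]
    exact mul_nonneg hc.le (mul_nonneg (by linarith) (Real.rpow_nonneg (hμ i).le _))
  refine ⟨diagonal fun i => √(g i), fun O κ hO hκ => ?_⟩
  have e1 : (diagonal fun i => √(g i)) * (diagonal fun i => √(g i)) = diagonal g := by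
    rw [diagonal_mul_diagonal]
    congr 1
    funext i
    exact Real.mul_self_sqrt (hg0 i)
  have h := klein hO (y := fun i => κ i * κ i) (m := μ) (fy := fun i => c * κ i ^ (2 * γ))
    (fm := fun j => c * μ j ^ γ) (g := g) fun i j => by
      have h1 := klein_tan hγ (hμ j) (mul_self_nonneg (κ i))
      rw [klein_sq (hκ i), hg]
      have h2 := mul_le_mul_of_nonneg_left h1 hc.le
      linarith
  rw [Matrix.mul_sub, trace_sub, ← Finset.mul_sum, ← Finset.mul_sum] at h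
  rw [diagonal_transpose, trace_mul_cycle, e1, mul_decomp hO, trace_mul_comm _ (diagonal g)]
  linarith

end Vale.Agent.P371.G
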