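import Vale.Agent.P371.G.SC
import Vale.Agent.P371.G.JCont

open Real Finset Filter Topology MeasureTheory Matrix

namespace Vale.Agent.P371.G

theorem sl_lower {l : ℝ} (h0 : 0 < l) (h1 : l < 1) {κ β σ Λ : ℝ} (hβ : |β| ≤ κ) (hσ : 0 < σ)
    (hΛ : σ ≤ Λ) :
    cc l * (∫ q in (-κ)..β, (κ ^ 2 - q ^ 2) ^ l) -
        2 * κ * (σ ^ l / l + κ ^ 2 * Λ ^ (l - 1) / (1 - l)) ≤
      ∫ s in σ..Λ, s ^ (l - 1) *
        (β + κ - √s * ∫ q in (-κ)..β, (√(κ ^ 2 + s - q ^ 2))⁻¹) := by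
  obtain ⟨hb1, hb2⟩ := abs_le.1 hβ
  have hn : ∀ q ∈ Set.Icc (-κ) β, 0 ≤ κ ^ 2 - q ^ 2 := fun q hq => by
    nlinarith [hq.1, hq.2]
  set f : ℝ → ℝ → ℝ := fun s q => s ^ (l - 1) * (1 - √(s / (κ ^ 2 - q ^ 2 + s))) with hf
  have hc : ContinuousOn (fun z : ℝ × ℝ => f z.1 z.2) (Set.Icc σ Λ ×ˢ Set.Icc (-κ) β) := by
    refine ContinuousOn.mul (continuousOn_fst.rpow_const fun z hz => Or.inl ?_)
      (continuousOn_const.sub (ContinuousOn.sqrt (continuousOn_fst.div (by fun_prop)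
        fun z hz => ?_)))
    · exact (hσ.trans_le hz.1.1).ne'
    · have := hn _ hz.2
      have := hz.1.1
      exact ne_of_gt (by linarith)
  have hc' : ContinuousOn (fun z : ℝ × ℝ => f z.2 z.1) (Set.Icc (-κ) β ×ˢ Set.Icc σ Λ) :=
    hc.comp continuous_swap.continuousOn fun z hz => ⟨hz.2, hz.1⟩
  have e : ∫ s in σ..Λ, s ^ (l - 1) *
      (β + κ - √s * ∫ q in (-κ)..β, (√(κ ^ 2 + s - q ^ 2))⁻¹) =
      ∫ s in σ..Λ, ∫ q in (-κ)..β, f s q := by
    refine intervalIntegral.integral_congr fun s hs => ?_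
    rw [Set.uIcc_of_le hΛ] at hs
    have hs0 : 0 < s := hσ.trans_le hs.1
    have hi : IntervalIntegrable (fun q => √s * (√(κ ^ 2 + s - q ^ 2))⁻¹) volume (-κ) β := by
      refine ContinuousOn.intervalIntegrable_of_Icc hb1 (continuousOn_const.mul
        (ContinuousOn.inv₀ (by fun_prop) fun q hq => ?_))
      have := hn q hq
      exact (sqrt_pos.2 (by linarith)).ne'
    simp only [hf]
    rw [intervalIntegral.integral_const_mul, ← intervalIntegral.integral_const_mul (√s)]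
    congr 1
    have e2 : ∫ q in (-κ)..β, (1 - √(s / (κ ^ 2 - q ^ 2 + s))) =
        ∫ q in (-κ)..β, (1 - √s * (√(κ ^ 2 + s - q ^ 2))⁻¹) := by
      refine intervalIntegral.integral_congr fun q _ => ?_
      rw [sqrt_div hs0.le, div_eq_mul_inv, show κ ^ 2 - q ^ 2 + s = κ ^ 2 + s - q ^ 2 by ring]
    rw [e2, intervalIntegral.integral_sub (by simp) hi]
    simp
  rw [e, swap_rect hΛ hb1 hc]
  have hΛ0 : 0 < Λ := hσ.trans_le hΛ
  set X := σ ^ l / l + κ ^ 2 * Λ ^ (l - 1) / (1 - l) with hX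
  have hl1 : 0 < 1 - l := by linarith
  have hX0 : 0 ≤ X := by positivity
  have hi1 : IntervalIntegrable (fun q : ℝ => cc l * (κ ^ 2 - q ^ 2) ^ l) volume (-κ) β :=
    (continuous_const.mul (Continuous.rpow_const (by fun_prop)
      fun _ => Or.inr h0.le)).intervalIntegrable _ _
  have hm : ∫ q in (-κ)..β, (cc l * (κ ^ 2 - q ^ 2) ^ l - X) ≤
      ∫ q in (-κ)..β, ∫ s in σ..Λ, f s q := by
    refine intervalIntegral.integral_mono_on hb1 (hi1.sub (by simp))
      ((cont_rect (f := fun q s => f s q) hΛ hc').intervalIntegrable_of_Icc hb1) fun q hq => ?_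
    refine le_trans ?_ (cc_lower h0 h1 (hn q hq) hσ hΛ)
    have : (κ ^ 2 - q ^ 2) * Λ ^ (l - 1) / (1 - l) ≤ κ ^ 2 * Λ ^ (l - 1) / (1 - l) :=
      div_le_div_of_nonneg_right (mul_le_mul_of_nonneg_right (by nlinarith [sq_nonneg q])
        (by positivity)) hl1.le
    linarith
  refine le_trans ?_ hm
  rw [intervalIntegral.integral_sub hi1 (by simp), intervalIntegral.integral_const_mul,
    intervalIntegral.integral_const, smul_eq_mul]
  nlinarith

end Vale.Agent.P371.G
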