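import Vale.Agent.P371.G.XI1
import Vale.Agent.P371.G.AvA

open Real Finset Filter Topology MeasureTheory Matrix

namespace Vale.Agent.P371.G

variable {ι : Type} [Fintype ι] [DecidableEq ι]

theorem xi2_rect {κ s α β : ℝ} (hs : 0 < s) (hα : |α| ≤ κ) (hβ : |β| ≤ κ) (h : α ≤ β) :
    ContinuousOn (fun z : ℝ × ℝ => (√(κ ^ 2 + s) - cos z.1 * z.2)⁻¹)
      (Set.Icc 0 π ×ˢ Set.Icc α β) := by
  refine ContinuousOn.inv₀ (by fun_prop) fun z hz => ?_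
  exact (xi1_den hs (abs_cos_le_one _) (xi1_mem hα hβ (by rw [Set.uIcc_of_le h]; exact hz.2))).ne'

theorem xi2_pt {κ s q : ℝ} (hs : 0 < s) (hq : |q| ≤ κ) :
    π⁻¹ * ∫ φ in (0 : ℝ)..π, (√(κ ^ 2 + s) - cos φ * q)⁻¹ = (√(κ ^ 2 + s - q ^ 2))⁻¹ := by
  have h1 := xi1_lt (κ := κ) hs
  have he : 0 < √(κ ^ 2 + s) := Real.sqrt_pos.mpr (by positivity)
  have hx : |q / √(κ ^ 2 + s)| < 1 := by
    rw [abs_div, abs_of_pos he, div_lt_one he]
    linarith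
  have h2 := Av_rr hx
  have e : ∀ φ, (√(κ ^ 2 + s) - cos φ * q)⁻¹ = (√(κ ^ 2 + s))⁻¹ * rr (q / √(κ ^ 2 + s)) φ := by
    intro φ
    unfold rr
    rw [← mul_inv]
    congr 1
    field_simp
  simp only [e]
  rw [intervalIntegral.integral_const_mul, mul_left_comm]
  unfold Av at h2
  rw [h2, ← mul_inv]
  congr 1
  unfold co
  rw [← Real.sqrt_mul (by positivity), div_pow, Real.sq_sqrt (by positivity)]
  congr 1
  field_simp

theorem xi2_le {κ s α β : ℝ} (hs : 0 < s) (hα : |α| ≤ κ) (hβ : |β| ≤ κ) (h : α ≤ β) :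
    Av (fun φ => ∫ q in α..β, (√(κ ^ 2 + s) - cos φ * q)⁻¹) =
      ∫ q in α..β, (√(κ ^ 2 + s - q ^ 2))⁻¹ := by
  unfold Av
  rw [swap_rect (f := fun φ q => (√(κ ^ 2 + s) - cos φ * q)⁻¹) pi_pos.le h (xi2_rect hs hα hβ h),
    ← intervalIntegral.integral_const_mul]
  exact intervalIntegral.integral_congr fun q hq => xi2_pt hs (xi1_mem hα hβ hq)

theorem av_scalar {κ s α β : ℝ} (hs : 0 < s) (hα : |α| ≤ κ) (hβ : |β| ≤ κ) :
    Av (fun φ => ∫ q in α..β, (√(κ ^ 2 + s) - cos φ * q)⁻¹) =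
      ∫ q in α..β, (√(κ ^ 2 + s - q ^ 2))⁻¹ := by
  rcases le_total α β with h | h
  · exact xi2_le hs hα hβ h
  · have h1 := xi2_le hs hβ hα h
    simp only [intervalIntegral.integral_symm β α]
    rw [← h1]
    unfold Av
    rw [intervalIntegral.integral_neg, mul_neg]

theorem xi2_cont {κ s α β : ℝ} (hs : 0 < s) (hα : |α| ≤ κ) (hβ : |β| ≤ κ) :
    ContinuousOn (fun φ => ∫ q in α..β, (√(κ ^ 2 + s) - cos φ * q)⁻¹) (Set.Icc 0 π) := by
  rcases le_total α β with h | h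
  · exact cont_rect (f := fun φ q => (√(κ ^ 2 + s) - cos φ * q)⁻¹) h (xi2_rect hs hα hβ h)
  · simp only [intervalIntegral.integral_symm β α]
    exact (cont_rect (f := fun φ q => (√(κ ^ 2 + s) - cos φ * q)⁻¹) h (xi2_rect hs hβ hα h)).neg

theorem xi2 {κ α β : ι → ℝ} (h0 : ∀ i, 0 ≤ κ i) {s a b : ℝ} (hs : 0 < s)
    (hab : a ≤ b) {Q Q' : ℝ → Matrix ι ι ℝ} (hQ : MD Q Q')
    (hB : ∀ x ∈ Set.Icc a b, Bt (diagonal κ) (Q x)) (ha : Q a = diagonal α)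
    (hb : Q b = diagonal β) :
    ∫ x in a..b, Jt (Es κ s) (Q x) (Q' x) =
      ∑ i, ∫ q in α i..β i, (√(κ i ^ 2 + s - q ^ 2))⁻¹ := by
  have hα : ∀ i, |α i| ≤ κ i := bt_diag (ha ▸ hB a (Set.left_mem_Icc.mpr hab))
  have hβ : ∀ i, |β i| ≤ κ i := bt_diag (hb ▸ hB b (Set.right_mem_Icc.mpr hab))
  have hc : ContinuousOn (fun z : ℝ × ℝ => (Es κ s - cos z.2 • Q z.1)⁻¹)
      (Set.Icc a b ×ˢ Set.Icc 0 π) :=
    res_cont h0 (s := fun _ => s) (t := fun z : ℝ × ℝ => cos z.2) (Q := fun z => Q z.1)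
      continuousOn_const (by fun_prop) (hQ.cont.comp continuous_fst).continuousOn
      fun z hz => ⟨hs, abs_cos_le_one _, hB z.1 hz.1⟩
  have hc' : ContinuousOn (fun z : ℝ × ℝ => trace ((Es κ s - cos z.2 • Q z.1)⁻¹ * Q' z.1))
      (Set.Icc a b ×ˢ Set.Icc 0 π) :=
    (continuous_id.matrix_trace).comp_continuousOn
      (hc.mul (hQ.1.comp continuous_fst).continuousOn)
  unfold Jt Av Res
  rw [intervalIntegral.integral_const_mul,
    swap_rect (f := fun x φ => trace ((Es κ s - cos φ • Q x)⁻¹ * Q' x)) hab pi_pos.le hc']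
  simp only [fun φ => xi1 h0 hs (abs_cos_le_one φ) hab hQ hB ha hb]
  rw [intervalIntegral.integral_finsetSum fun i _ => ContinuousOn.intervalIntegrable (by
    rw [Set.uIcc_of_le pi_pos.le]; exact xi2_cont hs (hα i) (hβ i)), Finset.mul_sum]
  exact Finset.sum_congr rfl fun i _ => av_scalar hs (hα i) (hβ i)

end Vale.Agent.P371.G
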