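import Vale.Agent.P371.G.PX
import Vale.Agent.P371.G.XI2
import Vale.Agent.P371.G.HB
import Vale.Agent.P371.G.SL
import Vale.Agent.P371.G.CfcC

open Real Finset Filter Topology MeasureTheory Matrix

namespace Vale.Agent.P371.G

variable {ι : Type} [Fintype ι] [DecidableEq ι]

theorem mk_trunc {l : ℝ} (l0 : 0 < l) (l1 : l < 1) {κ β : ι → ℝ} (h0 : ∀ i, 0 < κ i) {a b : ℝ}
    (hab : a ≤ b) {Q Q' τ : ℝ → Matrix ι ι ℝ} (hQ : MD Q Q') (cτ : Continuous τ)
    (hτ : ∀ x, (τ x).PosSemidef)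
    (h : ∀ x ∈ Set.Icc a b, Bt (diagonal κ) (Q x) ∧
      Q' x = Q x * Q x - diagonal κ * diagonal κ + (1 / l + 1) • τ x)
    (ha : Q a = -diagonal κ) (hb : Q b = diagonal β) :
    ∃ C : ℝ, ∀ σ Λ : ℝ, 0 < σ → σ ≤ Λ →
      l * ∑ i, ∫ s in σ..Λ, s ^ (l - 1) *
          (β i + κ i - √s * ∫ q in (-κ i)..β i, (√(κ i ^ 2 + s - q ^ 2))⁻¹) ≤
        cc l * (∫ x in a..b, trace (mp (1 + l) (τ x))) + C * (Λ ^ (l - 1) + σ ^ l) := by
  have h0' : ∀ i, 0 ≤ κ i := fun i => (h0 i).le
  obtain ⟨C, C0, hC⟩ := hh_bound h0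
  have cQ := hQ.cont
  set Y : ℝ → Matrix ι ι ℝ := fun x => τ x - (diagonal κ * diagonal κ - Q x * Q x) with hY
  have cY : Continuous Y := cτ.sub (continuous_const.sub (cQ.matrix_mul cQ))
  have cn : Continuous fun x => n1 (Y x) := continuous_finsetSum _ fun i _ =>
    continuous_finsetSum _ fun j _ => (cY.matrix_elem i j).abs
  obtain ⟨M, hM⟩ := (isCompact_Icc (a := a) (b := b)).exists_bound_of_continuousOn cn.continuousOn
  have hM' : ∀ x ∈ Set.Icc a b, C * n1 (Y x) ≤ C * M := fun x hx =>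
    mul_le_mul_of_nonneg_left ((le_abs_self _).trans (hM x hx)) C0
  refine ⟨(b - a) * (C * M), fun σ Λ hσ hΛ => ?_⟩
  have hΛ0 : 0 < Λ := hσ.trans_le hΛ
  have cP : Continuous fun x => trace (mp (1 + l) (τ x)) :=
    (continuous_cfc_matrix (Real.continuous_rpow_const (q := 1 + l) (by linarith)) cτ
      fun x => psd_symm (hτ x)).matrix_trace
  set f : ℝ → ℝ → ℝ := fun x s => s ^ (l - 1) * hh κ s (Q x) (Q' x) with hf
  have cf : ContinuousOn (fun z : ℝ × ℝ => f z.1 z.2) (Set.Icc a b ×ˢ Set.Icc σ Λ) := by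
    refine (continuousOn_snd.rpow_const fun z hz => Or.inl (hσ.trans_le hz.2.1).ne').mul ?_
    refine (hQ.1.matrix_trace.comp continuous_fst).continuousOn.sub
      ((Real.continuous_sqrt.comp continuous_snd).continuousOn.mul ?_)
    exact jt_cont h0' continuousOn_snd (cQ.comp continuous_fst).continuousOn
      (hQ.1.comp continuous_fst).continuousOn fun z hz => ⟨hσ.trans_le hz.2.1, (h z.1 hz.1).1⟩
  have p1 : ∀ x ∈ Set.Icc a b, l * ∫ s in σ..Λ, f x s ≤
      cc l * trace (mp (1 + l) (τ x)) + C * M * (Λ ^ (l - 1) + σ ^ l) := fun x hx => by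
    have k := px l0 l1 h0' (h x hx).1 (hτ x) hσ hΛ
    rw [← (h x hx).2] at k
    have b1 := (hC Λ (Q x) (Y x) hΛ0 (h x hx).1).2.trans (hM' x hx)
    have b2 := (hC σ (Q x) (Y x) hσ (h x hx).1).1.trans (hM' x hx)
    have e3 : Λ ^ l = Λ ^ (l - 1) * Λ := by
      rw [← Real.rpow_add_one hΛ0.ne']; congr 1; ring
    have w1 : 0 ≤ Λ ^ (l - 1) := Real.rpow_nonneg hΛ0.le _
    have w2 : 0 ≤ σ ^ l := Real.rpow_nonneg hσ.le _
    have b3 : Λ ^ l * hh κ Λ (Q x) (Y x) ≤ Λ ^ (l - 1) * (C * M) := by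
      rw [e3, mul_assoc]
      exact mul_le_mul_of_nonneg_left
        ((mul_le_mul_of_nonneg_left (le_abs_self _) hΛ0.le).trans b1) w1
    have b4 := mul_le_mul_of_nonneg_left ((neg_le_abs _).trans b2) w2
    change l * ∫ s in σ..Λ, f x s ≤ Λ ^ l * hh κ Λ (Q x) (Y x) - σ ^ l * hh κ σ (Q x) (Y x) + _ at k
    linarith
  have p2 := intervalIntegral.integral_mono_on hab
    (((continuousOn_const.mul (cont_rect hΛ cf)).mono
      (Set.uIcc_of_le hab).subset).intervalIntegrable (μ := volume))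
    (((continuous_const.mul cP).add continuous_const).intervalIntegrable _ _) p1
  simp only [Pi.mul_apply, Pi.add_apply] at p2
  rw [intervalIntegral.integral_const_mul, swap_rect hab hΛ cf, intervalIntegral.integral_add
    ((cP.intervalIntegrable _ _).const_mul _) intervalIntegrable_const,
    intervalIntegral.integral_const_mul, intervalIntegral.integral_const, smul_eq_mul] at p2
  have ha' : Q a = diagonal (-κ) := by rw [ha, diagonal_neg]; rfl
  have hβ : ∀ i, |β i| ≤ κ i := bt_diag (hb ▸ (h b ⟨hab, le_rfl⟩).1)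
  have htr : ∫ x in a..b, trace (Q' x) = ∑ i, (β i + κ i) := by
    have : ∀ x, HasDerivAt (fun y => trace (Q y)) (trace (Q' x)) x := fun x =>
      HasDerivAt.fun_sum fun i _ => hQ.2 x i i
    rw [intervalIntegral.integral_eq_sub_of_hasDerivAt (fun x _ => this x)
      (hQ.1.matrix_trace.intervalIntegrable _ _), ha, hb, trace_neg, trace_diagonal,
      trace_diagonal, Finset.sum_add_distrib, sub_neg_eq_add]
  have p3 : ∀ s ∈ Set.uIcc σ Λ, ∫ x in a..b, f x s = ∑ i, s ^ (l - 1) *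
      (β i + κ i - √s * ∫ q in (-κ i)..β i, (√(κ i ^ 2 + s - q ^ 2))⁻¹) := fun s hs => by
    rw [Set.uIcc_of_le hΛ] at hs
    have hs0 := hσ.trans_le hs.1
    have cJ : ContinuousOn (fun x => Jt (Es κ s) (Q x) (Q' x)) (Set.uIcc a b) := by
      rw [Set.uIcc_of_le hab]
      exact jt_cont h0' continuousOn_const cQ.continuousOn hQ.1.continuousOn
        fun x hx => ⟨hs0, (h x hx).1⟩
    simp only [hf, hh]
    rw [intervalIntegral.integral_const_mul, intervalIntegral.integral_sub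
      (hQ.1.matrix_trace.intervalIntegrable _ _) (cJ.intervalIntegrable.const_mul _),
      intervalIntegral.integral_const_mul, htr,
      xi2 h0' hs0 hab hQ (fun x hx => (h x hx).1) ha' hb, Finset.mul_sum,
      ← Finset.sum_sub_distrib, Finset.mul_sum]
    rfl
  rw [intervalIntegral.integral_congr p3, intervalIntegral.integral_finsetSum] at p2
  · linarith
  · intro i _
    refine ContinuousOn.intervalIntegrable ?_
    rw [Set.uIcc_of_le hΛ]
    refine (continuousOn_id.rpow_const fun s hs => Or.inl (hσ.trans_le hs.1).ne').mul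
      (continuousOn_const.sub (Real.continuous_sqrt.continuousOn.mul ?_))
    refine cont_rect (f := fun s q => (√(κ i ^ 2 + s - q ^ 2))⁻¹) (abs_le.1 (hβ i)).1 ?_
    refine ContinuousOn.inv₀ (by fun_prop) fun z hz => (Real.sqrt_pos.2 ?_).ne'
    have h1 := hσ.trans_le hz.1.1
    have h2 : z.2 ^ 2 ≤ κ i ^ 2 := sq_le_sq' hz.2.1 (hz.2.2.trans (abs_le.1 (hβ i)).2)
    linarith

end Vale.Agent.P371.G
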