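import Vale.Agent.P371.G.Defs

open Real Finset Filter Topology MeasureTheory Matrix

namespace Vale.Agent.P371.G

theorem ode_exists {E : Type*} [NormedAddCommGroup E] [NormedSpace ℝ E] [CompleteSpace E]
    {f : ℝ → E → E} (hc : Continuous fun z : ℝ × E => f z.1 z.2) {K : NNReal}
    (hl : ∀ t, LipschitzWith K (f t)) {L : ℝ} (hb : ∀ t y, ‖f t y‖ ≤ L) {a b : ℝ} (hab : a ≤ b)
    (y0 : E) : ∃ y y' : ℝ → E, Continuous y' ∧ (∀ t, HasDerivAt y (y' t) t) ∧ y a = y0 ∧
      ∀ t ∈ Set.Icc a b, y' t = f t (y t) := by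
  have hL : 0 ≤ L := (norm_nonneg _).trans (hb a y0)
  let L' : NNReal := ⟨L, hL⟩
  let A : NNReal := ⟨L * (b - a), mul_nonneg hL (sub_nonneg.2 hab)⟩
  have hpl : IsPicardLindelof f (tmin := a) (tmax := b) ⟨a, le_rfl, hab⟩ y0 A 0 L' K := by
    refine ⟨fun t _ => (hl t).lipschitzOnWith, fun x _ => ?_, fun t _ x _ => hb t x, ?_⟩
    · exact (hc.comp (continuous_id.prodMk continuous_const)).continuousOn
    · simp only [sub_self, NNReal.coe_zero, sub_zero]
      rw [max_eq_left (sub_nonneg.2 hab)]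
      exact le_rfl
  obtain ⟨Y, hY0, hY⟩ := hpl.exists_eq_forall_mem_Icc_hasDerivWithinAt₀
  have hYc : ContinuousOn Y (Set.Icc a b) := fun t ht => (hY t ht).continuousWithinAt
  let pr : ℝ → ℝ := fun u => (Set.projIcc a b hab u : ℝ)
  have hpr : Continuous pr := continuous_subtype_val.comp continuous_projIcc
  have hprm : ∀ u, pr u ∈ Set.Icc a b := fun u => (Set.projIcc a b hab u).2
  have hpre : ∀ u ∈ Set.Icc a b, pr u = u := fun u hu => by
    simp only [pr, Set.projIcc_of_mem hab hu]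
  let g : ℝ → E := fun u => f (pr u) (Y (pr u))
  have hg : Continuous g := hc.comp (hpr.prodMk (hYc.comp_continuous hpr hprm))
  have hd : ∀ t, HasDerivAt (fun t => y0 + ∫ u in a..t, g u) (g t) t := fun t =>
    (hg.integral_hasStrictDerivAt a t).hasDerivAt.const_add y0
  refine ⟨fun t => y0 + ∫ u in a..t, g u, g, hg, hd, by simp, fun t ht => ?_⟩
  have key : ∀ t ∈ Set.Icc a b, Y t = y0 + ∫ u in a..t, g u := by
    refine eq_of_has_deriv_right_eq (f' := g) (fun t ht => ?_)
      (fun t _ => (hd t).hasDerivWithinAt) hYc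
      (fun t _ => (hd t).continuousAt.continuousWithinAt) (by simpa using hY0)
    have := (hY t (Set.Ico_subset_Icc_self ht)).mono_of_mem_nhdsWithin
      (Icc_mem_nhdsGE_of_mem ht)
    simpa only [g, hpre t (Set.Ico_subset_Icc_self ht)] using this
  simp only [g, hpre t ht]
  rw [key t ht]

theorem ode_param {E P : Type*} [NormedAddCommGroup E] [NormedSpace ℝ E] [ProperSpace E]
    [TopologicalSpace P] {f : P → ℝ → E → E}
    (hc : Continuous fun z : P × ℝ × E => f z.1 z.2.1 z.2.2) {K : NNReal}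
    (hl : ∀ p t, LipschitzWith K (f p t)) {L : ℝ} (hb : ∀ p t y, ‖f p t y‖ ≤ L) {a b : ℝ}
    (hab : a ≤ b) (y0 : E) : ∃ y y' : P → ℝ → E, (Continuous fun p => y p b) ∧
      ∀ p, Continuous (y' p) ∧ (∀ t, HasDerivAt (y p) (y' p t) t) ∧ y p a = y0 ∧
        ∀ t ∈ Set.Icc a b, y' p t = f p t (y p t) := by
  have hex := fun p => ode_exists (f := f p)
    (hc.comp ((continuous_const (y := p)).prodMk continuous_id)) (hl p) (hb p) hab y0
  choose y y' h1 h2 h3 h4 using hex
  refine ⟨y, y', continuous_iff_continuousAt.2 fun p0 => ?_, fun p => ⟨h1 p, h2 p, h3 p, h4 p⟩⟩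
  have hyc : ∀ p, Continuous (y p) := fun p =>
    continuous_iff_continuousAt.2 fun t => (h2 p t).continuousAt
  have hG : Tendsto (fun ε : ℝ => gronwallBound 0 K ε (b - a)) (𝓝 0) (𝓝 0) := by
    have := (gronwallBound_continuous_ε 0 K (b - a)).tendsto 0
    rwa [gronwallBound_ε0_δ0] at this
  refine Metric.tendsto_nhds.2 fun η hη => ?_
  obtain ⟨ε, hε, hεη⟩ : ∃ ε > 0, gronwallBound 0 K ε (b - a) < η := by
    have h5 : ∀ᶠ ε in 𝓝[>] (0 : ℝ), gronwallBound 0 K ε (b - a) < η :=
      (hG.eventually (gt_mem_nhds hη)).filter_mono nhdsWithin_le_nhds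
    obtain ⟨ε, h6, h7⟩ := (h5.and self_mem_nhdsWithin).exists
    exact ⟨ε, h7, h6⟩
  have hev : ∀ᶠ p in 𝓝 p0, ∀ t ∈ Set.Icc a b, dist (f p0 t (y p0 t)) (f p t (y p0 t)) < ε := by
    refine isCompact_Icc.eventually_forall_of_forall_eventually fun t _ => ?_
    have hcc : Continuous fun z : P × ℝ => dist (f p0 z.2 (y p0 z.2)) (f z.1 z.2 (y p0 z.2)) :=
      (hc.comp (continuous_const.prodMk (continuous_snd.prodMk ((hyc p0).comp continuous_snd)))).dist
        (hc.comp (continuous_fst.prodMk (continuous_snd.prodMk ((hyc p0).comp continuous_snd))))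
    exact hcc.continuousAt.eventually (gt_mem_nhds (by simpa using hε))
  filter_upwards [hev] with p hp
  have := dist_le_of_approx_trajectories_ODE (v := f p) (f := y p) (g := y p0) (f' := y' p)
    (g' := y' p0) (εf := 0) (εg := ε) (δ := 0) (a := a) (b := b) (hl p) (hyc p).continuousOn
    (fun t _ => (h2 p t).hasDerivWithinAt)
    (fun t ht => by rw [h4 p t (Set.Ico_subset_Icc_self ht), dist_self])
    (hyc p0).continuousOn (fun t _ => (h2 p0 t).hasDerivWithinAt)
    (fun t ht => by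
      rw [h4 p0 t (Set.Ico_subset_Icc_self ht)]
      exact (hp t (Set.Ico_subset_Icc_self ht)).le)
    (by rw [h3, h3, dist_self]) b ⟨hab, le_rfl⟩
  rw [zero_add] at this
  exact this.trans_lt hεη

end Vale.Agent.P371.G
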