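import Vale.Agent.P371.G.B1
import Vale.Agent.P371.G.B2
import Vale.Agent.P371.G.B3

open Real Finset Filter Topology MeasureTheory Matrix

namespace Vale.Agent.P371.G

variable {ι : Type} [Fintype ι] [DecidableEq ι]
  {E Q S : Matrix ι ι ℝ} {x : ι → ℝ}

theorem SD.partB (h : SD E Q S x) {W : Matrix ι ι ℝ} (hW : W.PosDef) :
    Jt E Q 1 + 1 / 2 * Mt E Q (E * E - Q * Q) ≤ trace W⁻¹ + 1 / 2 * Mt E Q (W * W) := by
  obtain ⟨Γ, h1, h2, h3⟩ := b3 h.gm_posDef hW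
  have h4 := h.mt_nonneg h2
  have e : GM E S x * GM E S x + W * W - (2 : ℝ) • Γ =
      (1 : ℝ) • ((1 : ℝ) • (GM E S x * GM E S x) + (1 : ℝ) • (W * W)) + (-2 : ℝ) • Γ := by
    simp [sub_eq_add_neg]
  rw [e, h.mt_lin, h.mt_lin] at h4
  have := h.b1
  have := h.b2 h1
  linarith

end Vale.Agent.P371.G
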