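import Vale.Agent.P371.G.Spec

open Real Finset Filter Topology MeasureTheory Matrix

namespace Vale.Agent.P371.G

variable {ι : Type} [Fintype ι] [DecidableEq ι]

theorem sdex_symm {D Q : Matrix ι ι ℝ} (hD : Dᵀ = D) (h : Bt D Q) : Qᵀ = Q := by
  have h1 := psd_symm h.2
  rw [transpose_add, hD] at h1
  exact add_left_cancel h1

theorem sdex_conj {Y : Matrix ι ι ℝ} (hY : Y.PosSemidef) (S : Matrix ι ι ℝ) :
    (Sᵀ * Y * S).PosSemidef := by
  have := hY.conjTranspose_mul_mul_same S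
  rwa [conjTranspose_eq_transpose_of_trivial] at this

theorem sd_exists {e : ι → ℝ} (he : ∀ i, 0 < e i) {β : ℝ} (hβ : β < 1) {Q : Matrix ι ι ℝ}
    (h : Bt (β • diagonal e) Q) :
    ∃ (S : Matrix ι ι ℝ) (x : ι → ℝ), SD (diagonal e) Q S x ∧ ∀ i, |x i| ≤ β := by
  have hQ : Qᵀ = Q := sdex_symm (by rw [transpose_smul, diagonal_transpose]) h
  set P : Matrix ι ι ℝ := diagonal fun i => (√(e i))⁻¹ with hP
  have hPt : Pᵀ = P := diagonal_transpose _
  have hX : (P * Q * P)ᵀ = P * Q * P := by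
    rw [transpose_mul, transpose_mul, hPt, hQ, Matrix.mul_assoc]
  obtain ⟨O, x, hO, hO', hx⟩ := spec_exists hX
  have hPE : P * diagonal e * P = 1 := by
    rw [hP, diagonal_mul_diagonal, diagonal_mul_diagonal, ← diagonal_one]
    congr 1
    funext i
    have h1 := Real.sqrt_pos.mpr (he i)
    have h2 := Real.mul_self_sqrt (he i).le
    field_simp
    nlinarith
  have hE : (P * O)ᵀ * diagonal e * (P * O) = 1 := by
    have e1 : (P * O)ᵀ * diagonal e * (P * O) = Oᵀ * (P * diagonal e * P) * O := by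
      rw [transpose_mul, hPt]; simp only [Matrix.mul_assoc]
    rw [e1, hPE, Matrix.mul_one, hO]
  have hQ' : (P * O)ᵀ * Q * (P * O) = diagonal x := by
    have e1 : (P * O)ᵀ * Q * (P * O) = Oᵀ * (P * Q * P) * O := by
      rw [transpose_mul, hPt]; simp only [Matrix.mul_assoc]
    rw [e1, hx]
    have e2 : Oᵀ * (O * diagonal x * Oᵀ) * O = (Oᵀ * O) * diagonal x * (Oᵀ * O) := by
      simp only [Matrix.mul_assoc]
    rw [e2, hO, Matrix.one_mul, Matrix.mul_one]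
  have hb : ∀ i, |x i| ≤ β := by
    intro i
    have h1 := (sdex_conj h.1 (P * O)).diag_nonneg (i := i)
    have h2 := (sdex_conj h.2 (P * O)).diag_nonneg (i := i)
    rw [Matrix.mul_sub, Matrix.sub_mul, Matrix.mul_smul, Matrix.smul_mul, hE, hQ'] at h1
    rw [Matrix.mul_add, Matrix.add_mul, Matrix.mul_smul, Matrix.smul_mul, hE, hQ'] at h2
    simp at h1 h2
    rw [abs_le]; constructor <;> linarith
  exact ⟨P * O, x, ⟨diagonal_transpose _, hE, hQ', fun i => (hb i).trans_lt hβ⟩, hb⟩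

theorem bt_es {κ : ι → ℝ} {K s : ℝ} (h0 : ∀ i, 0 ≤ κ i) (hK : ∀ i, κ i ≤ K) (hs : 0 < s)
    {Q : Matrix ι ι ℝ} (h : Bt (diagonal κ) Q) : Bt ((K / √(K ^ 2 + s)) • Es κ s) Q := by
  have hD : ((K / √(K ^ 2 + s)) • Es κ s - diagonal κ).PosSemidef := by
    unfold Es
    rw [← diagonal_smul, diagonal_sub]
    refine Matrix.PosSemidef.diagonal fun i => ?_
    have hK0 : 0 ≤ K := (h0 i).trans (hK i)
    have hp : 0 < √(K ^ 2 + s) := Real.sqrt_pos.mpr (by positivity)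
    show 0 ≤ K / √(K ^ 2 + s) * √(κ i ^ 2 + s) - κ i
    rw [sub_nonneg, div_mul_eq_mul_div, le_div_iff₀ hp]
    have h1 : (κ i * √(K ^ 2 + s)) ^ 2 ≤ (K * √(κ i ^ 2 + s)) ^ 2 := by
      rw [mul_pow, mul_pow, Real.sq_sqrt (by positivity), Real.sq_sqrt (by positivity)]
      have : κ i ^ 2 ≤ K ^ 2 := pow_le_pow_left₀ (h0 i) (hK i) 2
      nlinarith
    exact (pow_le_pow_iff_left₀ (mul_nonneg (h0 i) hp.le) (by positivity) two_ne_zero).mp h1
  constructor
  · have := hD.add h.1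
    convert this using 1; abel
  · have := hD.add h.2
    convert this using 1; abel

theorem sd_es {κ : ι → ℝ} {K s : ℝ} (h0 : ∀ i, 0 ≤ κ i) (hK0 : 0 ≤ K) (hK : ∀ i, κ i ≤ K)
    (hs : 0 < s) {Q : Matrix ι ι ℝ} (h : Bt (diagonal κ) Q) :
    ∃ (S : Matrix ι ι ℝ) (x : ι → ℝ), SD (Es κ s) Q S x ∧
      ∀ i, (co (x i))⁻¹ ≤ √(K ^ 2 + s) / √s := by
  have hp : 0 < √(K ^ 2 + s) := Real.sqrt_pos.mpr (by positivity)
  have hs' : 0 < √s := Real.sqrt_pos.mpr hs
  have hsq : √(K ^ 2 + s) ^ 2 = K ^ 2 + s := Real.sq_sqrt (by positivity)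
  have hβ : K / √(K ^ 2 + s) < 1 := by
    rw [div_lt_one hp]
    exact Real.lt_sqrt_of_sq_lt (by linarith)
  obtain ⟨S, x, hS, hx⟩ := sd_exists (e := fun i => √(κ i ^ 2 + s))
    (fun i => Real.sqrt_pos.mpr (by positivity)) hβ (bt_es h0 hK hs h)
  refine ⟨S, x, hS, fun i => ?_⟩
  have h1 : x i ^ 2 ≤ (K / √(K ^ 2 + s)) ^ 2 := by
    rw [← sq_abs]; exact pow_le_pow_left₀ (abs_nonneg _) (hx i) 2
  have h2 : √s / √(K ^ 2 + s) ≤ co (x i) := by
    unfold co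
    apply Real.le_sqrt_of_sq_le
    rw [div_pow, Real.sq_sqrt hs.le, hsq] 
    rw [div_pow, hsq] at h1
    have : s / (K ^ 2 + s) = 1 - K ^ 2 / (K ^ 2 + s) := by field_simp; ring
    linarith
  have h3 := inv_anti₀ (div_pos hs' hp) h2
  rwa [inv_div] at h3

theorem sd_es' {κ : ι → ℝ} {s : ℝ} (h0 : ∀ i, 0 ≤ κ i) (hs : 0 < s) {Q : Matrix ι ι ℝ}
    (h : Bt (diagonal κ) Q) : ∃ (S : Matrix ι ι ℝ) (x : ι → ℝ), SD (Es κ s) Q S x := by
  obtain ⟨S, x, hS, -⟩ := sd_es (K := ∑ i, κ i) h0 (Finset.sum_nonneg fun i _ => h0 i)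
    (fun i => Finset.single_le_sum (fun j _ => h0 j) (Finset.mem_univ i)) hs h
  exact ⟨S, x, hS⟩

theorem es_posDef {κ : ι → ℝ} {s t : ℝ} (h0 : ∀ i, 0 ≤ κ i) (hs : 0 < s) (ht : |t| ≤ 1)
    {Q : Matrix ι ι ℝ} (h : Bt (diagonal κ) Q) : (Es κ s - t • Q).PosDef := by
  have hD : (Es κ s - diagonal κ).PosDef := by
    unfold Es
    rw [diagonal_sub]
    refine Matrix.PosDef.diagonal fun i => ?_
    show 0 < √(κ i ^ 2 + s) - κ i
    rw [sub_pos]
    exact Real.lt_sqrt_of_sq_lt (by linarith)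
  obtain ⟨ht1, ht2⟩ := abs_le.mp ht
  have h1 := h.1.smul (a := (1 + t) / 2) (by linarith)
  have h2 := h.2.smul (a := (1 - t) / 2) (by linarith)
  have := hD.add_posSemidef (h1.add h2)
  convert this using 1
  ext i j
  simp only [Matrix.sub_apply, Matrix.add_apply, Matrix.smul_apply, smul_eq_mul]
  ring

theorem es_sq {κ : ι → ℝ} {s : ℝ} (hs : 0 ≤ s) :
    Es κ s * Es κ s = diagonal κ * diagonal κ + s • (1 : Matrix ι ι ℝ) := by
  unfold Es
  rw [diagonal_mul_diagonal, diagonal_mul_diagonal, ← diagonal_one, ← diagonal_smul, diagonal_add]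
  congr 1
  funext i
  rw [Real.mul_self_sqrt (by positivity)]
  simp [sq]

theorem bt_diag {κ α : ι → ℝ} (h : Bt (diagonal κ) (diagonal α)) (i : ι) : |α i| ≤ κ i := by
  have h1 := h.1.diag_nonneg (i := i)
  have h2 := h.2.diag_nonneg (i := i)
  simp at h1 h2
  rw [abs_le]; constructor <;> linarith

end Vale.Agent.P371.G
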