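import Vale.Agent.P371.G.PartA
import Vale.Agent.P371.G.PartB
import Vale.Agent.P371.G.SDex

open Real Finset Filter Topology MeasureTheory Matrix

namespace Vale.Agent.P371.G

variable {ι : Type} [Fintype ι] [DecidableEq ι]

/-- the pointwise inequality in the spectral parameter -/
theorem pw {κ : ι → ℝ} (h0 : ∀ i, 0 ≤ κ i) {Q O : Matrix ι ι ℝ} (h : Bt (diagonal κ) Q)
    (hO : Oᵀ * O = 1) {t : ι → ℝ} (ht : ∀ i, 0 ≤ t i) {s : ℝ} (hs : 0 < s) :
    √s * (1 / 2 * Jt (Es κ s) Q (O * diagonal t * Oᵀ - (diagonal κ * diagonal κ - Q * Q)) -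
        s / 2 * Mt (Es κ s) Q (O * diagonal t * Oᵀ - (diagonal κ * diagonal κ - Q * Q))) +
      ∑ i, t i * √(s / (t i + s)) ≤ √s * Jt (Es κ s) Q (O * diagonal t * Oᵀ) := by
  obtain ⟨S, x, hS⟩ := sd_es' h0 hs h
  set E := Es κ s with hE
  set τ := O * diagonal t * Oᵀ with hτ
  set N := diagonal κ * diagonal κ - Q * Q with hN
  have hts : ∀ i, 0 < t i + s := fun i => by linarith [ht i]
  have hsq : ∀ i, 0 < √(t i + s) := fun i => Real.sqrt_pos.2 (hts i)
  set W := O * diagonal (fun i => √(t i + s)) * Oᵀ with hW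
  have hO' : O * Oᵀ = 1 := mul_eq_one_comm.1 hO
  have hWp : W.PosDef := (pd_decomp hO _).2 hsq
  have hWs : Wᵀ = W := psd_symm hWp.posSemidef
  have hWW : W * W = (1 : ℝ) • τ + s • (1 : Matrix ι ι ℝ) := by
    rw [hW, mul_decomp hO, one_smul, hτ]
    have : (diagonal fun i => √(t i + s) * √(t i + s)) = diagonal t + s • (1 : Matrix ι ι ℝ) := by
      ext i j
      by_cases hij : i = j
      · subst hij; simp [Real.mul_self_sqrt (hts i).le]
      · simp [hij]
    rw [this, Matrix.mul_add, Matrix.add_mul, Matrix.mul_smul, Matrix.mul_one, Matrix.smul_mul, hO']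
  have hNs : E * E - Q * Q = (1 : ℝ) • N + s • (1 : Matrix ι ι ℝ) := by
    rw [hE, es_sq hs.le, one_smul, hN]; abel
  have hWi : W⁻¹ = O * diagonal (fun i => (√(t i + s))⁻¹) * Oᵀ := by
    refine inv_eq_right_inv ?_
    rw [hW, mul_decomp hO]
    have : (diagonal fun i => √(t i + s) * (√(t i + s))⁻¹) = (1 : Matrix ι ι ℝ) := by
      rw [← diagonal_one]
      exact congrArg _ (funext fun i => mul_inv_cancel₀ (hsq i).ne')
    rw [this, Matrix.mul_one, hO']
  have hA := hS.partA hWs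
  have hB := hS.partB hWp
  rw [hWW, hNs, hS.jt_lin, hS.jt_lin, hW, trace_decomp hO] at hA
  rw [hWW, hNs, hS.mt_lin, hS.mt_lin, hWi, trace_decomp hO] at hB
  have e0 : τ - N = (1 : ℝ) • τ + (-1 : ℝ) • N := by simp [sub_eq_add_neg]
  rw [e0, hS.jt_lin, hS.mt_lin]
  have e1 : ∑ i, t i * √(s / (t i + s)) =
      √s * (∑ i, √(t i + s) - s * ∑ i, (√(t i + s))⁻¹) := by
    rw [Finset.mul_sum, ← Finset.sum_sub_distrib, Finset.mul_sum]
    refine Finset.sum_congr rfl fun i _ => ?_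
    rw [Real.sqrt_div hs.le]
    have h1 := Real.mul_self_sqrt (hts i).le
    have h2 := (hsq i).ne'
    field_simp
    linear_combination (-1 : ℝ) * h1
  rw [e1, ← mul_add]
  refine mul_le_mul_of_nonneg_left ?_ (Real.sqrt_nonneg _)
  have := mul_le_mul_of_nonneg_left hB hs.le
  linarith

end Vale.Agent.P371.G
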