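import Vale.Agent.P371.G.Defs

open Real Finset Filter Topology MeasureTheory Matrix

namespace Vale.Agent.P371.G

private noncomputable def scg (l t s : ℝ) : ℝ := s ^ (l - 1) * (1 - √(s / (t + s)))

private lemma scg_meas (l t : ℝ) : Measurable (scg l t) := by
  unfold scg; fun_prop

private lemma scg_nonneg (l : ℝ) {t s : ℝ} (ht : 0 ≤ t) (hs : 0 < s) : 0 ≤ scg l t s := by
  refine mul_nonneg (rpow_nonneg hs.le _) (sub_nonneg.2 (sqrt_le_one.2 ?_))
  rw [div_le_one (by linarith)]; linarith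

private lemma scg_le1 (l t : ℝ) {s : ℝ} (hs : 0 < s) : scg l t s ≤ s ^ (l - 1) :=
  mul_le_of_le_one_right (rpow_nonneg hs.le _) (by linarith [sqrt_nonneg (s / (t + s))])

private lemma scg_le2 (l : ℝ) {t s : ℝ} (ht : 0 ≤ t) (hs : 0 < s) :
    scg l t s ≤ t * s ^ (l - 2) := by
  have hts : 0 < t + s := by linarith
  have hr1 : s / (t + s) ≤ 1 := by rw [div_le_one hts]; linarith
  have hr0 : 0 ≤ s / (t + s) := by positivity
  have h1 : s / (t + s) ≤ √(s / (t + s)) := by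
    rw [le_sqrt hr0 hr0]; nlinarith
  have h2 : 1 - s / (t + s) ≤ t / s := by
    have : 1 - s / (t + s) = t / (t + s) := by field_simp; ring
    rw [this]
    exact div_le_div_of_nonneg_left ht hs (by linarith)
  have h3 : s ^ (l - 2) = s ^ (l - 1) / s := by
    rw [show l - 2 = l - 1 - 1 by ring, rpow_sub_one hs.ne']
  calc scg l t s ≤ s ^ (l - 1) * (t / s) :=
        mul_le_mul_of_nonneg_left (by linarith) (rpow_nonneg hs.le _)
    _ = _ := by rw [h3]; ring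

private lemma scg_low {l : ℝ} (h0 : 0 < l) {t σ : ℝ} (ht : 0 ≤ t) (hσ : 0 < σ) :
    IntegrableOn (scg l t) (Set.Ioc 0 σ) ∧ ∫ s in Set.Ioc 0 σ, scg l t s ≤ σ ^ l / l := by
  have hi : IntegrableOn (fun s : ℝ => s ^ (l - 1)) (Set.Ioc 0 σ) :=
    (intervalIntegral.intervalIntegrable_rpow' (a := 0) (b := σ) (by linarith)).1
  have hg : IntegrableOn (scg l t) (Set.Ioc 0 σ) := by
    refine Integrable.mono' hi (scg_meas l t).aestronglyMeasurable ?_
    refine (ae_restrict_iff' measurableSet_Ioc).2 (Eventually.of_forall fun s hs => ?_)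
    rw [Real.norm_of_nonneg (scg_nonneg l ht hs.1)]
    exact scg_le1 l t hs.1
  refine ⟨hg, (setIntegral_mono_on hg hi measurableSet_Ioc fun s hs => scg_le1 l t hs.1).trans ?_⟩
  rw [← intervalIntegral.integral_of_le hσ.le, integral_rpow (Or.inl (by linarith)),
    sub_add_cancel, zero_rpow h0.ne', sub_zero]

private lemma scg_high {l : ℝ} (h1 : l < 1) {t Λ : ℝ} (ht : 0 ≤ t) (hΛ : 0 < Λ) :
    IntegrableOn (scg l t) (Set.Ioi Λ) ∧
      ∫ s in Set.Ioi Λ, scg l t s ≤ t * Λ ^ (l - 1) / (1 - l) := by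
  have hi : IntegrableOn (fun s : ℝ => t * s ^ (l - 2)) (Set.Ioi Λ) :=
    (integrableOn_Ioi_rpow_of_lt (by linarith) hΛ).const_mul t
  have hg : IntegrableOn (scg l t) (Set.Ioi Λ) := by
    refine Integrable.mono' hi (scg_meas l t).aestronglyMeasurable ?_
    refine (ae_restrict_iff' measurableSet_Ioi).2 (Eventually.of_forall fun s hs => ?_)
    have hs' : 0 < s := hΛ.trans hs
    rw [Real.norm_of_nonneg (scg_nonneg l ht hs')]
    exact scg_le2 l ht hs'
  refine ⟨hg, (setIntegral_mono_on hg hi measurableSet_Ioi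
    fun s hs => scg_le2 l ht (hΛ.trans hs)).trans (le_of_eq ?_)⟩
  rw [integral_const_mul, integral_Ioi_rpow_of_lt (by linarith) hΛ,
    show l - 2 + 1 = l - 1 by ring]
  have : l - 1 ≠ 0 := by linarith
  have : 1 - l ≠ 0 := by linarith
  field_simp; ring

private lemma scg_int {l : ℝ} (h0 : 0 < l) (h1 : l < 1) {t : ℝ} (ht : 0 ≤ t) :
    IntegrableOn (scg l t) (Set.Ioi 0) := by
  rw [← Set.Ioc_union_Ioi_eq_Ioi zero_le_one]
  exact (scg_low h0 ht one_pos).1.union (scg_high h1 ht one_pos).1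

private lemma scg_scale {l : ℝ} (h0 : 0 < l) {t : ℝ} (ht : 0 ≤ t) :
    ∫ s in Set.Ioi 0, scg l t s = cc l * t ^ l := by
  rcases ht.eq_or_lt with rfl | ht
  · rw [zero_rpow h0.ne', mul_zero]
    refine setIntegral_eq_zero_of_forall_eq_zero fun s hs => ?_
    have hs' : (0 : ℝ) < s := hs
    simp [scg, div_self hs'.ne']
  · have h := integral_comp_mul_left_Ioi (scg l t) 0 ht
    have e : ∫ x in Set.Ioi (0 : ℝ), scg l t (t * x) = t ^ (l - 1) * cc l := by
      rw [cc, ← integral_const_mul]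
      refine setIntegral_congr_fun measurableSet_Ioi fun x hx => ?_
      have hx' : (0 : ℝ) < x := hx
      have : t * x / (t + t * x) = x / (1 + x) := by field_simp
      simp only [scg]
      rw [this, mul_rpow ht.le hx'.le, mul_assoc]
    rw [e, mul_zero, smul_eq_mul, rpow_sub_one ht.ne'] at h
    field_simp at h
    linarith

private lemma scg_split {l : ℝ} (h0 : 0 < l) (h1 : l < 1) {t σ Λ : ℝ} (ht : 0 ≤ t) (hσ : 0 < σ)
    (hΛ : σ ≤ Λ) : cc l * t ^ l = (∫ s in Set.Ioc 0 σ, scg l t s) + (∫ s in σ..Λ, scg l t s) +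
      ∫ s in Set.Ioi Λ, scg l t s := by
  have hi := scg_int h0 h1 ht
  rw [← scg_scale h0 ht, intervalIntegral.integral_of_le hΛ,
    ← setIntegral_union (Set.Ioc_disjoint_Ioc_of_le le_rfl) measurableSet_Ioc
      (hi.mono_set Set.Ioc_subset_Ioi_self) (hi.mono_set fun s hs => hσ.trans hs.1),
    Set.Ioc_union_Ioc_eq_Ioc hσ.le hΛ,
    ← setIntegral_union (Set.Ioc_disjoint_Ioi le_rfl) measurableSet_Ioi
      (hi.mono_set Set.Ioc_subset_Ioi_self) (hi.mono_set fun s hs => (hσ.trans_le hΛ).trans hs),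
    Set.Ioc_union_Ioi_eq_Ioi (hσ.le.trans hΛ)]

theorem cc_pos {l : ℝ} (h0 : 0 < l) (h1 : l < 1) : 0 < cc l := by
  have hi := scg_int h0 h1 zero_le_one
  show 0 < ∫ s in Set.Ioi (0 : ℝ), scg l 1 s
  rw [setIntegral_pos_iff_support_of_nonneg_ae
    ((ae_restrict_iff' measurableSet_Ioi).2 (Eventually.of_forall fun s hs =>
      scg_nonneg l zero_le_one hs)) hi]
  have : Set.Ioi (0 : ℝ) ⊆ Function.support (scg l 1) ∩ Set.Ioi 0 := by
    intro s hs
    have hs' : (0 : ℝ) < s := hs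
    refine ⟨(mul_pos (rpow_pos_of_pos hs' _) (sub_pos.2 ?_)).ne', hs⟩
    rw [sqrt_lt' one_pos, div_lt_iff₀ (by linarith)]; linarith
  exact lt_of_lt_of_le (by simp) (measure_mono this)

theorem cc_upper {l : ℝ} (h0 : 0 < l) (h1 : l < 1) {t σ Λ : ℝ} (ht : 0 ≤ t) (hσ : 0 < σ)
    (hΛ : σ ≤ Λ) : ∫ s in σ..Λ, s ^ (l - 1) * (1 - √(s / (t + s))) ≤ cc l * t ^ l := by
  have a1 : 0 ≤ ∫ s in Set.Ioc 0 σ, scg l t s :=
    setIntegral_nonneg measurableSet_Ioc fun s hs => scg_nonneg l ht hs.1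
  have a2 : 0 ≤ ∫ s in Set.Ioi Λ, scg l t s :=
    setIntegral_nonneg measurableSet_Ioi fun s hs => scg_nonneg l ht ((hσ.trans_le hΛ).trans hs)
  have := scg_split h0 h1 ht hσ hΛ
  show ∫ s in σ..Λ, scg l t s ≤ _
  linarith

theorem cc_lower {l : ℝ} (h0 : 0 < l) (h1 : l < 1) {t σ Λ : ℝ} (ht : 0 ≤ t) (hσ : 0 < σ)
    (hΛ : σ ≤ Λ) : cc l * t ^ l - σ ^ l / l - t * Λ ^ (l - 1) / (1 - l) ≤
      ∫ s in σ..Λ, s ^ (l - 1) * (1 - √(s / (t + s))) := by
  have a1 := (scg_low h0 ht hσ).2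
  have a2 := (scg_high h1 ht (hσ.trans_le hΛ)).2
  have := scg_split h0 h1 ht hσ hΛ
  show _ ≤ ∫ s in σ..Λ, scg l t s
  linarith

end Vale.Agent.P371.G
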