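import Vale.Agent.P371.G.PW
import Vale.Agent.P371.G.DerS
import Vale.Agent.P371.G.SC
import Vale.Agent.P371.G.Mp

open Real Finset Filter Topology MeasureTheory Matrix

namespace Vale.Agent.P371.G

variable {ι : Type} [Fintype ι] [DecidableEq ι]

theorem px {l : ℝ} (l0 : 0 < l) (l1 : l < 1) {κ : ι → ℝ} (h0 : ∀ i, 0 ≤ κ i)
    {Q τ : Matrix ι ι ℝ} (h : Bt (diagonal κ) Q) (hτ : τ.PosSemidef) {σ Λ : ℝ} (hσ : 0 < σ)
    (hΛ : σ ≤ Λ) :
    l * ∫ s in σ..Λ, s ^ (l - 1) *
        hh κ s Q (Q * Q - diagonal κ * diagonal κ + (1 / l + 1) • τ) ≤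
      Λ ^ l * hh κ Λ Q (τ - (diagonal κ * diagonal κ - Q * Q)) -
        σ ^ l * hh κ σ Q (τ - (diagonal κ * diagonal κ - Q * Q)) +
        cc l * trace (mp (1 + l) τ) := by
  obtain ⟨O, t, hO, -, rfl⟩ := spec_exists (psd_symm hτ)
  have ht : ∀ i, 0 ≤ t i := (psd_decomp hO t).1 hτ
  set τ := O * diagonal t * Oᵀ with hτd
  set N := diagonal κ * diagonal κ - Q * Q with hN
  set Q' := Q * Q - diagonal κ * diagonal κ + (1 / l + 1) • τ with hQ'
  have hpos : ∀ s ∈ Set.Icc σ Λ, 0 < s := fun s hs => hσ.trans_le hs.1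
  have hJc : ∀ Y : Matrix ι ι ℝ, ContinuousOn (fun s => hh κ s Q Y) (Set.Icc σ Λ) := fun Y =>
    continuousOn_const.sub (Real.continuous_sqrt.continuousOn.mul fun s hs =>
      (jt_deriv h0 h Y (hpos s hs)).continuousAt.continuousWithinAt)
  have hpc : ∀ a : ℝ, ContinuousOn (fun s : ℝ => s ^ a) (Set.Icc σ Λ) := fun a =>
    continuousOn_id.rpow_const fun s hs => Or.inl (hpos s hs).ne'
  have hc2 : ∀ i, ContinuousOn (fun s : ℝ => s ^ (l - 1) * (1 - √(s / (t i + s))))
      (Set.Icc σ Λ) := fun i =>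
    (hpc _).mul (continuousOn_const.sub (Real.continuous_sqrt.comp_continuousOn
      (continuousOn_id.div (continuousOn_const.add continuousOn_id) fun s hs => by
        have := hpos s hs; have := ht i; positivity)))
  have hc1 : ContinuousOn (fun s : ℝ => s ^ (l - 1) * hh κ s Q Q') (Set.Icc σ Λ) :=
    (hpc _).mul (hJc _)
  have hc3 : ContinuousOn (fun s : ℝ => ∑ i, t i * (s ^ (l - 1) * (1 - √(s / (t i + s)))))
      (Set.Icc σ Λ) := continuousOn_finsetSum _ fun i _ => continuousOn_const.mul (hc2 i)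
  have key := intervalIntegral.integral_le_sub_of_hasDeriv_right_of_le hΛ
    (g := fun s => s ^ l * hh κ s Q (τ - N))
    (g' := fun s => l * s ^ (l - 1) * hh κ s Q (τ - N) + s ^ l *
      (-(1 / (2 * √s) * Jt (Es κ s) Q (τ - N) + √s * (-(1 / 2) * Mt (Es κ s) Q (τ - N)))))
    (φ := fun s => l * (s ^ (l - 1) * hh κ s Q Q') -
      ∑ i, t i * (s ^ (l - 1) * (1 - √(s / (t i + s)))))
    ((hpc l).mul (hJc _))
    (fun s hs => by
      have hs0 : 0 < s := hσ.trans hs.1
      refine HasDerivAt.hasDerivWithinAt ?_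
      refine (Real.hasDerivAt_rpow_const (Or.inl hs0.ne')).mul ?_
      exact ((Real.hasDerivAt_sqrt hs0.ne').mul (jt_deriv h0 h _ hs0)).const_sub _)
    (((continuousOn_const.mul hc1).sub hc3).integrableOn_compact isCompact_Icc)
    (fun s hs => by
      have hs0 : 0 < s := hσ.trans hs.1
      obtain ⟨S, x, hS⟩ := sd_es' h0 hs0 h
      have hp := pw h0 h hO ht hs0
      rw [← hτd, ← hN] at hp
      have e1 : Q' = (1 : ℝ) • (τ - N) + (1 / l) • τ := by
        rw [hQ', hN, add_smul, one_smul, one_smul]; abel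
      have e2 : l * hh κ s Q Q' = l * hh κ s Q (τ - N) + hh κ s Q τ := by
        simp only [hh]
        rw [e1, hS.jt_lin, trace_add, trace_smul, trace_smul]
        simp only [smul_eq_mul]
        field_simp
        ring
      have e3 : s ^ l = s ^ (l - 1) * s := by
        rw [← Real.rpow_add_one hs0.ne']; congr 1; ring
      have e4 : ∑ i, t i * (s ^ (l - 1) * (1 - √(s / (t i + s)))) =
          s ^ (l - 1) * (trace τ - ∑ i, t i * √(s / (t i + s))) := by
        rw [hτd, trace_decomp hO, ← Finset.sum_sub_distrib, Finset.mul_sum]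
        exact Finset.sum_congr rfl fun i _ => by ring
      have hq : 0 < √s := Real.sqrt_pos.2 hs0
      have hqq := Real.mul_self_sqrt hs0.le
      have e5 : s * (1 / (2 * √s)) = √s / 2 := by
        field_simp; linear_combination (-1 : ℝ) * hqq
      have hw : 0 ≤ s ^ (l - 1) := Real.rpow_nonneg hs0.le _
      have e6 : hh κ s Q τ = trace τ - √s * Jt (Es κ s) Q τ := rfl
      have := mul_le_mul_of_nonneg_left hp hw
      rw [e4, e3, ← mul_assoc l, mul_comm l, mul_assoc _ l, e2, e6]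
      have e7 : s ^ (l - 1) * s * (-(1 / (2 * √s) * Jt (Es κ s) Q (τ - N) +
          √s * (-(1 / 2) * Mt (Es κ s) Q (τ - N)))) = -(s ^ (l - 1) * (√s *
          (1 / 2 * Jt (Es κ s) Q (τ - N) - s / 2 * Mt (Es κ s) Q (τ - N)))) := by
        linear_combination (-(s ^ (l - 1)) * Jt (Es κ s) Q (τ - N)) * e5
      rw [e7]
      linarith)
  have i1 : IntervalIntegrable (fun s : ℝ => s ^ (l - 1) * hh κ s Q Q') volume σ Λ :=
    (hc1.mono (Set.uIcc_of_le hΛ).subset).intervalIntegrable
  have i2 : ∀ i, IntervalIntegrable (fun s : ℝ => s ^ (l - 1) * (1 - √(s / (t i + s))))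
      volume σ Λ := fun i => ((hc2 i).mono (Set.uIcc_of_le hΛ).subset).intervalIntegrable
  rw [intervalIntegral.integral_sub (i1.const_mul l)
      ((hc3.mono (Set.uIcc_of_le hΛ).subset).intervalIntegrable),
    intervalIntegral.integral_const_mul,
    intervalIntegral.integral_finsetSum fun i _ => (i2 i).const_mul _] at key
  have h3 : ∑ i, ∫ s in σ..Λ, t i * (s ^ (l - 1) * (1 - √(s / (t i + s)))) ≤
      cc l * trace (mp (1 + l) τ) := by
    rw [hτd, mp, cfc_decomp hO, trace_decomp hO, Finset.mul_sum]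
    refine Finset.sum_le_sum fun i _ => ?_
    rw [intervalIntegral.integral_const_mul, Real.rpow_one_add' (ht i) (by linarith)]
    have := mul_le_mul_of_nonneg_left (cc_upper l0 l1 (ht i) hσ hΛ) (ht i)
    linarith
  linarith

end Vale.Agent.P371.G
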