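import Vale.Agent.P371.G.ResF

open Real Finset Filter Topology MeasureTheory Matrix

namespace Vale.Agent.P371.G

variable {ι : Type} [Fintype ι] [DecidableEq ι]
  {E Q S : Matrix ι ι ℝ} {x : ι → ℝ}

theorem partA_tr (S Y : Matrix ι ι ℝ) (d : ι → ℝ) :
    trace (S * diagonal d * Sᵀ * Y) = ∑ i, d i * (Sᵀ * Y * S) i i := by
  rw [show S * diagonal d * Sᵀ * Y = S * (diagonal d * (Sᵀ * Y)) by simp only [Matrix.mul_assoc],
    trace_mul_comm, Matrix.mul_assoc]
  simp only [trace, diag_apply, diagonal_mul]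

theorem partA_qq (h : SD E Q S x) :
    Sᵀ * (Q * Q) * S = diagonal x * (Sᵀ * (E * E) * S) * diagonal x := by
  have e : Sᵀ * (Q * Q) * S = Sᵀ * Q * (S * Sᵀ * E) * (E * S * Sᵀ) * Q * S := by
    rw [h.right, h.left]
    simp only [Matrix.mul_one, Matrix.mul_assoc]
  rw [e, ← h.hQ]
  simp only [Matrix.mul_assoc]

theorem partA_co {y : ℝ} (hy : |y| < 1) : 0 < co y ∧ co y * co y = 1 - y ^ 2 := by
  have h1 : 0 < 1 - y ^ 2 := by
    have := (sq_lt_one_iff_abs_lt_one y).2 hy
    linarith
  exact ⟨Real.sqrt_pos.2 h1, Real.mul_self_sqrt h1.le⟩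

theorem SD.partA (h : SD E Q S x) {W : Matrix ι ι ℝ} (hW : Wᵀ = W) :
    trace W ≤ 1 / 2 * Jt E Q (W * W) + 1 / 2 * Jt E Q (E * E - Q * Q) := by
  set J := S * diagonal (fun i => (co (x i))⁻¹) * Sᵀ with hJ
  set G := GM E S x with hG
  have hc := fun i => partA_co (h.hx i)
  have d1 : diagonal (fun i => (co (x i))⁻¹) * diagonal (fun i => co (x i)) = (1 : Matrix ι ι ℝ) := by
    rw [diagonal_mul_diagonal, ← diagonal_one]
    congr 1
    funext i
    exact inv_mul_cancel₀ (hc i).1.ne'
  have JG : J * G = 1 := by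
    have : J * G = S * (diagonal (fun i => (co (x i))⁻¹) * (Sᵀ * E * S) *
        diagonal (fun i => co (x i))) * Sᵀ * E := by
      simp only [hJ, hG, GM, Matrix.mul_assoc]
    rw [this, h.hE, Matrix.mul_one, d1, Matrix.mul_one, h.right]
  have GJ : G * J = 1 := mul_eq_one_comm.1 JG
  have e1 : Jt E Q (E * E - Q * Q) = trace G := by
    have : trace G = trace (S * diagonal (fun i => co (x i)) * Sᵀ * (E * E)) := by
      rw [hG, GM, show E * S * diagonal (fun i => co (x i)) * Sᵀ * E =
        E * (S * diagonal (fun i => co (x i)) * Sᵀ * E) by simp only [Matrix.mul_assoc],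
        trace_mul_comm]
      simp only [Matrix.mul_assoc]
    rw [this, h.jt, partA_tr, partA_tr, Matrix.mul_sub, Matrix.sub_mul, partA_qq h]
    refine sum_congr rfl fun i _ => ?_
    rw [Matrix.sub_apply, mul_diagonal, diagonal_mul]
    have h1 := (hc i).1.ne'
    have h2 := (hc i).2
    field_simp
    linear_combination (-(Sᵀ * (E * E) * S) i i) * h2
  have Jp : J.PosSemidef := by
    have := (PosSemidef.diagonal (d := fun i => (co (x i))⁻¹)
      fun i => (inv_pos.2 (hc i).1).le).mul_mul_conjTranspose_same S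
    rwa [conjTranspose_eq_transpose_of_trivial] at this
  have Gs : Gᵀ = G := psd_symm h.gm_posDef.posSemidef
  have h1 := trace_mul_nonneg Jp (gram_psd (W - G))
  rw [transpose_sub, hW, Gs] at h1
  have e2 : J * ((W - G) * (W - G)) = J * (W * W) - J * W * G - J * G * W + J * G * G := by
    noncomm_ring
  rw [e2, trace_add, trace_sub, trace_sub, trace_mul_comm (J * W) G, ← Matrix.mul_assoc G, GJ, JG,
    Matrix.one_mul, Matrix.one_mul] at h1
  rw [e1, h.jt]
  linarith

end Vale.Agent.P371.G
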