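import Vale.Agent.P371.G.Spec
import Vale.Agent.P371.G.Ode
import Vale.Agent.P371.G.JCont

open Real Finset Filter Topology MeasureTheory Matrix

namespace Vale.Agent.P371.G

variable {ι : Type} [Fintype ι] [DecidableEq ι]

theorem Pos_quad_deriv {B B' : ℝ → Matrix ι ι ℝ} (hB : MD B B') (v : ι → ℝ) (x : ℝ) :
    HasDerivAt (fun y => v ⬝ᵥ (B y *ᵥ v)) (v ⬝ᵥ (B' x *ᵥ v)) x := by
  simp only [dotProduct, mulVec]
  exact HasDerivAt.fun_sum fun i _ =>
    (HasDerivAt.fun_sum fun j _ => (hB.2 x i j).mul_const (v j)).const_mul (v i)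

theorem Pos_of_sphere {M : Matrix ι ι ℝ} (hs : Mᵀ = M)
    (h : ∀ v ∈ Metric.sphere (0 : ι → ℝ) 1, 0 ≤ v ⬝ᵥ (M *ᵥ v)) : M.PosSemidef := by
  refine PosSemidef.of_dotProduct_mulVec_nonneg (by simpa [IsHermitian] using hs) fun v => ?_
  rw [star_trivial]
  by_cases hv : v = 0
  · simp [hv]
  · have hn : 0 < ‖v‖ := norm_pos_iff.2 hv
    have h1 := h (‖v‖⁻¹ • v) (by simp [norm_smul, hn.ne'])
    rw [mulVec_smul, smul_dotProduct, dotProduct_smul, smul_eq_mul, smul_eq_mul] at h1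
    have h2 : 0 < ‖v‖⁻¹ := inv_pos.2 hn
    exact (mul_nonneg_iff_of_pos_left h2).1 ((mul_nonneg_iff_of_pos_left h2).1 h1)

theorem pos_fwd {B B' C W : ℝ → Matrix ι ι ℝ} {a b : ℝ} (hB : MD B B') (cC : Continuous C)
    (hs : ∀ x ∈ Set.Icc a b, (B x)ᵀ = B x)
    (h : ∀ x ∈ Set.Icc a b, (W x).PosSemidef ∧ B' x = -(C x * B x + B x * (C x)ᵀ) + W x)
    (ha : (B a).PosSemidef) : ∀ x ∈ Set.Icc a b, (B x).PosSemidef := by
  have cB := hB.cont
  set S := Metric.sphere (0 : ι → ℝ) 1 with hS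
  have hSc : IsCompact S := isCompact_sphere _ _
  have hK : IsCompact (Set.Icc a b ×ˢ S) := isCompact_Icc.prod hSc
  obtain ⟨μ, hμ, hμS⟩ := hSc.exists_forall_le' (f := fun v => v ⬝ᵥ v) (a := 0)
    (continuous_id.dotProduct continuous_id).continuousOn fun v hv => by
      have hv0 : v ≠ 0 := by rintro rfl; simp [hS] at hv
      simpa using (dotProduct_star_self_pos_iff (v := v)).2 hv0
  obtain ⟨L0, hL0⟩ := hK.exists_bound_of_continuousOn
    (f := fun z : ℝ × (ι → ℝ) => z.2 ⬝ᵥ (C z.1 *ᵥ z.2))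
    (continuous_snd.dotProduct ((cC.comp continuous_fst).matrix_mulVec continuous_snd)).continuousOn
  set L := (2 * |L0| + 1) / μ with hL
  have hLpos : 0 < L := by positivity
  have hLμ : L * μ = 2 * |L0| + 1 := by rw [hL]; field_simp
  have main : ∀ δ > 0, ∀ x ∈ Set.Icc a b, ∀ v ∈ S,
      0 < v ⬝ᵥ (B x *ᵥ v) + δ * exp (L * x) * (v ⬝ᵥ v) := by
    intro δ hδ
    let q : ℝ × (ι → ℝ) → ℝ := fun z => z.2 ⬝ᵥ (B z.1 *ᵥ z.2) + δ * exp (L * z.1) * (z.2 ⬝ᵥ z.2)
    have cq : Continuous q :=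
      (continuous_snd.dotProduct ((cB.comp continuous_fst).matrix_mulVec continuous_snd)).add
        ((continuous_const.mul (continuous_exp.comp (continuous_const.mul continuous_fst))).mul
          (continuous_snd.dotProduct continuous_snd))
    by_contra hbad
    push Not at hbad
    obtain ⟨x1, hx1, v1, hv1, hq1⟩ := hbad
    have hc : IsCompact (Prod.fst '' ((Set.Icc a b ×ˢ S) ∩ {z | q z ≤ 0})) :=
      (hK.inter_right (isClosed_le cq continuous_const)).image continuous_fst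
    obtain ⟨x0, ⟨⟨x0', v⟩, ⟨⟨hx0, hv⟩, hq0⟩, rfl⟩, hmin⟩ :=
      hc.exists_isLeast ⟨x1, (x1, v1), ⟨⟨hx1, hv1⟩, hq1⟩, rfl⟩
    simp only at hx0 hv hmin
    have hq0 : q (x0', v) ≤ 0 := hq0
    have hlt : ∀ y ∈ Set.Ico a x0', ∀ w ∈ S, 0 < q (y, w) := fun y hy w hw => by
      by_contra hn
      exact absurd (hmin ⟨(y, w), ⟨⟨⟨hy.1, hy.2.le.trans hx0.2⟩, hw⟩, not_lt.1 hn⟩, rfl⟩)
        (not_le.2 hy.2)
    have hvv := hμS v hv
    have hax : a < x0' := by
      refine lt_of_le_of_ne hx0.1 fun e => ?_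
      have h1 := ha.dotProduct_mulVec_nonneg v
      rw [star_trivial, e] at h1
      have h2 : 0 < δ * exp (L * x0') * (v ⬝ᵥ v) := mul_pos (by positivity) (hμ.trans_le hvv)
      simp only [q] at hq0
      linarith
    have hev : ∀ᶠ y in 𝓝[<] x0', y ∈ Set.Ico a x0' := Ico_mem_nhdsLT hax
    set ε := δ * exp (L * x0') with hε
    have hεp : 0 < ε := by positivity
    have hM : (B x0' + ε • (1 : Matrix ι ι ℝ)).PosSemidef := by
      refine Pos_of_sphere (by rw [transpose_add, hs _ hx0, transpose_smul, transpose_one])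
        fun w hw => ?_
      have h1 : Tendsto (fun y => q (y, w)) (𝓝[<] x0') (𝓝 (q (x0', w))) :=
        ((cq.comp (continuous_id.prodMk continuous_const)).tendsto x0').mono_left nhdsWithin_le_nhds
      have h2 : 0 ≤ q (x0', w) := ge_of_tendsto h1 (hev.mono fun y hy => (hlt y hy w hw).le)
      simpa [q, add_mulVec, smul_mulVec, dotProduct_add] using h2
    have hz : (B x0' + ε • (1 : Matrix ι ι ℝ)) *ᵥ v = 0 := by
      refine (hM.dotProduct_mulVec_zero_iff v).1 (le_antisymm ?_ (hM.dotProduct_mulVec_nonneg v))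
      simpa [q, add_mulVec, smul_mulVec, dotProduct_add] using hq0
    have hBv : B x0' *ᵥ v = -(ε • v) := by
      rw [add_mulVec, smul_mulVec, one_mulVec] at hz
      exact eq_neg_of_add_eq_zero_left hz
    have hd : HasDerivAt (fun y => q (y, v)) (v ⬝ᵥ (B' x0' *ᵥ v) + ε * L * (v ⬝ᵥ v)) x0' := by
      have h1 := (((hasDerivAt_id x0').const_mul L).exp.const_mul δ).mul_const (v ⬝ᵥ v)
      refine ((Pos_quad_deriv hB v x0').add h1).congr_deriv ?_
      simp only [id, hε]; ring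
    have hpos : 0 < v ⬝ᵥ (B' x0' *ᵥ v) + ε * L * (v ⬝ᵥ v) := by
      have e1 : v ⬝ᵥ ((C x0' * B x0') *ᵥ v) = -(ε * (v ⬝ᵥ (C x0' *ᵥ v))) := by
        rw [← mulVec_mulVec, hBv, mulVec_neg, mulVec_smul, dotProduct_neg, dotProduct_smul,
          smul_eq_mul]
      have e2 : v ⬝ᵥ ((B x0' * (C x0')ᵀ) *ᵥ v) = -(ε * (v ⬝ᵥ (C x0' *ᵥ v))) := by
        rw [← e1, dotProduct_mulVec, ← mulVec_transpose, transpose_mul, transpose_transpose,
          hs _ hx0, dotProduct_comm]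
      have h1 := (h _ hx0).1.dotProduct_mulVec_nonneg v
      rw [star_trivial] at h1
      rw [(h _ hx0).2, add_mulVec, neg_mulVec, add_mulVec, dotProduct_add, dotProduct_neg,
        dotProduct_add, e1, e2]
      have h2 := hL0 (x0', v) ⟨hx0, hv⟩
      rw [Real.norm_eq_abs] at h2
      have h3 := (abs_le.1 (h2.trans (le_abs_self L0))).1
      have h4 : L * μ ≤ L * (v ⬝ᵥ v) := mul_le_mul_of_nonneg_left hvv hLpos.le
      have h5 : 0 < 2 * (v ⬝ᵥ (C x0' *ᵥ v)) + L * (v ⬝ᵥ v) := by linarith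
      nlinarith [mul_pos hεp h5]
    have hsl := (hasDerivAt_iff_tendsto_slope_left_right.1 hd).1
    have := le_of_tendsto hsl (hev.mono fun y hy => by
      rw [slope_def_field]
      exact div_nonpos_of_nonneg_of_nonpos (by linarith [hlt y hy v hv])
        (by linarith [hy.2]) : ∀ᶠ y in 𝓝[<] x0', slope (fun y => q (y, v)) x0' y ≤ 0)
    linarith
  intro x hx
  refine Pos_of_sphere (hs x hx) fun v hv => ?_
  have h1 : Tendsto (fun δ : ℝ => v ⬝ᵥ (B x *ᵥ v) + δ * exp (L * x) * (v ⬝ᵥ v)) (𝓝[>] 0)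
      (𝓝 (v ⬝ᵥ (B x *ᵥ v) + 0 * exp (L * x) * (v ⬝ᵥ v))) :=
    (Continuous.tendsto (by fun_prop) 0).mono_left nhdsWithin_le_nhds
  have h2 := ge_of_tendsto h1 (eventually_nhdsWithin_of_forall fun δ hδ => (main δ hδ x hx v hv).le)
  simpa using h2

theorem pos_bwd {A A' C W : ℝ → Matrix ι ι ℝ} {a b : ℝ} (hA : MD A A') (cC : Continuous C)
    (hs : ∀ x ∈ Set.Icc a b, (A x)ᵀ = A x)
    (h : ∀ x ∈ Set.Icc a b, (W x).PosSemidef ∧ A' x = C x * A x + A x * (C x)ᵀ - W x)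
    (hb : (A b).PosSemidef) : ∀ x ∈ Set.Icc a b, (A x).PosSemidef := by
  have hm : ∀ x ∈ Set.Icc (-b) (-a), -x ∈ Set.Icc a b := fun x hx =>
    ⟨by linarith [hx.2], by linarith [hx.1]⟩
  have := pos_fwd (B := fun x => A (-x)) (B' := fun x => -A' (-x)) (C := fun x => C (-x))
    (W := fun x => W (-x)) (a := -b) (b := -a)
    ⟨(hA.1.comp continuous_neg).neg, fun x i j =>
      ((hA.2 (-x) i j).comp x (hasDerivAt_neg x)).congr_deriv (by simp)⟩
    (cC.comp continuous_neg) (fun x hx => hs _ (hm x hx))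
    (fun x hx => ⟨(h _ (hm x hx)).1, by rw [(h _ (hm x hx)).2]; abel⟩) (by simpa using hb)
  intro x hx
  simpa using this (-x) ⟨by linarith [hx.2], by linarith [hx.1]⟩

end Vale.Agent.P371.G
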