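import Vale.Agent.P371.G.ResF

open Real Finset Filter Topology MeasureTheory Matrix

namespace Vale.Agent.P371.G

variable {ι : Type} [Fintype ι] [DecidableEq ι]
  {E Q S : Matrix ι ι ℝ} {x : ι → ℝ}

theorem SD.mt (h : SD E Q S x) (Y : Matrix ι ι ℝ) :
    Mt E Q Y = ∑ i, ∑ j, mu (x i) (x j) * ((Sᵀ * S * Sᵀ * S) i j * (Sᵀ * Y * S) j i) := by
  have e : ∀ φ, trace (Res E Q φ * E⁻¹ * Res E Q φ * Y) = ∑ i, ∑ j,
      rr (x i) φ * rr (x j) φ * ((Sᵀ * S * Sᵀ * S) i j * (Sᵀ * Y * S) j i) := fun φ => by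
    rw [h.res, h.inv]
    have : S * diagonal (fun i => rr (x i) φ) * Sᵀ * (S * Sᵀ) *
        (S * diagonal (fun i => rr (x i) φ) * Sᵀ) * Y = S * (diagonal (fun i => rr (x i) φ) *
        (Sᵀ * S * Sᵀ * S) * diagonal (fun i => rr (x i) φ) * (Sᵀ * Y)) := by
      simp only [Matrix.mul_assoc]
    rw [this, trace_mul_comm, Matrix.mul_assoc _ _ S]
    generalize Sᵀ * S * Sᵀ * S = P
    generalize Sᵀ * Y * S = Z
    simp only [trace, Matrix.diag, Matrix.mul_apply (N := Z), mul_diagonal, diagonal_mul]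
    exact Finset.sum_congr rfl fun i _ => Finset.sum_congr rfl fun j _ => by ring
  have c : ∀ i j, Continuous fun φ => rr (x i) φ * rr (x j) φ *
      ((Sᵀ * S * Sᵀ * S) i j * (Sᵀ * Y * S) j i) := fun i j =>
    ((rr_cont (h.hx i)).mul (rr_cont (h.hx j))).mul continuous_const
  simp only [Mt, mu, Av, e]
  rw [intervalIntegral.integral_finsetSum fun i _ =>
    (continuous_finsetSum _ fun j _ => c i j).intervalIntegrable _ _, Finset.mul_sum]
  refine Finset.sum_congr rfl fun i _ => ?_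
  rw [intervalIntegral.integral_finsetSum fun j _ => (c i j).intervalIntegrable _ _, Finset.mul_sum]
  refine Finset.sum_congr rfl fun j _ => ?_
  rw [intervalIntegral.integral_mul_const]
  ring

theorem SD.mt_lin (h : SD E Q S x) (a b : ℝ) (Y Z : Matrix ι ι ℝ) :
    Mt E Q (a • Y + b • Z) = a * Mt E Q Y + b * Mt E Q Z := by
  simp only [h.mt, Matrix.mul_add, Matrix.add_mul, Matrix.mul_smul, Matrix.smul_mul,
    Matrix.add_apply, Matrix.smul_apply, smul_eq_mul, Finset.mul_sum, ← Finset.sum_add_distrib]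
  exact Finset.sum_congr rfl fun i _ => Finset.sum_congr rfl fun j _ => by ring

theorem SD.mt_nonneg (h : SD E Q S x) {Y : Matrix ι ι ℝ} (hY : Y.PosSemidef) : 0 ≤ Mt E Q Y := by
  refine mul_nonneg (by positivity) (intervalIntegral.integral_nonneg pi_pos.le fun φ _ => ?_)
  refine trace_mul_nonneg ?_ hY
  have : Res E Q φ * E⁻¹ * Res E Q φ = Res E Q φ * S * (Res E Q φ * S)ᵀ := by
    rw [h.inv, h.res]
    simp only [transpose_mul, transpose_transpose, diagonal_transpose, Matrix.mul_assoc]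
  rw [this]
  exact gram_psd _

end Vale.Agent.P371.G
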