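import Vale.Agent.P371.G.Fld
import Vale.Agent.P371.G.Pos
import Vale.Agent.P371.G.Mp

open Real Finset Filter Topology MeasureTheory Matrix

namespace Vale.Agent.P371.G

variable {ι : Type} [Fintype ι] [DecidableEq ι]

theorem ricA_fld_symm (ρ : ℝ) (D B : Matrix ι ι ℝ) : (Fld ρ D B)ᵀ = Fld ρ D B := by
  simp only [Fld, transpose_neg, transpose_smul, transpose_sub, transpose_add, transpose_mul,
    sy_symm]
  congr 2
  abel

theorem ricA_symm {ρ a b : ℝ} {D : Matrix ι ι ℝ} {B B' W : ℝ → Matrix ι ι ℝ}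
    (hB : MD B B') (hW : ∀ x, (W x).PosSemidef) (ha : B a = 0)
    (h : ∀ x ∈ Set.Icc a b, B' x = Fld ρ D (B x) + W x) :
    ∀ x ∈ Set.Icc a b, (B x)ᵀ = B x := by
  intro x hx
  ext i j
  have hd : ∀ y, HasDerivAt (fun y => B y j i - B y i j) (B' y j i - B' y i j) y := fun y =>
    (hB.2 y j i).sub (hB.2 y i j)
  have := constant_of_has_deriv_right_zero (f := fun y => B y j i - B y i j) (a := a) (b := b)
    (fun y _ => (hd y).continuousAt.continuousWithinAt) (fun y hy => by
      have hs : (B' y)ᵀ = B' y := by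
        rw [h y (Set.Ico_subset_Icc_self hy), transpose_add, ricA_fld_symm, psd_symm (hW y)]
      have h0 : B' y j i - B' y i j = 0 := by
        have := congrFun (congrFun hs i) j
        rw [transpose_apply] at this
        rw [this, sub_self]
      have := (hd y).hasDerivWithinAt (s := Set.Ici y)
      rwa [h0] at this) x hx
  simp only [ha, Matrix.zero_apply, sub_self] at this
  rw [transpose_apply]
  linarith

omit [DecidableEq ι] in
theorem ricA_trace {a b K c : ℝ} {B B' W : ℝ → Matrix ι ι ℝ}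
    (hB : MD B B') (cW : Continuous W) (hW : ∀ x, (W x).PosSemidef)
    (hK : ∫ x in a..b, trace (W x) ≤ K) (ha : B a = 0) (hc : 0 ≤ c)
    (h : ∀ x ∈ Set.Icc a b, trace (B' x) ≤ c + trace (W x)) :
    ∀ x ∈ Set.Icc a b, trace (B x) ≤ c * (b - a) + K := by
  intro x hx
  have hd : ∀ y, HasDerivAt (fun y => trace (B y)) (trace (B' y)) y := fun y =>
    HasDerivAt.fun_sum (u := univ) (A := fun i y => B y i i) (A' := fun i => B' y i i)
      fun i _ => hB.2 y i i
  have cB : Continuous fun y => trace (B' y) := hB.1.matrix_trace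
  have cT : Continuous fun y => trace (W y) := cW.matrix_trace
  have h1 := intervalIntegral.integral_eq_sub_of_hasDerivAt (a := a) (b := x)
    (fun y _ => hd y) (cB.intervalIntegrable _ _)
  rw [ha, trace_zero, sub_zero] at h1
  have h2 : ∫ y in a..x, trace (B' y) ≤ ∫ y in a..x, (c + trace (W y)) :=
    intervalIntegral.integral_mono_on hx.1 (cB.intervalIntegrable _ _)
      ((continuous_const.add cT).intervalIntegrable _ _) fun y hy => h y ⟨hy.1, hy.2.trans hx.2⟩
  rw [intervalIntegral.integral_add (continuous_const.intervalIntegrable _ _)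
    (cT.intervalIntegrable _ _), intervalIntegral.integral_const, smul_eq_mul] at h2
  have h3 := intervalIntegral.integral_add_adjacent_intervals (μ := volume)
    (cT.intervalIntegrable a x) (cT.intervalIntegrable x b)
  have h4 : 0 ≤ ∫ y in x..b, trace (W y) :=
    intervalIntegral.integral_nonneg hx.2 fun y _ => (hW y).trace_nonneg
  have h5 : (x - a) * c ≤ c * (b - a) := by nlinarith [hx.2]
  linarith

theorem ricA_cchi (ρ : ℝ) (D : Matrix ι ι ℝ) {B : ℝ → Matrix ι ι ℝ} (cB : Continuous B) :
    Continuous fun x => chi ρ (sy D) (sy (B x)) := by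
  have h1 : Continuous fun x => ((sy D, sy (B x)) : Matrix ι ι ℝ × Matrix ι ι ℝ) :=
    continuous_const.prodMk (sy_cont.comp cB)
  have h2 := (chi_cont (ι := ι) ρ).comp h1
  simpa only [Function.comp_def] using h2

theorem ricA_tr_fld (ρ : ℝ) (D B : Matrix ι ι ℝ) : trace (Fld ρ D B) =
    -(chi ρ (sy D) (sy B) * trace (((2 : ℝ) • sy D - sy B) * sy B)) := by
  simp only [Fld, trace_neg, trace_smul, trace_sub, trace_add, sub_mul, smul_mul_assoc,
    smul_eq_mul, trace_mul_comm (sy B) (sy D)]
  ring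

theorem ric_apriori {ρ a b K : ℝ} {D : Matrix ι ι ℝ} {B B' W : ℝ → Matrix ι ι ℝ} (hab : a ≤ b)
    (hB : MD B B') (cW : Continuous W) (hW : ∀ x, (W x).PosSemidef)
    (hK : ∫ x in a..b, trace (W x) ≤ K) (ha : B a = 0)
    (h : ∀ x ∈ Set.Icc a b, B' x = Fld ρ D (B x) + W x) :
    ∀ x ∈ Set.Icc a b, (B x).PosSemidef ∧ trace (B x) ≤ b - a + K := by
  have hs := ricA_symm hB hW ha h
  have cB := hB.cont
  have cchi := ricA_cchi ρ D cB
  have cs : Continuous fun x => sy (B x) := sy_cont.comp cB
  have cC : Continuous fun x => chi ρ (sy D) (sy (B x)) • (sy D - (1 / 2 : ℝ) • sy (B x)) := by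
    fun_prop
  have hp := pos_fwd (W := W) (a := a) (b := b) hB cC hs
    (fun x hx => ⟨hW x, by
      rw [h x hx]
      simp only [Fld, transpose_smul, transpose_sub, sy_symm]
      rw [sy_eq (hs x hx)]
      simp only [smul_mul_assoc, mul_smul_comm, sub_mul, mul_sub]
      module⟩) (by rw [ha]; exact PosSemidef.zero)
  have ht := ricA_trace hB cW hW hK ha zero_le_one (fun x hx => by
    rw [h x hx, trace_add, ricA_tr_fld]
    linarith [chi_tr ρ (sy D) (sy (B x))])
  intro x hx
  exact ⟨hp x hx, by simpa using ht x hx⟩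

end Vale.Agent.P371.G
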