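import Vale.Agent.P371.G.RicA

open Real Finset Filter Topology MeasureTheory Matrix

namespace Vale.Agent.P371.G

variable {ι : Type} [Fintype ι] [DecidableEq ι]

theorem ric_land {ρ a b K ε : ℝ} {D : Matrix ι ι ℝ} {B B' W : ℝ → Matrix ι ι ℝ} (hab : a ≤ b)
    (hε : 0 < ε) (hB : MD B B') (cW : Continuous W) (hW : ∀ x, (W x).PosSemidef)
    (hK : ∫ x in a..b, trace (W x) ≤ K) (ha : B a = 0)
    (h : ∀ x ∈ Set.Icc a b, B' x = Fld ρ D (B x) + W x)
    (hρ : ((b - a + K + Fintype.card ι * ε) / 2) ^ 2 + (b - a + K) ^ 2 ≤ ρ)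
    (hD : D = (1 / 2 : ℝ) • (B b + ε • (1 : Matrix ι ι ℝ))) :
    (∀ x ∈ Set.Icc a b, Bt D (B x - D) ∧ B' x = (B x - D) * (B x - D) - D * D + W x) ∧
      trace D ≤ (K + Fintype.card ι * ε) / 2 := by
  have hap := ric_apriori hab hB cW hW hK ha h
  have hbm : b ∈ Set.Icc a b := ⟨hab, le_rfl⟩
  have hs : ∀ x ∈ Set.Icc a b, (B x)ᵀ = B x := fun x hx => psd_symm (hap x hx).1
  have hεI : (ε • (1 : Matrix ι ι ℝ)).PosSemidef := PosSemidef.one.smul hε.le
  have hDp : D.PosSemidef := by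
    rw [hD]; exact ((hap b hbm).1.add hεI).smul (by norm_num : (0 : ℝ) ≤ 1 / 2)
  have hDs : Dᵀ = D := psd_symm hDp
  have htD : trace D = (trace (B b) + Fintype.card ι * ε) / 2 := by
    rw [hD, trace_smul, trace_add, trace_smul, trace_one, smul_eq_mul, smul_eq_mul]; ring
  have cB := hB.cont
  have cchi := ricA_cchi ρ D cB
  have cC : Continuous fun x => chi ρ (sy D) (sy (B x)) • ((1 / 2 : ℝ) • B x) := by fun_prop
  have hA : MD (fun x => (2 : ℝ) • D - B x) (fun x => -B' x) :=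
    ⟨hB.1.neg, fun x i j => (hB.2 x i j).const_sub (((2 : ℝ) • D) i j)⟩
  have hp := pos_bwd (W := W) (a := a) (b := b) hA cC
    (fun x hx => by rw [transpose_sub, transpose_smul, hDs, hs x hx])
    (fun x hx => ⟨hW x, by
      rw [h x hx]
      simp only [Fld, transpose_smul]
      rw [sy_eq (hs x hx), sy_eq hDs, hs x hx]
      simp only [smul_mul_assoc, mul_smul_comm, sub_mul, mul_sub]
      module⟩)
    (by
      have : (2 : ℝ) • D - B b = ε • (1 : Matrix ι ι ℝ) := by rw [hD]; module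
      simp only [this]; exact hεI)
  have htr : ∀ x ∈ Set.Icc a b, 0 ≤ trace (((2 : ℝ) • D - B x) * B x) := fun x hx =>
    trace_mul_nonneg (hp x hx) (hap x hx).1
  have hchi : ∀ x ∈ Set.Icc a b, chi ρ D (B x) = 1 := fun x hx => by
    refine chi_one (htr x hx) (le_trans (add_le_add ?_ ?_) hρ)
    · refine (n2_le hDp).trans (pow_le_pow_left₀ hDp.trace_nonneg ?_ 2)
      rw [htD]; linarith [(hap b hbm).2]
    · exact (n2_le (hap x hx).1).trans (pow_le_pow_left₀ (hap x hx).1.trace_nonneg (hap x hx).2 2)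
  have ht := ricA_trace hB cW hW hK ha le_rfl (fun x hx => by
    rw [h x hx, trace_add, ricA_tr_fld, sy_eq (hs x hx), sy_eq hDs, hchi x hx]
    linarith [htr x hx]) b hbm
  refine ⟨fun x hx => ⟨⟨?_, ?_⟩, ?_⟩, by rw [htD]; linarith⟩
  · have : D - (B x - D) = (2 : ℝ) • D - B x := by module
    rw [this]; exact hp x hx
  · have : D + (B x - D) = B x := by abel
    rw [this]; exact (hap x hx).1
  · rw [h x hx]
    simp only [Fld]
    rw [sy_eq (hs x hx), sy_eq hDs, hchi x hx, one_smul]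
    simp only [sub_mul, mul_sub]
    abel

end Vale.Agent.P371.G
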