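import Vale.Agent.P371.G.Defs

open Real Finset Filter Topology MeasureTheory Matrix

namespace Vale.Agent.P371.G

variable {ι : Type} [Fintype ι] [DecidableEq ι]

theorem spec_exists {Y : Matrix ι ι ℝ} (hY : Yᵀ = Y) :
    ∃ (O : Matrix ι ι ℝ) (t : ι → ℝ), Oᵀ * O = 1 ∧ O * Oᵀ = 1 ∧ Y = O * diagonal t * Oᵀ := by
  have hH : Y.IsHermitian := by
    rw [IsHermitian, conjTranspose_eq_transpose_of_trivial, hY]
  refine ⟨hH.eigenvectorUnitary, hH.eigenvalues, ?_, ?_, ?_⟩
  · rw [← conjTranspose_eq_transpose_of_trivial, ← star_eq_conjTranspose]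
    exact hH.eigenvectorUnitary.2.1
  · rw [← conjTranspose_eq_transpose_of_trivial, ← star_eq_conjTranspose]
    exact hH.eigenvectorUnitary.2.2
  · have := hH.spectral_theorem
    rw [Unitary.conjStarAlgAut_apply, star_eq_conjTranspose,
      conjTranspose_eq_transpose_of_trivial] at this
    simpa using this

theorem mul_decomp {O : Matrix ι ι ℝ} (hO : Oᵀ * O = 1) (t u : ι → ℝ) :
    O * diagonal t * Oᵀ * (O * diagonal u * Oᵀ) = O * diagonal (fun i => t i * u i) * Oᵀ := by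
  calc O * diagonal t * Oᵀ * (O * diagonal u * Oᵀ)
      = O * (diagonal t * (Oᵀ * O) * diagonal u) * Oᵀ := by simp only [Matrix.mul_assoc]
    _ = _ := by rw [hO, Matrix.mul_one, diagonal_mul_diagonal]

private lemma spec_aeval {O : Matrix ι ι ℝ} (hO : Oᵀ * O = 1) (t : ι → ℝ) (p : Polynomial ℝ) :
    Polynomial.aeval (O * diagonal t * Oᵀ) p = O * diagonal (fun i => p.eval (t i)) * Oᵀ := by
  have hO' : O * Oᵀ = 1 := mul_eq_one_comm.1 hO
  induction p using Polynomial.induction_on with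
  | C a =>
    simp only [Polynomial.aeval_C, Polynomial.eval_C]
    rw [← smul_one_eq_diagonal, Matrix.mul_smul, Matrix.smul_mul, Matrix.mul_one, hO',
      Algebra.algebraMap_eq_smul_one]
  | add p q hp hq =>
    simp only [map_add, hp, hq, Polynomial.eval_add]
    rw [← Matrix.add_mul, ← Matrix.mul_add, diagonal_add]
  | monomial n a h =>
    rw [pow_succ, ← mul_assoc, map_mul, h, Polynomial.aeval_X, mul_decomp hO]
    simp only [Polynomial.eval_mul, Polynomial.eval_X]

theorem cfc_decomp {O : Matrix ι ι ℝ} (hO : Oᵀ * O = 1) (t : ι → ℝ) (f : ℝ → ℝ) :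
    cfc f (O * diagonal t * Oᵀ) = O * diagonal (fun i => f (t i)) * Oᵀ := by
  classical
  have hO' : O * Oᵀ = 1 := mul_eq_one_comm.1 hO
  have hsa : IsSelfAdjoint (O * diagonal t * Oᵀ) := by
    rw [IsSelfAdjoint, star_eq_conjTranspose, conjTranspose_eq_transpose_of_trivial]
    simp [Matrix.mul_assoc]
  have hsp : spectrum ℝ (O * diagonal t * Oᵀ) = Set.range t := by
    have := spectrum.units_conjugate (R := ℝ) (a := diagonal t)
      (u := (⟨O, Oᵀ, hO', hO⟩ : (Matrix ι ι ℝ)ˣ))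
    rw [spectrum_diagonal] at this
    exact this
  set p := Lagrange.interpolate (univ.image t) id f with hp
  have hpe : ∀ i, p.eval (t i) = f (t i) := fun i =>
    Lagrange.eval_interpolate_at_node (s := univ.image t) (v := id) f (Set.injOn_id _)
      (Finset.mem_image_of_mem t (mem_univ i))
  have e : cfc f (O * diagonal t * Oᵀ) = cfc p.eval (O * diagonal t * Oᵀ) := by
    refine cfc_congr ?_
    rw [hsp]
    rintro _ ⟨i, rfl⟩
    exact (hpe i).symm
  rw [e, cfc_polynomial p _ hsa, spec_aeval hO]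
  simp only [hpe]

theorem psd_decomp {O : Matrix ι ι ℝ} (hO : Oᵀ * O = 1) (t : ι → ℝ) :
    (O * diagonal t * Oᵀ).PosSemidef ↔ ∀ i, 0 ≤ t i := by
  have hO' : O * Oᵀ = 1 := mul_eq_one_comm.1 hO
  have hU : IsUnit O := ⟨⟨O, Oᵀ, hO', hO⟩, rfl⟩
  rw [← conjTranspose_eq_transpose_of_trivial, ← star_eq_conjTranspose,
    hU.posSemidef_star_right_conjugate_iff, posSemidef_diagonal_iff]

theorem pd_decomp {O : Matrix ι ι ℝ} (hO : Oᵀ * O = 1) (t : ι → ℝ) :
    (O * diagonal t * Oᵀ).PosDef ↔ ∀ i, 0 < t i := by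
  have hO' : O * Oᵀ = 1 := mul_eq_one_comm.1 hO
  have hU : IsUnit O := ⟨⟨O, Oᵀ, hO', hO⟩, rfl⟩
  rw [← conjTranspose_eq_transpose_of_trivial, ← star_eq_conjTranspose,
    hU.posDef_star_right_conjugate_iff, posDef_diagonal_iff]

theorem trace_decomp {O : Matrix ι ι ℝ} (hO : Oᵀ * O = 1) (t : ι → ℝ) :
    trace (O * diagonal t * Oᵀ) = ∑ i, t i := by
  rw [trace_mul_comm, ← Matrix.mul_assoc, hO, Matrix.one_mul, trace_diagonal]

theorem psd_symm {Y : Matrix ι ι ℝ} (hY : Y.PosSemidef) : Yᵀ = Y := by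
  rw [← conjTranspose_eq_transpose_of_trivial]; exact hY.isHermitian.eq

theorem trace_mul_nonneg {Y Z : Matrix ι ι ℝ} (hY : Y.PosSemidef) (hZ : Z.PosSemidef) :
    0 ≤ trace (Y * Z) := by
  obtain ⟨O, t, hO, -, rfl⟩ := spec_exists (psd_symm hZ)
  have ht := (psd_decomp hO t).1 hZ
  have hP : (Oᵀ * Y * O).PosSemidef := by
    rw [← conjTranspose_eq_transpose_of_trivial]; exact hY.conjTranspose_mul_mul_same O
  have e : trace (Y * (O * diagonal t * Oᵀ)) = trace (Oᵀ * Y * O * diagonal t) := by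
    rw [← Matrix.mul_assoc, trace_mul_comm]; simp only [Matrix.mul_assoc]
  rw [e, trace]
  refine Finset.sum_nonneg fun i _ => ?_
  rw [diag_apply, mul_diagonal]
  exact mul_nonneg hP.diag_nonneg (ht i)

theorem gram_psd {κ : Type} [Fintype κ] (w : Matrix ι κ ℝ) : (w * wᵀ).PosSemidef := by
  rw [← conjTranspose_eq_transpose_of_trivial]; exact posSemidef_self_mul_conjTranspose w

end Vale.Agent.P371.G
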