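import Vale.Agent.P371.G.Defs

open Real Finset Filter Topology MeasureTheory Matrix

namespace Vale.Agent.P371.G

variable {m N : ℕ}

open scoped ComplexOrder

lemma upA_W (ψ : Fin N → ℝ → Fin m → ℂ) (x : ℝ) (W : Matrix (Fin m) (Fin m) ℂ) (j k : Fin N) :
    (Mk (fun _ => 1) ψ x * W * (Mk (fun _ => 1) ψ x)ᴴ) j k = star (ψ j x) ⬝ᵥ (W *ᵥ ψ k x) := by
  simp only [Mk, Matrix.mul_apply, of_apply, conjTranspose_apply, dotProduct, Finset.mul_sum,
    Pi.star_apply, star_mul', Complex.star_def, Complex.conj_ofReal, Complex.ofReal_one,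
    Complex.conj_conj, mulVec, Finset.sum_mul, one_mul, map_one]
  rw [Finset.sum_comm]
  exact Finset.sum_congr rfl fun i _ => Finset.sum_congr rfl fun k _ => by ring

lemma upA_cs {W : Matrix (Fin m) (Fin m) ℂ} (hW : W.PosSemidef) (u v : Fin m → ℂ) :
    ‖star u ⬝ᵥ (W *ᵥ v)‖ ≤ ‖star u ⬝ᵥ (W *ᵥ u)‖ + ‖star v ⬝ᵥ (W *ᵥ v)‖ := by
  have hs : star v ⬝ᵥ (W *ᵥ u) = star (star u ⬝ᵥ (W *ᵥ v)) := by
    rw [star_dotProduct, star_mulVec, hW.1.eq, dotProduct_mulVec]
  have key : ∀ c : ℂ, 0 ≤ (star u ⬝ᵥ (W *ᵥ u)).re + (c * (star u ⬝ᵥ (W *ᵥ v))).re +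
      (star c * star (star u ⬝ᵥ (W *ᵥ v))).re + (star c * c * (star v ⬝ᵥ (W *ᵥ v))).re := by
    intro c
    have := (Complex.le_def.1 (hW.dotProduct_mulVec_nonneg (u + c • v))).1
    simp only [star_add, star_smul, mulVec_add, mulVec_smul, add_dotProduct, dotProduct_add,
      smul_dotProduct, dotProduct_smul, smul_eq_mul, hs, mul_add, Complex.add_re,
      Complex.zero_re] at this
    rw [mul_assoc, mul_left_comm]
    linarith
  have h1 := key 1
  have h2 := key (-1)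
  have h3 := key Complex.I
  have h4 := key (-Complex.I)
  have a1 := Complex.re_le_norm (star u ⬝ᵥ (W *ᵥ u))
  have a2 := Complex.re_le_norm (star v ⬝ᵥ (W *ᵥ v))
  have a3 := Complex.norm_le_abs_re_add_abs_im (star u ⬝ᵥ (W *ᵥ v))
  generalize star u ⬝ᵥ (W *ᵥ v) = z at *
  generalize star u ⬝ᵥ (W *ᵥ u) = p at *
  generalize star v ⬝ᵥ (W *ᵥ v) = q at *
  simp at h1 h2 h3 h4
  have b1 : |z.re| ≤ (p.re + q.re) / 2 := abs_le.2 ⟨by linarith, by linarith⟩
  have b2 : |z.im| ≤ (p.re + q.re) / 2 := abs_le.2 ⟨by linarith, by linarith⟩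
  linarith

lemma upA_rr {F : ℝ → Matrix (Fin N) (Fin N) ℂ} (hF : ∀ j k, Integrable fun x => F x j k)
    (a b : Fin N ⊕ Fin N) : (Integrable fun x => RR (F x) a b) ∧
      ∫ x, RR (F x) a b = RR (Matrix.of fun j k => ∫ x, F x j k) a b := by
  rcases a with j | j <;> rcases b with k | k
  · exact ⟨(hF j k).re, integral_re (hF j k)⟩
  · refine ⟨(hF j k).im.neg, ?_⟩
    simp only [RR, fromBlocks_apply₁₂, Matrix.neg_apply, map_apply, integral_neg, of_apply]
    exact congrArg _ (integral_im (hF j k))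
  · exact ⟨(hF j k).im, integral_im (hF j k)⟩
  · exact ⟨(hF j k).re, integral_re (hF j k)⟩

/-- realified eigenfunction data -/
theorem real_data {γ : ℝ} {W : ℝ → Matrix (Fin m) (Fin m) ℂ} (hW : IsPotential γ W)
    {lam : Fin N → ℝ} {ψ : Fin N → ℝ → Fin m → ℂ} (h : ∀ j, lam j < 0 ∧ IsEigen W (lam j) (ψ j))
    (hon : ∀ j k, ∫ x, star (ψ j x) ⬝ᵥ ψ k x = if j = k then 1 else 0) :
    ∃ Ψ' : ℝ → Matrix (Fin N ⊕ Fin N) (Fin m ⊕ Fin m) ℝ,
      (∀ a i, H1 (fun x => RR (Mk (fun _ => 1) ψ x) a i) (fun x => Ψ' x a i)) ∧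
      (∀ a b, ∫ x, (RR (Mk (fun _ => 1) ψ x) * (RR (Mk (fun _ => 1) ψ x))ᵀ) a b =
        (1 : Matrix (Fin N ⊕ Fin N) (Fin N ⊕ Fin N) ℝ) a b) ∧
      ∀ a b, (Integrable fun x =>
          (RR (Mk (fun _ => 1) ψ x) * RR (W x) * (RR (Mk (fun _ => 1) ψ x))ᵀ) a b) ∧
        ∫ x, (RR (Mk (fun _ => 1) ψ x) * RR (W x) * (RR (Mk (fun _ => 1) ψ x))ᵀ) a b =
          (∫ x, (Ψ' x * (Ψ' x)ᵀ) a b) +
            diagonal (Sum.elim (fun j => |lam j|) fun j => |lam j|) a b := by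
  choose ψ' h1 h2 using fun j => (h j).2
  have hi : ∀ j k, Integrable fun x => star (ψ j x) ⬝ᵥ ψ k x := fun j k =>
    int_dot (fun i => (h1 j i).1) (fun i => (h1 k i).1)
  have hi' : ∀ j k, Integrable fun x => star (ψ' j x) ⬝ᵥ ψ' k x := fun j k =>
    int_dot (fun i => (h1 j i).2.1) (fun i => (h1 k i).2.1)
  have heq : ∀ j k, (∫ x, star (ψ' j x) ⬝ᵥ ψ' k x) - (∫ x, star (ψ j x) ⬝ᵥ (W x *ᵥ ψ k x)) =
      lam k * if j = k then 1 else 0 := fun j k => by
    have := h2 k _ _ (h1 j)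
    rwa [hon] at this
  have hV : ∀ j, Integrable fun x => star (ψ j x) ⬝ᵥ (W x *ᵥ ψ j x) := fun j => by
    by_contra hn
    have := congrArg Complex.re (heq j j)
    rw [integral_undef hn, sub_zero, if_pos rfl, mul_one, Complex.ofReal_re] at this
    have h0 : (0 : ℂ) ≤ ∫ x, star (ψ' j x) ⬝ᵥ ψ' j x :=
      integral_nonneg fun x => dotProduct_star_self_nonneg _
    have := (Complex.le_def.1 h0).1
    simp only [Complex.zero_re] at this
    linarith [(h j).1]
  have hV' : ∀ j k, Integrable fun x => star (ψ j x) ⬝ᵥ (W x *ᵥ ψ k x) := fun j k => by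
    refine ((hV j).norm.add (hV k).norm).mono' ?_
      (Eventually.of_forall fun x => upA_cs (hW.2.1 x) _ _)
    refine Finset.aestronglyMeasurable_fun_sum _ fun i _ => (h1 j i).1.1.star.mul ?_
    exact Finset.aestronglyMeasurable_fun_sum (f := fun r x => W x i r * ψ k x r) univ fun r _ =>
      (hW.1 i r).aestronglyMeasurable.mul (h1 k r).1.1
  refine ⟨fun x => RR (Mk (fun _ => 1) ψ' x), ?_, fun a b => ?_, fun a b => ?_⟩
  · rintro (j | j) (i | i)
    · simpa [RR, Mk] using (h1 j).clm i Complex.reCLM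
    · simpa [RR, Mk] using (h1 j).clm i Complex.imCLM
    · simpa [RR, Mk] using (h1 j).clm i (-Complex.imCLM)
    · simpa [RR, Mk] using (h1 j).clm i Complex.reCLM
  · simp only [← RR_conjT, ← RR_mul]
    rw [(upA_rr (fun j k => by simpa [Mk_mul] using hi j k) a b).2]
    simp only [Mk_mul, mul_one, Complex.ofReal_one, one_mul, hon]
    rcases a with j | j <;> rcases b with k | k <;> simp [RR, Matrix.one_apply, apply_ite]
  · simp only [← RR_conjT, ← RR_mul]
    have e1 := upA_rr (F := fun x => Mk (fun _ => 1) ψ x * W x * (Mk (fun _ => 1) ψ x)ᴴ)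
      (fun j k => by simpa only [upA_W] using hV' j k) a b
    refine ⟨e1.1, ?_⟩
    rw [e1.2, (upA_rr (fun j k => by simpa [Mk_mul] using hi' j k) a b).2, ← RR_diag]
    have e2 : ∀ j k, ∫ x, star (ψ j x) ⬝ᵥ (W x *ᵥ ψ k x) = (∫ x, star (ψ' j x) ⬝ᵥ ψ' k x) +
        diagonal (fun j => ((|lam j| : ℝ) : ℂ)) j k := fun j k => by
      have := heq j k
      by_cases hjk : j = k
      · subst hjk
        rw [diagonal_apply_eq, abs_of_neg (h j).1, Complex.ofReal_neg]
        rw [if_pos rfl] at this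
        linear_combination -this
      · rw [diagonal_apply_ne _ hjk]
        rw [if_neg hjk] at this
        linear_combination -this
    simp only [upA_W, Mk_mul, mul_one, Complex.ofReal_one, one_mul, e2]
    rcases a with j | j <;> rcases b with k | k <;> by_cases hjk : j = k <;>
      simp [RR, add_comm, hjk]

end Vale.Agent.P371.G
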