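import Vale.Agent.P371.G.Spec

open Real Finset Filter Topology MeasureTheory Matrix

namespace Vale.Agent.P371.G

variable {ι : Type} [Fintype ι] [DecidableEq ι]
  {κ : Type} [Fintype κ]

theorem young_sc {l : ℝ} (l0 : 0 < l) {v r : ℝ} (hv : 0 ≤ v) (hr : 0 ≤ r) :
    v * r ≤ Ay l * v ^ (1 + l) + r ^ (1 / l + 1) := by
  obtain ⟨q, hq⟩ : ∃ q : ℝ, q = 1 / l + 1 := ⟨_, rfl⟩
  have hq0 : 0 < q := by rw [hq]; positivity
  have hp0 : 0 < 1 + l := by linarith
  have hpq : (1 + l).HolderConjugate q := by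
    refine ⟨?_, hp0, hq0⟩
    rw [hq]
    field_simp
  have hl : 0 < q ^ (1 / q) := Real.rpow_pos_of_pos hq0 _
  have h := Real.young_inequality_of_nonneg (div_nonneg hv hl.le) (mul_nonneg hl.le hr) hpq
  have e1 : v / q ^ (1 / q) * (q ^ (1 / q) * r) = v * r := by field_simp
  have e2 : (q ^ (1 / q) * r) ^ q / q = r ^ q := by
    rw [Real.mul_rpow hl.le hr, ← Real.rpow_mul hq0.le, one_div_mul_cancel hq0.ne', Real.rpow_one]
    field_simp
  have e3 : (v / q ^ (1 / q)) ^ (1 + l) / (1 + l) = Ay l * v ^ (1 + l) := by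
    have e4 : 1 / q * (1 + l) = l := by rw [hq]; field_simp
    have e5 : q = (1 + l) / l := by rw [hq]; field_simp
    rw [Real.div_rpow hv hl.le, ← Real.rpow_mul hq0.le, e4, e5, Real.div_rpow hp0.le l0.le, Ay,
      Real.rpow_add hp0, Real.rpow_one]
    have h1 : 0 < (1 + l) ^ l := Real.rpow_pos_of_pos hp0 _
    have h2 : 0 < l ^ l := Real.rpow_pos_of_pos l0 _
    field_simp
  rw [e1, e2, e3] at h
  rw [← hq]
  exact h

theorem young_jen {a : ℝ} (ha : 1 ≤ a) {p t : ι → ℝ} (hp : ∀ i, 0 ≤ p i) (h1 : ∑ i, p i ≤ 1)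
    (ht : ∀ i, 0 ≤ t i) : (∑ i, p i * t i) ^ a ≤ ∑ i, p i * t i ^ a := by
  have h := Real.rpow_arith_mean_le_arith_mean_rpow (Finset.univ : Finset (Option ι))
    (fun o => o.elim (1 - ∑ i, p i) p) (fun o => o.elim 0 t)
    (fun o _ => by
      cases o with
      | none => exact sub_nonneg.mpr h1
      | some i => exact hp i)
    (by rw [Fintype.sum_option]; simp)
    (fun o _ => by
      cases o with
      | none => exact le_rfl
      | some i => exact ht i) ha
  rw [Fintype.sum_option, Fintype.sum_option] at h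
  simpa [Real.zero_rpow (by linarith : a ≠ 0)] using h

theorem young_proj {z : Matrix ι κ ℝ} (h : z * zᵀ * z = z) (i : κ) : ∑ α, z α i ^ 2 ≤ 1 := by
  obtain ⟨P, hP⟩ : ∃ P : Matrix κ κ ℝ, P = zᵀ * z := ⟨_, rfl⟩
  have e1 : P * P = P := by
    rw [hP]
    calc zᵀ * z * (zᵀ * z) = zᵀ * (z * zᵀ * z) := by simp only [Matrix.mul_assoc]
      _ = _ := by rw [h]
  have e2 : Pᵀ = P := by rw [hP, transpose_mul, transpose_transpose]
  have e3 : P i i = ∑ α, z α i ^ 2 := by
    rw [hP, Matrix.mul_apply]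
    exact Finset.sum_congr rfl fun α _ => by rw [transpose_apply]; ring
  have e4 : P i i = ∑ j, P i j ^ 2 := by
    have h1 := congrFun (congrFun e1 i) i
    rw [Matrix.mul_apply] at h1
    rw [← h1]
    refine Finset.sum_congr rfl fun j _ => ?_
    have h2 : P j i = P i j := congrFun (congrFun e2 i) j
    rw [h2]; ring
  have h5 : P i i ^ 2 ≤ ∑ j, P i j ^ 2 :=
    Finset.single_le_sum (f := fun j => P i j ^ 2) (fun j _ => sq_nonneg _) (Finset.mem_univ i)
  rw [← e4] at h5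
  rw [← e3]
  nlinarith

theorem jensen_col {a : ℝ} (ha : 1 ≤ a) (Φ : Matrix ι κ ℝ) :
    ∑ i, (Φᵀ * Φ) i i ^ a ≤ trace (mp a (Φ * Φᵀ)) := by
  have hP := gram_psd Φ
  obtain ⟨O, t, o1, o2, ht⟩ := spec_exists (psd_symm hP)
  have ht0 : ∀ α, 0 ≤ t α := (psd_decomp o1 t).mp (ht ▸ hP)
  rw [mp, ht, cfc_decomp o1, trace_decomp o1]
  obtain ⟨y, hy⟩ : ∃ y : Matrix ι κ ℝ, y = Oᵀ * Φ := ⟨_, rfl⟩
  have e1 : y * yᵀ = diagonal t := by
    rw [hy, transpose_mul, transpose_transpose]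
    calc Oᵀ * Φ * (Φᵀ * O) = Oᵀ * (Φ * Φᵀ) * O := by simp only [Matrix.mul_assoc]
      _ = (Oᵀ * O) * diagonal t * (Oᵀ * O) := by rw [ht]; simp only [Matrix.mul_assoc]
      _ = _ := by rw [o1, Matrix.one_mul, Matrix.mul_one]
  have e2 : Φᵀ * Φ = yᵀ * y := by
    rw [hy, transpose_mul, transpose_transpose]
    calc Φᵀ * Φ = Φᵀ * (O * Oᵀ) * Φ := by rw [o2, Matrix.mul_one]
      _ = _ := by simp only [Matrix.mul_assoc]
  have e3 : ∀ α, ∑ i, y α i ^ 2 = t α := fun α => by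
    have h1 := congrFun (congrFun e1 α) α
    rw [Matrix.mul_apply, diagonal_apply_eq] at h1
    rw [← h1]
    exact Finset.sum_congr rfl fun i _ => by rw [transpose_apply]; ring
  have e4 : ∀ α i, t α = 0 → y α i = 0 := fun α i h => by
    have h1 : y α i ^ 2 ≤ ∑ j, y α j ^ 2 :=
      Finset.single_le_sum (f := fun j => y α j ^ 2) (fun j _ => sq_nonneg _) (Finset.mem_univ i)
    rw [e3, h] at h1
    exact pow_eq_zero_iff (two_ne_zero) |>.mp (le_antisymm h1 (sq_nonneg _))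
  obtain ⟨s, hs⟩ : ∃ s : ι → ℝ, s = fun α => (√(t α))⁻¹ := ⟨_, rfl⟩
  have e5 : ∀ α i, s α * t α * s α * y α i = y α i := fun α i => by
    rcases (ht0 α).eq_or_lt with h | h
    · rw [e4 α i h.symm, mul_zero]
    · have h1 := Real.sqrt_pos.mpr h
      have h2 := Real.mul_self_sqrt h.le
      have h3 : s α * t α * s α = 1 := by
        rw [hs]
        beta_reduce
        field_simp
        nlinarith
      rw [h3, one_mul]
  obtain ⟨z, hz⟩ : ∃ z : Matrix ι κ ℝ, z = diagonal s * y := ⟨_, rfl⟩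
  have hz1 : ∀ α i, z α i = s α * y α i := fun α i => by rw [hz, diagonal_mul]
  have e6 : z * zᵀ * z = z := by
    have h1 : z * zᵀ = diagonal fun α => s α * t α * s α := by
      rw [hz, transpose_mul, diagonal_transpose]
      calc diagonal s * y * (yᵀ * diagonal s) = diagonal s * (y * yᵀ) * diagonal s := by
            simp only [Matrix.mul_assoc]
        _ = _ := by rw [e1, diagonal_mul_diagonal, diagonal_mul_diagonal]
    rw [h1]
    ext α i
    rw [diagonal_mul, hz1]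
    calc s α * t α * s α * (s α * y α i) = s α * (s α * t α * s α * y α i) := by ring
      _ = _ := by rw [e5]
  have e7 : ∀ α i, z α i ^ 2 * t α = y α i ^ 2 := fun α i => by
    rw [hz1]
    calc (s α * y α i) ^ 2 * t α = (s α * t α * s α * y α i) * y α i := by ring
      _ = _ := by rw [e5]; ring
  have e8 : ∀ α, ∑ i, z α i ^ 2 ≤ 1 := fun α => by
    rcases (ht0 α).eq_or_lt with h | h
    · have : ∀ i, z α i ^ 2 = 0 := fun i => by rw [hz1, e4 α i h.symm]; ring
      simp [this]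
    · refine le_of_mul_le_mul_right (le_of_eq ?_) h
      rw [Finset.sum_mul, one_mul, ← e3]
      refine Finset.sum_congr rfl fun i _ => ?_
      rw [e3, e7]
  have e9 : ∀ i, (Φᵀ * Φ) i i = ∑ α, z α i ^ 2 * t α := fun i => by
    rw [e2, Matrix.mul_apply]
    exact Finset.sum_congr rfl fun α _ => by rw [e7, transpose_apply]; ring
  calc ∑ i, (Φᵀ * Φ) i i ^ a ≤ ∑ i, ∑ α, z α i ^ 2 * t α ^ a :=
        Finset.sum_le_sum fun i _ => by
          rw [e9]
          exact young_jen ha (fun α => sq_nonneg _) (young_proj e6 i) ht0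
    _ = ∑ α, (∑ i, z α i ^ 2) * t α ^ a := by
        rw [Finset.sum_comm]
        exact Finset.sum_congr rfl fun α _ => (Finset.sum_mul _ _ _).symm
    _ ≤ ∑ α, t α ^ a := Finset.sum_le_sum fun α _ => by
        have h1 := mul_le_mul_of_nonneg_right (e8 α) (Real.rpow_nonneg (ht0 α) a)
        rwa [one_mul] at h1

theorem young_diag [DecidableEq κ] {l : ℝ} (l0 : 0 < l) (Φ : Matrix ι κ ℝ) {v : κ → ℝ}
    (hv : ∀ i, 0 ≤ v i) :
    trace (Φ * diagonal v * Φᵀ) ≤ Ay l * ∑ i, v i ^ (1 + l) + trace (mp (1 / l + 1) (Φ * Φᵀ)) := by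
  have h1 := jensen_col (a := 1 / l + 1) (by have := one_div_pos.mpr l0; linarith) Φ
  have hP : (Φᵀ * Φ).PosSemidef := by
    have := gram_psd Φᵀ
    rwa [transpose_transpose] at this
  have e : trace (Φ * diagonal v * Φᵀ) = ∑ i, v i * (Φᵀ * Φ) i i := by
    rw [trace_mul_cycle]
    simp only [trace, diag_apply, mul_diagonal]
    exact Finset.sum_congr rfl fun i _ => mul_comm _ _
  have h2 := Finset.sum_le_sum fun i (_ : i ∈ (Finset.univ : Finset κ)) =>
    young_sc l0 (hv i) (hP.diag_nonneg (i := i))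
  rw [Finset.sum_add_distrib, ← Finset.mul_sum] at h2
  rw [e]
  linarith

end Vale.Agent.P371.G
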