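import Vale.Agent.P371.G.UpA
import Vale.Agent.P371.G.KinM
import Vale.Agent.P371.G.Young

open Real Finset Filter Topology MeasureTheory Matrix

namespace Vale.Agent.P371.G

open scoped ComplexOrder

theorem UpB_tr {ι : Type} [Fintype ι] (T M : Matrix ι ι ℝ) :
    trace (T * M * Tᵀ) = ∑ b, ∑ a, (Tᵀ * T) b a * M a b := by
  rw [trace_mul_comm, ← Matrix.mul_assoc]
  simp only [trace, Matrix.diag, Matrix.mul_apply (M := Tᵀ * T)]

theorem UpB_int {ι : Type} [Fintype ι] (T : Matrix ι ι ℝ) {M : ℝ → Matrix ι ι ℝ}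
    (hM : ∀ a b, Integrable fun x => M x a b) :
    (Integrable fun x => trace (T * M x * Tᵀ)) ∧
      ∫ x, trace (T * M x * Tᵀ) = ∑ b, ∑ a, (Tᵀ * T) b a * ∫ x, M x a b := by
  simp only [UpB_tr]
  have h1 : ∀ b, Integrable fun x => ∑ a, (Tᵀ * T) b a * M x a b := fun b =>
    integrable_finsetSum _ fun a _ => (hM a b).const_mul _
  refine ⟨integrable_finsetSum _ fun b _ => h1 b, ?_⟩
  rw [integral_finsetSum _ fun b _ => h1 b]
  refine Finset.sum_congr rfl fun b _ => ?_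
  rw [integral_finsetSum _ fun a _ => (hM a b).const_mul _]
  exact Finset.sum_congr rfl fun a _ => integral_const_mul _ _

theorem eigen_id {ι κ : Type} [Fintype ι] [DecidableEq ι] [Fintype κ] {Ψ Ψ' : ℝ → Matrix ι κ ℝ}
    (hΨ : ∀ a i, H1 (fun x => Ψ x a i) (fun x => Ψ' x a i)) {V : ℝ → Matrix κ κ ℝ} {μ : ι → ℝ}
    (h : ∀ a b, (Integrable fun x => (Ψ x * V x * (Ψ x)ᵀ) a b) ∧
      ∫ x, (Ψ x * V x * (Ψ x)ᵀ) a b = (∫ x, (Ψ' x * (Ψ' x)ᵀ) a b) + diagonal μ a b)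
    (T : Matrix ι ι ℝ) : (Integrable fun x => trace (T * Ψ x * V x * (T * Ψ x)ᵀ)) ∧
      ∫ x, trace (T * Ψ x * V x * (T * Ψ x)ᵀ) =
        (∫ x, trace (T * Ψ' x * (T * Ψ' x)ᵀ)) + trace (T * diagonal μ * Tᵀ) := by
  have e1 : ∀ x, T * Ψ x * V x * (T * Ψ x)ᵀ = T * (Ψ x * V x * (Ψ x)ᵀ) * Tᵀ := fun x => by
    simp only [transpose_mul, Matrix.mul_assoc]
  have e2 : ∀ x, T * Ψ' x * (T * Ψ' x)ᵀ = T * (Ψ' x * (Ψ' x)ᵀ) * Tᵀ := fun x => by
    simp only [transpose_mul, Matrix.mul_assoc]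
  have h1 := UpB_int T (M := fun x => Ψ x * V x * (Ψ x)ᵀ) fun a b => (h a b).1
  have h2 := UpB_int T (M := fun x => Ψ' x * (Ψ' x)ᵀ) fun a b =>
    integrable_finsetSum _ fun i _ => (hΨ a i).2.1.integrable_mul (hΨ b i).2.1
  simp only [e1, e2]
  refine ⟨h1.1, ?_⟩
  rw [h1.2, h2.2, UpB_tr, ← Finset.sum_add_distrib]
  refine Finset.sum_congr rfl fun b _ => ?_
  rw [← Finset.sum_add_distrib]
  refine Finset.sum_congr rfl fun a _ => ?_
  rw [(h a b).2, mul_add]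

theorem UpB_RR_one {κ : Type} [DecidableEq κ] : RR (1 : Matrix κ κ ℂ) = 1 := by
  ext (a | a) (b | b) <;> simp [RR, one_apply, apply_ite Complex.re, apply_ite Complex.im]

theorem young_rr {ι : Type} [Fintype ι] [DecidableEq ι] {m : ℕ} {l : ℝ} (l0 : 0 < l)
    (w : Matrix ι (Fin m ⊕ Fin m) ℝ) {W : Matrix (Fin m) (Fin m) ℂ} (hW : W.PosSemidef) :
    trace (w * RR W * wᵀ) - trace (mp (1 / l + 1) (w * wᵀ)) ≤
      2 * Ay l * (trace (cfc (fun t : ℝ => t ^ (l + 1 / 2 + 1 / 2)) W)).re := by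
  set U : Matrix (Fin m) (Fin m) ℂ := hW.1.eigenvectorUnitary.1 with hUdef
  have hU : U * Uᴴ = 1 := hW.1.eigenvectorUnitary.2.2
  have hd : W = U * diagonal (fun i => (hW.1.eigenvalues i : ℂ)) * Uᴴ := hW.1.spectral_theorem
  have e1 : w * RR U * (w * RR U)ᵀ = w * wᵀ := by
    rw [transpose_mul, Matrix.mul_assoc, ← Matrix.mul_assoc (RR U), ← RR_conjT, ← RR_mul, hU,
      UpB_RR_one, Matrix.one_mul]
  have e2 : w * RR U * diagonal (Sum.elim hW.1.eigenvalues hW.1.eigenvalues) * (w * RR U)ᵀ =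
      w * RR W * wᵀ := by
    conv_rhs => rw [hd, RR_mul, RR_mul, RR_diag, RR_conjT]
    simp only [transpose_mul, Matrix.mul_assoc]
  have := young_diag l0 (w * RR U) (v := Sum.elim hW.1.eigenvalues hW.1.eigenvalues)
    (by rintro (i | i) <;> exact hW.eigenvalues_nonneg i)
  rw [e1, e2, Fintype.sum_sum_type] at this
  simp only [Sum.elim_inl, Sum.elim_inr] at this
  rw [trace_cfc hW.1, show l + 1 / 2 + 1 / 2 = 1 + l by ring]
  linarith

theorem upper_gen {l : ℝ} (l0 : 0 < l) (l1 : l < 1) (m : ℕ) :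
    LT (l + 1 / 2) m ≤ ENNReal.ofReal (Ay l / cl l) := by
  refine iSup_le fun W => iSup_le fun hW => iSup_le fun _ => ENNReal.div_le_of_le_mul ?_
  refine iSup_le fun N => iSup_le fun lam => iSup_le fun ψ => iSup_le fun h => iSup_le fun hon => ?_
  obtain ⟨Ψ', h1, h2, h3⟩ := real_data hW h hon
  have hc := cl_pos l0
  have hA : 0 ≤ Ay l := by unfold Ay; positivity
  have hI : trPowInt (l + 1 / 2 + 1 / 2) W ≠ ⊤ := hW.2.2.ne
  have key : 2 * (cl l * ∑ j, |lam j| ^ (l + 1 / 2)) ≤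
      2 * Ay l * (trPowInt (l + 1 / 2 + 1 / 2) W).toReal := by
    refine le_of_forall_pos_le_add fun δ hδ => ?_
    obtain ⟨T, hT⟩ := kin_main l0 l1 h1 h2 (μ := Sum.elim (fun j => |lam j|) fun j => |lam j|)
      (by rintro (j | j) <;> exact abs_pos.2 (h j).1.ne) hδ
    obtain ⟨i1, e1⟩ := eigen_id h1 h3 T
    have i2 := (int_mp (h1_mul h1 T) (a := 1 / l + 1)
      (le_add_of_nonneg_left (by positivity))).2
    rw [← e1, ← integral_sub i1 i2, Fintype.sum_sum_type] at hT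
    simp only [Sum.elim_inl, Sum.elim_inr] at hT
    have h4 := (ofReal_int_le (i1.sub i2)).trans (lintegral_mono fun x =>
      ENNReal.ofReal_le_ofReal (young_rr l0 (T * RR (Mk (fun _ => 1) ψ x)) (hW.2.1 x)))
    simp only [ENNReal.ofReal_mul (show 0 ≤ 2 * Ay l by positivity)] at h4
    rw [lintegral_const_mul' _ _ ENNReal.ofReal_ne_top, ← trPowInt, ← ENNReal.ofReal_toReal hI,
      ← ENNReal.ofReal_mul (by positivity), ENNReal.ofReal_le_ofReal_iff (by positivity)] at h4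
    simp only [Pi.sub_apply] at h4
    linarith
  rw [← ENNReal.ofReal_toReal hI, ← ENNReal.ofReal_mul (by positivity)]
  refine ENNReal.ofReal_le_ofReal ?_
  rw [div_mul_eq_mul_div, le_div_iff₀ hc]
  linarith

end Vale.Agent.P371.G
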