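import Vale.Agent.P371.G.Jac
import Vale.Agent.P371.G.JCont

open Real Finset Filter Topology MeasureTheory Matrix

namespace Vale.Agent.P371.G

variable {ι : Type} [Fintype ι] [DecidableEq ι]

theorem xi1_lt {κ s : ℝ} (hs : 0 < s) : κ < √(κ ^ 2 + s) :=
  Real.lt_sqrt_of_sq_lt (by linarith)

theorem xi1_den {κ s t q : ℝ} (hs : 0 < s) (ht : |t| ≤ 1) (hq : |q| ≤ κ) :
    0 < √(κ ^ 2 + s) - t * q := by
  have h1 := xi1_lt (κ := κ) hs
  have h2 : t * q ≤ |t| * |q| := by rw [← abs_mul]; exact le_abs_self _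
  have h3 : |t| * |q| ≤ |q| := mul_le_of_le_one_left (abs_nonneg q) ht
  linarith

theorem xi1_mem {κ α β q : ℝ} (hα : |α| ≤ κ) (hβ : |β| ≤ κ) (hq : q ∈ Set.uIcc α β) :
    |q| ≤ κ := by
  rw [abs_le] at hα hβ ⊢
  rcases Set.mem_uIcc.mp hq with h | h <;> constructor <;> linarith [h.1, h.2, hα.1, hβ.1]

theorem xi1_sc {κ s t α β : ℝ} (hs : 0 < s) (ht : |t| ≤ 1) (ht0 : t ≠ 0) (hα : |α| ≤ κ)
    (hβ : |β| ≤ κ) :
    ∫ q in α..β, (√(κ ^ 2 + s) - t * q)⁻¹ =
      -t⁻¹ * Real.log (√(κ ^ 2 + s) - t * β) - -t⁻¹ * Real.log (√(κ ^ 2 + s) - t * α) := by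
  refine intervalIntegral.integral_eq_sub_of_hasDerivAt
    (f := fun q => -t⁻¹ * Real.log (√(κ ^ 2 + s) - t * q)) (fun q hq => ?_) ?_
  · have hd := xi1_den hs ht (xi1_mem hα hβ hq)
    have h1 : HasDerivAt (fun q => √(κ ^ 2 + s) - t * q) (-t) q := by
      simpa using ((hasDerivAt_id q).const_mul t).const_sub (√(κ ^ 2 + s))
    refine ((h1.log hd.ne').const_mul (-t⁻¹)).congr_deriv ?_
    field_simp
  · refine ContinuousOn.intervalIntegrable (ContinuousOn.inv₀ (by fun_prop) fun q hq => ?_)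
    exact (xi1_den hs ht (xi1_mem hα hβ hq)).ne'

theorem xi1_diag (κ α : ι → ℝ) (s t : ℝ) :
    Es κ s - t • (diagonal α : Matrix ι ι ℝ) = diagonal fun i => √(κ i ^ 2 + s) - t * α i := by
  unfold Es
  rw [← diagonal_smul, diagonal_sub]
  rfl

theorem xi1 {κ α β : ι → ℝ} (h0 : ∀ i, 0 ≤ κ i) {s t a b : ℝ} (hs : 0 < s) (ht : |t| ≤ 1)
    (hab : a ≤ b) {Q Q' : ℝ → Matrix ι ι ℝ} (hQ : MD Q Q')
    (hB : ∀ x ∈ Set.Icc a b, Bt (diagonal κ) (Q x)) (ha : Q a = diagonal α)
    (hb : Q b = diagonal β) :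
    ∫ x in a..b, trace ((Es κ s - t • Q x)⁻¹ * Q' x) =
      ∑ i, ∫ q in α i..β i, (√(κ i ^ 2 + s) - t * q)⁻¹ := by
  have hα : ∀ i, |α i| ≤ κ i := bt_diag (ha ▸ hB a (Set.left_mem_Icc.mpr hab))
  have hβ : ∀ i, |β i| ≤ κ i := bt_diag (hb ▸ hB b (Set.right_mem_Icc.mpr hab))
  have hc : ContinuousOn (fun x => (Es κ s - t • Q x)⁻¹) (Set.Icc a b) :=
    res_cont h0 (s := fun _ => s) (t := fun _ => t) continuousOn_const continuousOn_const
      hQ.cont.continuousOn fun x hx => ⟨hs, ht, hB x hx⟩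
  have hi : IntervalIntegrable (fun x => trace ((Es κ s - t • Q x)⁻¹ * Q' x)) volume a b := by
    refine ContinuousOn.intervalIntegrable ?_
    rw [Set.uIcc_of_le hab]
    exact (continuous_id.matrix_trace).comp_continuousOn (hc.mul hQ.1.continuousOn)
  by_cases ht0 : t = 0
  · subst ht0
    have hE : (Es κ s)⁻¹ = diagonal fun i => (√(κ i ^ 2 + s))⁻¹ := by
      refine Matrix.inv_eq_right_inv ?_
      unfold Es
      rw [diagonal_mul_diagonal, ← diagonal_one]
      congr 1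
      funext i
      exact mul_inv_cancel₀ (Real.sqrt_pos.mpr (by positivity)).ne'
    rw [intervalIntegral.integral_eq_sub_of_hasDerivAt
      (f := fun x => ∑ i, (√(κ i ^ 2 + s))⁻¹ * Q x i i) (fun x _ => ?_) hi]
    · rw [ha, hb, ← Finset.sum_sub_distrib]
      refine Finset.sum_congr rfl fun i _ => ?_
      simp only [zero_mul, sub_zero, intervalIntegral.integral_const, diagonal_apply_eq,
        smul_eq_mul]
      ring
    · refine (HasDerivAt.fun_sum fun i _ => (hQ.2 x i i).const_mul _).congr_deriv ?_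
      rw [zero_smul, sub_zero, hE, trace]
      exact Finset.sum_congr rfl fun i _ => by rw [diag_apply, diagonal_mul]
  · have hF : MD (fun x => Es κ s - t • Q x) fun x => -(t • Q' x) := by
      refine ⟨(hQ.1.const_smul t).neg, fun x i j => ?_⟩
      simpa using ((hQ.2 x i j).const_mul t).const_sub (Es κ s i j)
    rw [intervalIntegral.integral_eq_sub_of_hasDerivAt
      (f := fun x => -t⁻¹ * Real.log (Es κ s - t • Q x).det) (fun x hx => ?_) hi]
    · simp only [ha, hb, xi1_diag, det_diagonal]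
      rw [Real.log_prod fun i _ => (xi1_den hs ht (hβ i)).ne',
        Real.log_prod fun i _ => (xi1_den hs ht (hα i)).ne', Finset.mul_sum, Finset.mul_sum,
        ← Finset.sum_sub_distrib]
      exact Finset.sum_congr rfl fun i _ => (xi1_sc hs ht ht0 (hα i) (hβ i)).symm
    · rw [Set.uIcc_of_le hab] at hx
      have hd := (es_posDef h0 hs ht (hB x hx)).det_pos
      refine ((hF.logdet hd.ne').const_mul (-t⁻¹)).congr_deriv ?_
      rw [Matrix.mul_neg, Matrix.mul_smul, trace_neg, trace_smul, smul_eq_mul]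
      field_simp

end Vale.Agent.P371.G
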